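import Vale.Agent.P021.Nrm

/-! Non-asymptotic estimates for the auxiliary polynomial. -/

namespace Vale.Agent.P021

open MvPolynomial

variable {m : ℕ}

/-- The value of `Gp` at `u`. -/
noncomputable def Gval (h : ℕ) (u : ℂ) : ℂ :=
  ∑ i ∈ Finset.range h, (-1) ^ i / ((i : ℂ) + 1) * u ^ (i + 1)

theorem ev_X_none (u : ℂ) : ev (m := m) u (X none) = C u := by simp [ev]

theorem ev_X_some (u : ℂ) (j : Fin m) : ev (m := m) u (X (some j)) = X j := by simp [ev]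

theorem ev_C (u c : ℂ) : ev (m := m) u (C c) = C c := by simp [ev]

theorem ev_Gp (h : ℕ) (u : ℂ) : ev u (Gp m h) = C (Gval h u) := by
  simp only [Gp, Gval, map_sum, map_mul, map_pow, ev_C, ev_X_none]

theorem Gval_eq_logTaylor (h : ℕ) (u : ℂ) : Gval h u = Complex.logTaylor (h + 1) u := by
  unfold Gval Complex.logTaylor
  rw [Finset.sum_range_succ']
  simp only [Nat.cast_zero, div_zero, add_zero]
  refine Finset.sum_congr rfl fun i _ => ?_
  push_cast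
  rw [pow_succ (-1 : ℂ) (i + 1), pow_succ (-1 : ℂ) i]
  ring

theorem norm_Gval_sub_log_le (h : ℕ) {u : ℂ} (hu : ‖u‖ ≤ 1 / 2) :
    ‖Gval h u - Complex.log (1 + u)‖ ≤ 2 * ‖u‖ ^ (h + 1) := by
  rw [norm_sub_rev, Gval_eq_logTaylor]
  refine (Complex.norm_log_sub_logTaylor_le h (by linarith)).trans ?_
  have h1 : (1 - ‖u‖)⁻¹ ≤ 2 := by
    rw [inv_le_comm₀ (by linarith) (by norm_num)]
    linarith
  have h2 : (1 : ℝ) ≤ (h : ℝ) + 1 := by linarith [Nat.cast_nonneg (α := ℝ) h]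
  have h3 : 0 ≤ ‖u‖ ^ (h + 1) := by positivity
  have h4 : 0 ≤ (1 - ‖u‖)⁻¹ := inv_nonneg.2 (by linarith)
  calc ‖u‖ ^ (h + 1) * (1 - ‖u‖)⁻¹ / (h + 1) ≤ ‖u‖ ^ (h + 1) * (1 - ‖u‖)⁻¹ :=
        div_le_self (mul_nonneg h3 h4) h2
    _ ≤ ‖u‖ ^ (h + 1) * 2 := mul_le_mul_of_nonneg_left h1 h3
    _ = _ := mul_comm _ _

/-- The substitution `y = exp z`, `x j = v j * z + w j`. -/
noncomputable def Tz (v : Fin m → ℂ) (z : ℂ) :
    MvPolynomial (Option (Fin m)) ℂ →ₐ[ℂ] MvPolynomial (Fin m) ℂ :=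
  aeval fun o => o.elim (C (Complex.exp z)) fun j => C (v j * z) + X j

/-- Translation. -/
noncomputable def shift (e : Fin m → ℂ) : MvPolynomial (Fin m) ℂ →ₐ[ℂ] MvPolynomial (Fin m) ℂ :=
  aeval fun j => C (e j) + X j

theorem ev_Phi (v ξ : Fin m → ℂ) (h : Fin m → ℕ) {u z : ℂ} (hz : Complex.exp z = 1 + u)
    (F : MvPolynomial (Option (Fin m)) ℂ) :
    ev u (Phi v ξ h F) = shift (fun j => ξ j + v j * Gval (h j) u - v j * z) (Tz v z F) := by
  have : (ev u).comp (Phi v ξ h) =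
      (shift fun j => ξ j + v j * Gval (h j) u - v j * z).comp (Tz v z) := by
    refine algHom_ext fun o => ?_
    cases o with
    | none =>
      simp only [AlgHom.comp_apply, Phi, Tz, shift, aeval_X, Option.elim_none, map_add, map_one,
        ev_X_none, aeval_C, algebraMap_eq, hz]
    | some j =>
      simp only [AlgHom.comp_apply, Phi, Tz, shift, aeval_X, Option.elim_some, map_add, map_mul,
        ev_C, ev_Gp, ev_X_some, aeval_C, algebraMap_eq, map_sub]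
      ring
  exact DFunLike.congr_fun this F

/-- Truncated Taylor expansion of `exp (b z) * ∏ (v j * z + w j) ^ a j`. -/
noncomputable def Tt (v : Fin m → ℂ) (M : ℕ) (a : Option (Fin m) →₀ ℕ) :
    MvPolynomial (Option (Fin m)) ℂ :=
  (∑ i ∈ Finset.range M, C (((a none : ℕ) : ℂ) ^ i / (i.factorial : ℂ)) * X none ^ i) *
    ∏ j, (C (v j) * X none + X (some j)) ^ a (some j)

theorem ev_Tt (v : Fin m → ℂ) (M : ℕ) (a : Option (Fin m) →₀ ℕ) (z : ℂ) :
    ev z (Tt v M a) = C (∑ i ∈ Finset.range M, ((a none : ℂ) * z) ^ i / (i.factorial : ℂ)) *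
      ∏ j, (C (v j * z) + X j) ^ a (some j) := by
  simp only [Tt, map_mul, map_sum, map_prod, map_pow, map_add, ev_C, ev_X_none, ev_X_some]
  congr 1
  refine Finset.sum_congr rfl fun i _ => ?_
  rw [← map_pow, ← map_mul]
  congr 1
  ring

theorem Tz_monomial (v : Fin m → ℂ) (z : ℂ) (a : Option (Fin m) →₀ ℕ) (c : ℂ) :
    Tz v z (monomial a c) =
      C c * (C (Complex.exp ((a none : ℂ) * z)) * ∏ j, (C (v j * z) + X j) ^ a (some j)) := by
  rw [Tz, aeval_monomial_eq, Fintype.prod_option, Complex.exp_nat_mul]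
  simp

/-- Radii. -/
def rad (R : ℝ) (Q : Fin m → ℝ) : Option (Fin m) → ℝ := fun o => o.elim R Q

theorem rad_nonneg {R : ℝ} {Q : Fin m → ℝ} (hR : 0 ≤ R) (hQ : ∀ j, 0 ≤ Q j) :
    ∀ o, 0 ≤ rad R Q o := by
  intro o
  cases o with
  | none => exact hR
  | some j => exact hQ j

theorem wt_rad (R : ℝ) (Q : Fin m → ℝ) (c : Option (Fin m) →₀ ℕ) :
    wt (rad R Q) c = R ^ c none * ∏ j, Q j ^ c (some j) := by
  rw [wt, Fintype.prod_option]
  rfl

theorem nrm_Tt_le {v : Fin m → ℂ} {R : ℝ} {Q : Fin m → ℝ} (hR : 0 ≤ R)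
    (hv : ∀ j, ‖v j‖ ≤ Q j) (M : ℕ) (a : Option (Fin m) →₀ ℕ) :
    nrm (rad R Q) (Tt v M a) ≤
      Real.exp (a none * R) * ∏ j, (Q j * (R + 1)) ^ a (some j) := by
  have hQ : ∀ j, 0 ≤ Q j := fun j => (norm_nonneg _).trans (hv j)
  have hr := rad_nonneg hR hQ
  refine (nrm_mul_le hr _ _).trans (mul_le_mul ?_ ?_ (nrm_nonneg hr _) (Real.exp_pos _).le)
  · refine (nrm_sum_le hr _ _).trans (le_trans (Finset.sum_le_sum fun i _ => ?_)
      (Real.sum_le_exp_of_nonneg (x := a none * R) (by positivity) M))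
    refine (nrm_C_mul_le hr _ _).trans ?_
    have h1 : nrm (rad R Q) (X none ^ i) ≤ R ^ i := nrm_pow_le hr _ (nrm_X _ _).le i
    rw [norm_div, norm_pow, Complex.norm_natCast, Complex.norm_natCast, mul_pow, mul_div_right_comm]
    exact mul_le_mul_of_nonneg_left h1 (by positivity)
  · refine nrm_prod_le hr _ _ _ fun j _ => nrm_pow_le hr _ ?_ _
    refine (nrm_add_le hr _ _).trans ?_
    have h1 := nrm_C_mul_le hr (v j) (X none)
    rw [nrm_X] at h1 ⊢
    have h2 : ‖v j‖ * R ≤ Q j * R := mul_le_mul_of_nonneg_right (hv j) hR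
    have h3 : rad R Q none = R := rfl
    have h4 : rad R Q (some j) = Q j := rfl
    rw [h3] at h1
    rw [h4]
    linarith

theorem degreeOf_Tt_le (v : Fin m → ℂ) (M : ℕ) (a : Option (Fin m) →₀ ℕ) :
    degreeOf none (Tt v M a) ≤ M + ∑ j, a (some j) := by
  refine (degreeOf_mul_le _ _ _).trans (add_le_add ?_ ?_)
  · refine (degreeOf_sum_le _ _ _).trans (Finset.sup_le fun i hi => ?_)
    refine (degreeOf_C_mul_le _ _ _).trans ((degreeOf_pow_le _ _ _).trans ?_)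
    rw [degreeOf_X_self, mul_one]
    exact (Finset.mem_range.1 hi).le
  · refine (degreeOf_prod_le _ _ _).trans (Finset.sum_le_sum fun j _ => ?_)
    refine (degreeOf_pow_le _ _ _).trans ?_
    have : degreeOf none (C (v j) * X none + X (some j) : MvPolynomial (Option (Fin m)) ℂ) ≤ 1 := by
      refine (degreeOf_add_le _ _ _).trans (max_le ?_ ?_)
      · refine (degreeOf_C_mul_le _ _ _).trans ?_
        rw [degreeOf_X_self]
      · rw [degreeOf_X]
        split_ifs <;> omega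
    simpa using Nat.mul_le_mul_left (a (some j)) this

theorem exp_tail_le {x : ℂ} {y : ℝ} {M : ℕ} (hx : ‖x‖ ≤ y) (hy : 2 * y ≤ M + 1) :
    ‖Complex.exp x - ∑ i ∈ Finset.range M, x ^ i / (i.factorial : ℂ)‖ ≤
      2 * Real.exp (3 * y - M) := by
  have h0 : 0 ≤ y := (norm_nonneg _).trans hx
  have h1 : ‖x‖ / (M.succ : ℕ) ≤ 1 / 2 := by
    rw [div_le_iff₀ (by positivity)]
    push_cast
    linarith
  refine (Complex.exp_bound' h1).trans ?_
  have h2 := Real.pow_div_factorial_le_exp (x := Real.exp 1 * y) (by positivity) M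
  have h3 : Real.exp 1 * y ≤ 3 * y :=
    mul_le_mul_of_nonneg_right (Real.exp_one_lt_d9.le.trans (by norm_num)) h0
  have h4 : y ^ M / M.factorial ≤ Real.exp (3 * y - M) := by
    rw [Real.exp_sub, le_div_iff₀ (Real.exp_pos _)]
    have : Real.exp M = Real.exp 1 ^ M := by rw [← Real.exp_nat_mul, mul_one]
    rw [this]
    calc y ^ M / M.factorial * Real.exp 1 ^ M = (Real.exp 1 * y) ^ M / M.factorial := by
          rw [mul_pow]; ring
      _ ≤ Real.exp (Real.exp 1 * y) := h2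
      _ ≤ _ := Real.exp_le_exp.2 h3
  have h5 : ‖x‖ ^ M / M.factorial ≤ y ^ M / M.factorial := by gcongr
  linarith

/-- The polynomial with coefficients `c` on `U`. -/
noncomputable def PP (U : Finset (Option (Fin m) →₀ ℕ)) (c : (Option (Fin m) →₀ ℕ) → ℤ) :
    MvPolynomial (Option (Fin m)) ℂ := ∑ a ∈ U, monomial a (c a : ℂ)

/-- Its truncated Taylor expansion. -/
noncomputable def TP (v : Fin m → ℂ) (M : ℕ) (U : Finset (Option (Fin m) →₀ ℕ))
    (c : (Option (Fin m) →₀ ℕ) → ℤ) : MvPolynomial (Option (Fin m)) ℂ :=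
  ∑ a ∈ U, C (c a : ℂ) * Tt v M a

theorem coeff_PP (U : Finset (Option (Fin m) →₀ ℕ)) (c : (Option (Fin m) →₀ ℕ) → ℤ)
    (a : Option (Fin m) →₀ ℕ) : coeff a (PP U c) = if a ∈ U then (c a : ℂ) else 0 := by
  classical
  simp only [PP, coeff_sum, coeff_monomial]
  rw [Finset.sum_ite_eq' U a fun b => (c b : ℂ)]

theorem norm_intCast_le {c : ℤ} {X : ℕ} (h : |c| ≤ X) : ‖(c : ℂ)‖ ≤ X := by
  rw [Complex.norm_intCast]
  exact_mod_cast h

theorem nrm_Tz_le {v : Fin m → ℂ} {R W y : ℝ} {Q r : Fin m → ℝ} {z : ℂ} {M Xn : ℕ}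
    {U : Finset (Option (Fin m) →₀ ℕ)} {c : (Option (Fin m) →₀ ℕ) → ℤ}
    (hv : ∀ j, ‖v j‖ ≤ Q j) (hz : ‖z‖ ≤ R) (hr : ∀ j, 0 ≤ r j) (hrQ : ∀ j, r j ≤ Q j)
    (hc : ∀ a, |c a| ≤ Xn) (hW : ∀ a ∈ U, ∏ j, (Q j * (R + 1)) ^ a (some j) ≤ W)
    (hy : ∀ a ∈ U, a none * R ≤ y) (hyM : 2 * y ≤ M + 1) :
    nrm r (Tz v z (PP U c)) ≤
      nrm (rad R r) (TP v M U c) + U.card * (Xn * (2 * Real.exp (3 * y - M) * W)) := by
  have hR : 0 ≤ R := (norm_nonneg _).trans hz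
  have h1 : Tz v z (PP U c) = ev z (TP v M U c) + ∑ a ∈ U, C (c a : ℂ) *
      (C (Complex.exp ((a none : ℂ) * z) -
        ∑ i ∈ Finset.range M, ((a none : ℂ) * z) ^ i / (i.factorial : ℂ)) *
        ∏ j, (C (v j * z) + X j) ^ a (some j)) := by
    rw [PP, TP, map_sum, map_sum, ← Finset.sum_add_distrib]
    refine Finset.sum_congr rfl fun a _ => ?_
    rw [Tz_monomial, map_mul, ev_C, ev_Tt, map_sub]
    ring
  rw [h1]
  refine (nrm_add_le hr _ _).trans (add_le_add ?_ ?_)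
  · refine nrm_aeval_le hr _ (fun o => ?_) _
    cases o with
    | none => simpa [nrm_C, rad] using hz
    | some j => simp [nrm_X, rad]
  · refine (nrm_sum_le hr _ _).trans ?_
    rw [← nsmul_eq_mul, ← Finset.sum_const]
    refine Finset.sum_le_sum fun a ha => ?_
    refine (nrm_C_mul_le hr _ _).trans
      (mul_le_mul (norm_intCast_le (hc a)) ?_ (nrm_nonneg hr _) (by positivity))
    refine (nrm_C_mul_le hr _ _).trans
      (mul_le_mul (exp_tail_le ?_ hyM) ?_ (nrm_nonneg hr _) (by positivity))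
    · rw [norm_mul, Complex.norm_natCast]
      exact (mul_le_mul_of_nonneg_left hz (by positivity)).trans (hy a ha)
    · refine le_trans (nrm_prod_le hr _ _ _ fun j _ => nrm_pow_le hr _ ?_ _) (hW a ha)
      refine (nrm_add_le hr _ _).trans ?_
      rw [nrm_C, nrm_X, norm_mul]
      have h2 : ‖v j‖ * ‖z‖ ≤ Q j * R :=
        mul_le_mul (hv j) hz (norm_nonneg _) ((norm_nonneg _).trans (hv j))
      have := hrQ j
      linarith

theorem nrm_split {R δ η : ℝ} {Q τ : Fin m → ℝ} (hR : 0 ≤ R) (hQ : ∀ j, 0 ≤ Q j)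
    (hτ0 : ∀ j, 0 ≤ τ j) (hτ1 : ∀ j, τ j ≤ 1) (hδ : 0 ≤ δ) (hη : 0 ≤ η)
    (F : MvPolynomial (Option (Fin m)) ℂ) (J : Finset (Option (Fin m) →₀ ℕ))
    (hJ : ∀ c ∈ J, ‖coeff c F‖ * wt (rad R Q) c ≤ η)
    (hJ' : ∀ c ∈ F.support, c ∉ J → ∏ j, τ j ^ c (some j) ≤ δ) :
    nrm (rad R fun j => Q j * τ j) F ≤ J.card * η + nrm (rad R Q) F * δ := by
  classical
  have hr := rad_nonneg hR hQ
  have h1 : ∀ c ∈ F.support, ‖coeff c F‖ * wt (rad R fun j => Q j * τ j) c ≤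
      (if c ∈ J then η else 0) + ‖coeff c F‖ * wt (rad R Q) c * δ := by
    intro c hc
    have h2 : ‖coeff c F‖ * wt (rad R fun j => Q j * τ j) c =
        ‖coeff c F‖ * wt (rad R Q) c * ∏ j, τ j ^ c (some j) := by
      simp only [wt_rad, mul_pow, Finset.prod_mul_distrib]
      ring
    have h3 : 0 ≤ ‖coeff c F‖ * wt (rad R Q) c := mul_nonneg (norm_nonneg _) (wt_nonneg hr c)
    rw [h2]
    split_ifs with hcJ
    · have h4 : ∏ j, τ j ^ c (some j) ≤ 1 :=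
        Finset.prod_le_one (fun j _ => pow_nonneg (hτ0 j) _)
          fun j _ => pow_le_one₀ (hτ0 j) (hτ1 j)
      have h5 := mul_le_mul_of_nonneg_left h4 h3
      have h6 := hJ c hcJ
      have h7 := mul_nonneg h3 hδ
      linarith
    · rw [zero_add]
      exact mul_le_mul_of_nonneg_left (hJ' c hc hcJ) h3
  refine (Finset.sum_le_sum h1).trans ?_
  rw [Finset.sum_add_distrib, ← Finset.sum_mul, Finset.sum_ite_mem, Finset.sum_const,
    nsmul_eq_mul]
  refine add_le_add (mul_le_mul_of_nonneg_right ?_ hη) le_rfl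
  exact_mod_cast Finset.card_le_card Finset.inter_subset_right

theorem nrm_TP_le {v : Fin m → ℂ} {r : Option (Fin m) → ℝ} (hr : ∀ o, 0 ≤ r o) {B : ℝ}
    {M Xn : ℕ} {U : Finset (Option (Fin m) →₀ ℕ)} {c : (Option (Fin m) →₀ ℕ) → ℤ}
    (hc : ∀ a, |c a| ≤ Xn) (hB : ∀ a ∈ U, nrm r (Tt v M a) ≤ B) :
    nrm r (TP v M U c) ≤ U.card * (Xn * B) := by
  refine (nrm_sum_le hr _ _).trans ?_
  rw [← nsmul_eq_mul, ← Finset.sum_const]
  refine Finset.sum_le_sum fun a ha => ?_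
  exact (nrm_C_mul_le hr _ _).trans
    (mul_le_mul (norm_intCast_le (hc a)) (hB a ha) (nrm_nonneg hr _) (by positivity))

theorem degreeOf_TP_le {v : Fin m → ℂ} {M N : ℕ} {U : Finset (Option (Fin m) →₀ ℕ)}
    (c : (Option (Fin m) →₀ ℕ) → ℤ) (hN : ∀ a ∈ U, ∑ j, a (some j) ≤ N) :
    degreeOf none (TP v M U c) ≤ M + N := by
  refine (degreeOf_sum_le _ _ _).trans (Finset.sup_le fun a ha => ?_)
  refine (degreeOf_C_mul_le _ _ _).trans ((degreeOf_Tt_le _ _ _).trans ?_)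
  have := hN a ha
  omega

theorem coeff_ev_Phi_le {v ξ : Fin m → ℂ} {h : Fin m → ℕ} {u z : ℂ}
    (hz : Complex.exp z = 1 + u) {r : Fin m → ℝ}
    (he : ∀ j, ‖ξ j + v j * Gval (h j) u - v j * z‖ ≤ r j)
    (F : MvPolynomial (Option (Fin m)) ℂ) (s : Fin m →₀ ℕ) :
    ‖coeff s (ev u (Phi v ξ h F))‖ * wt r s ≤ nrm (fun j => 2 * r j) (Tz v z F) := by
  have hr : ∀ j, 0 ≤ r j := fun j => (norm_nonneg _).trans (he j)
  refine (coeff_le_nrm hr _ s).trans ?_
  rw [ev_Phi v ξ h hz]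
  refine nrm_aeval_le hr _ (fun j => (nrm_add_le hr _ _).trans ?_) _
  rw [nrm_C, nrm_X]
  have := he j
  linarith

theorem lcm_Gp_mem (h : ℕ) :
    C ((Nat.lcmUpto h : ℕ) : ℂ) * Gp m h ∈ OA (Option (Fin m)) := by
  rw [Gp, Finset.mul_sum]
  refine Subring.sum_mem _ fun i hi => ?_
  rw [← mul_assoc, ← map_mul]
  refine Subring.mul_mem _ ?_ (Subring.pow_mem _ (X_mem_OA _) _)
  have hd : (i + 1) ∣ Nat.lcmUpto h :=
    Finset.dvd_lcm (f := id) (Finset.mem_Icc.2 ⟨by omega, Finset.mem_range.1 hi⟩)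
  obtain ⟨t, ht⟩ := hd
  have : ((Nat.lcmUpto h : ℕ) : ℂ) * ((-1) ^ i / ((i : ℂ) + 1)) =
      (((-1) ^ i * (t : ℤ) : ℤ) : ℂ) := by
    have h0 : (i : ℂ) + 1 ≠ 0 := by exact_mod_cast Nat.succ_ne_zero i
    rw [ht]
    push_cast
    field_simp
  rw [this]
  exact C_int_mem_OA _

theorem Phi_PP_mem {v ξ : Fin m → ℂ} (h d : Fin m → ℕ)
    (hv : ∀ j, (C (v j) : MvPolynomial (Option (Fin m)) ℂ) ∈ OA _)
    (hξ : ∀ j, (C (ξ j) : MvPolynomial (Option (Fin m)) ℂ) ∈ OA _)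
    (U : Finset (Option (Fin m) →₀ ℕ)) (c : (Option (Fin m) →₀ ℕ) → ℤ)
    (hd : ∀ a ∈ U, ∀ j, a (some j) ≤ d j) :
    C (((∏ j, Nat.lcmUpto (h j) ^ d j : ℕ)) : ℂ) * Phi v ξ h (PP U c) ∈
      OA (Option (Fin m)) := by
  rw [PP, map_sum, Finset.mul_sum]
  refine Subring.sum_mem _ fun a ha => ?_
  rw [Phi, aeval_monomial_eq, Fintype.prod_option, algebraMap_eq]
  simp only [Option.elim_none, Option.elim_some]
  have h1 : (C (((∏ j, Nat.lcmUpto (h j) ^ d j : ℕ)) : ℂ) :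
      MvPolynomial (Option (Fin m)) ℂ) *
      (C (c a : ℂ) * ((1 + X none) ^ a none *
        ∏ j, (C (ξ j) + C (v j) * Gp m (h j) + X (some j)) ^ a (some j))) =
      C (c a : ℂ) * ((1 + X none) ^ a none *
        ∏ j, (C ((Nat.lcmUpto (h j) : ℕ) : ℂ) ^ (d j - a (some j)) *
          (C ((Nat.lcmUpto (h j) : ℕ) : ℂ) * C (ξ j) +
            C (v j) * (C ((Nat.lcmUpto (h j) : ℕ) : ℂ) * Gp m (h j)) +
            C ((Nat.lcmUpto (h j) : ℕ) : ℂ) * X (some j)) ^ a (some j))) := by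
    have h2 : ∀ j, (C ((Nat.lcmUpto (h j) : ℕ) : ℂ) ^ (d j - a (some j)) *
          (C ((Nat.lcmUpto (h j) : ℕ) : ℂ) * C (ξ j) +
            C (v j) * (C ((Nat.lcmUpto (h j) : ℕ) : ℂ) * Gp m (h j)) +
            C ((Nat.lcmUpto (h j) : ℕ) : ℂ) * X (some j)) ^ a (some j) :
            MvPolynomial (Option (Fin m)) ℂ) =
          C ((Nat.lcmUpto (h j) : ℕ) : ℂ) ^ d j *
            (C (ξ j) + C (v j) * Gp m (h j) + X (some j)) ^ a (some j) := by
      intro j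
      generalize (C ((Nat.lcmUpto (h j) : ℕ) : ℂ) : MvPolynomial (Option (Fin m)) ℂ) = L
      have h3 : L * C (ξ j) + C (v j) * (L * Gp m (h j)) + L * X (some j) =
          L * (C (ξ j) + C (v j) * Gp m (h j) + X (some j)) := by ring
      rw [h3, mul_pow, ← mul_assoc, ← pow_add, Nat.sub_add_cancel (hd a ha j)]
    simp only [h2, Finset.prod_mul_distrib, Nat.cast_prod, Nat.cast_pow, map_prod, map_pow]
    ring
  rw [h1]
  refine Subring.mul_mem _ (C_int_mem_OA _) (Subring.mul_mem _ (Subring.pow_mem _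
    (Subring.add_mem _ (Subring.one_mem _) (X_mem_OA _)) _) (Subring.prod_mem _ fun j _ => ?_))
  refine Subring.mul_mem _ (Subring.pow_mem _ (C_nat_mem_OA _) _) (Subring.pow_mem _ ?_ _)
  exact Subring.add_mem _ (Subring.add_mem _ (Subring.mul_mem _ (C_nat_mem_OA _) (hξ j))
    (Subring.mul_mem _ (hv j) (lcm_Gp_mem _))) (Subring.mul_mem _ (C_nat_mem_OA _) (X_mem_OA _))

theorem lcmUpto_le_exp (h : ℕ) : (Nat.lcmUpto h : ℝ) ≤ Real.exp (6 * h) := by
  have h1 := Chebyshev.psi_eq_log_lcmUpto h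
  have h2 := Chebyshev.psi_le_const_mul_self (x := h) (Nat.cast_nonneg h)
  have h3 : Real.log 4 ≤ 2 := by
    have : Real.log 4 = 2 * Real.log 2 := by
      rw [show (4 : ℝ) = 2 ^ 2 by norm_num, Real.log_pow]
      norm_num
    have := Real.log_two_lt_d9
    linarith
  have h4 : (0 : ℝ) < Nat.lcmUpto h := by exact_mod_cast Nat.lcmUpto_pos h
  rw [← Real.log_le_iff_le_exp h4, ← h1]
  refine h2.trans (mul_le_mul_of_nonneg_right (by linarith) (Nat.cast_nonneg h))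

end Vale.Agent.P021
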