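import Vale.Agent.P021.AuxCore

/-! The three stages of the construction of the auxiliary polynomial, for a fixed degree. -/

namespace Vale.Agent.P021

open MvPolynomial

variable {m : ℕ}

theorem prod_exp_pow (lq : Fin m → ℝ) (t : ℝ) (s : Fin m → ℕ) :
    ∏ j, Real.exp (t * lq j) ^ s j = Real.exp (t * ∑ j, s j * lq j) := by
  rw [Finset.mul_sum, Real.exp_sum]
  refine Finset.prod_congr rfl fun j _ => ?_
  rw [← Real.exp_nat_mul]
  congr 1
  ring

theorem prod_pow_le_exp {x lq : Fin m → ℝ} {t : ℝ} (hx0 : ∀ j, 0 ≤ x j)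
    (hx : ∀ j, x j ≤ Real.exp (t * lq j)) (s : Fin m → ℕ) :
    ∏ j, x j ^ s j ≤ Real.exp (t * ∑ j, s j * lq j) := by
  rw [← prod_exp_pow]
  exact Finset.prod_le_prod (fun j _ => pow_nonneg (hx0 j) _)
    fun j _ => pow_le_pow_left₀ (hx0 j) (hx j) _

theorem exp_le_prod_pow {x lq : Fin m → ℝ} {t : ℝ}
    (hx : ∀ j, Real.exp (t * lq j) ≤ x j) (s : Fin m → ℕ) :
    Real.exp (t * ∑ j, s j * lq j) ≤ ∏ j, x j ^ s j := by
  rw [← prod_exp_pow]
  exact Finset.prod_le_prod (fun j _ => pow_nonneg (Real.exp_pos _).le _)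
    fun j _ => pow_le_pow_left₀ (Real.exp_pos _).le (hx j) _

theorem ceil_exp_le {x : ℝ} (hx : 0 ≤ x) : (⌈Real.exp x⌉₊ : ℝ) ≤ 2 * Real.exp x := by
  have h1 := (Nat.ceil_lt_add_one (Real.exp_pos x).le).le
  have h2 := Real.one_le_exp hx
  linarith

theorem seven_le_exp {x : ℝ} (hx : 2 ≤ x) : 7 ≤ Real.exp x := by
  have h1 : Real.exp 2 ≤ Real.exp x := Real.exp_le_exp.2 hx
  have h2 : Real.exp 2 = Real.exp 1 * Real.exp 1 := by
    rw [← Real.exp_add]
    norm_num
  have h3 := Real.exp_one_gt_d9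
  nlinarith

theorem pigeon_ineq {ν E D : ℝ} {nU nJ : ℕ} (hν : 2 ≤ ν) (hE0 : 0 < E) (hE1 : E ≤ 1 / 8)
    (hD : 4 ≤ D) (hU : (nU : ℝ) ≤ Real.exp (E * D)) (hc : 2 * (ν + 3) * nJ < E * nU) :
    (2 * (nU * Real.exp ((1 + 2 * E) * D) * (⌈Real.exp (E * D)⌉₊ : ℕ) / Real.exp (-ν * D)) + 3) ^
        (2 * nJ) < (((⌈Real.exp (E * D)⌉₊ : ℕ) : ℝ) + 1) ^ nU := by
  have hED : 0 ≤ E * D := by positivity
  have hX := ceil_exp_le hED
  have h1 : nU * Real.exp ((1 + 2 * E) * D) * (⌈Real.exp (E * D)⌉₊ : ℕ) / Real.exp (-ν * D) ≤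
      2 * Real.exp ((ν + 1 + 4 * E) * D) := by
    rw [div_le_iff₀ (Real.exp_pos _)]
    calc (nU : ℝ) * Real.exp ((1 + 2 * E) * D) * (⌈Real.exp (E * D)⌉₊ : ℕ)
        ≤ Real.exp (E * D) * Real.exp ((1 + 2 * E) * D) * (2 * Real.exp (E * D)) := by gcongr
      _ = 2 * Real.exp (E * D + (1 + 2 * E) * D + E * D) := by
          rw [Real.exp_add, Real.exp_add]; ring
      _ = 2 * Real.exp ((ν + 1 + 4 * E) * D + -ν * D) := by congr 2; ring
      _ = _ := by rw [Real.exp_add]; ring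
  have h2 : 1 ≤ Real.exp ((ν + 1 + 4 * E) * D) := Real.one_le_exp (by positivity)
  have h3 : 7 * Real.exp ((ν + 1 + 4 * E) * D) ≤ Real.exp ((ν + 3) * D) := by
    have : (ν + 3) * D = (2 - 4 * E) * D + (ν + 1 + 4 * E) * D := by ring
    rw [this, Real.exp_add ((2 - 4 * E) * D)]
    exact mul_le_mul_of_nonneg_right (seven_le_exp (by nlinarith)) (Real.exp_pos _).le
  calc _ ≤ Real.exp ((ν + 3) * D) ^ (2 * nJ) := pow_le_pow_left₀ (by positivity) (by linarith) _
    _ = Real.exp (D * (2 * (ν + 3) * nJ)) := by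
        rw [← Real.exp_nat_mul]
        congr 1
        push_cast
        ring
    _ < Real.exp (D * (E * nU)) := Real.exp_lt_exp.2 (mul_lt_mul_of_pos_left hc (by linarith))
    _ = Real.exp (E * D) ^ nU := by
        rw [← Real.exp_nat_mul]
        congr 1
        ring
    _ ≤ _ := pow_le_pow_left₀ (Real.exp_pos _).le (by linarith [Nat.le_ceil (Real.exp (E * D))]) _

section Bounds

variable {K : ℕ} {E β D : ℝ} {lq : Fin m → ℝ} {a : Option (Fin m) →₀ ℕ}

theorem sum_lq_nonneg (hlq : ∀ j, 1 ≤ lq j) (s : Fin m → ℕ) : 0 ≤ ∑ j, s j * lq j :=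
  Finset.sum_nonneg fun j _ => mul_nonneg (Nat.cast_nonneg _) (by linarith [hlq j])

theorem none_mul_le (hE0 : 0 < E) (hβ : 24 * (K : ℝ) ≤ E * β) (hlq : ∀ j, 1 ≤ lq j)
    (ha : a none * β + ∑ j, a (some j) * lq j ≤ D) : a none * (8 * (K : ℝ)) ≤ E * D / 3 := by
  have h1 := sum_lq_nonneg hlq fun j => a (some j)
  have h2 : (a none : ℝ) * β ≤ D := by linarith
  have h3 := mul_le_mul_of_nonneg_left hβ (Nat.cast_nonneg (α := ℝ) (a none))
  have h4 := mul_le_mul_of_nonneg_left h2 hE0.le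
  linarith

theorem sum_some_le (hE0 : 0 < E) (hβ : 24 * (K : ℝ) ≤ E * β)
    (ha : a none * β + ∑ j, a (some j) * lq j ≤ D) : ∑ j, a (some j) * lq j ≤ D := by
  have h0 : 0 ≤ β := by
    by_contra hb
    have : E * β < 0 := mul_neg_of_pos_of_neg hE0 (not_le.1 hb)
    have : (0 : ℝ) ≤ K := Nat.cast_nonneg _
    linarith
  have : 0 ≤ (a none : ℝ) * β := by positivity
  linarith

theorem prod_W_le (hE0 : 0 < E) (hβ : 24 * (K : ℝ) ≤ E * β)
    (hK : ∀ j, 8 * (K : ℝ) + 1 ≤ Real.exp (E * lq j))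
    (ha : a none * β + ∑ j, a (some j) * lq j ≤ D) :
    ∏ j, (Real.exp (lq j) * (8 * (K : ℝ) + 1)) ^ a (some j) ≤ Real.exp ((1 + E) * D) := by
  refine (prod_pow_le_exp (lq := lq) (t := 1 + E) (fun j => by positivity) (fun j => ?_) _).trans
    (Real.exp_le_exp.2 (mul_le_mul_of_nonneg_left (sum_some_le hE0 hβ ha) (by linarith)))
  rw [add_mul, one_mul, Real.exp_add]
  exact mul_le_mul_of_nonneg_left (hK j) (Real.exp_pos _).le

theorem tau_le {ν : ℝ} (hK : ∀ j, 8 * (K : ℝ) + 1 ≤ Real.exp (E * lq j)) (j : Fin m) :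
    4 * (K : ℝ) * Real.exp (-ν * lq j) ≤ Real.exp ((E - ν) * lq j) := by
  have : (E - ν) * lq j = E * lq j + -ν * lq j := by ring
  rw [this, Real.exp_add]
  refine mul_le_mul_of_nonneg_right ?_ (Real.exp_pos _).le
  have := hK j
  have : (0 : ℝ) ≤ K := Nat.cast_nonneg _
  linarith

theorem tau_le_one {ν : ℝ} (hν : 2 ≤ ν) (hE1 : E ≤ 1 / 8) (hlq : ∀ j, 1 ≤ lq j)
    (hK : ∀ j, 8 * (K : ℝ) + 1 ≤ Real.exp (E * lq j)) (j : Fin m) :
    4 * (K : ℝ) * Real.exp (-ν * lq j) ≤ 1 := by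
  refine (tau_le hK j).trans (Real.exp_le_one_iff.2 ?_)
  have := hlq j
  nlinarith

end Bounds

theorem stage1 {K M : ℕ} {ν θ' E β D : ℝ} {v : Fin m → ℂ} {lq : Fin m → ℝ}
    {U : Finset (Option (Fin m) →₀ ℕ)} {V : Finset (Fin m →₀ ℕ)}
    (hν : 2 ≤ ν) (hθ'1 : θ' ≤ 1) (hE0 : 0 < E) (hE1 : E ≤ 1 / 8)
    (hβ : 24 * (K : ℝ) ≤ E * β) (hlq : ∀ j, 1 ≤ lq j) (hv : ∀ j, ‖v j‖ ≤ Real.exp (lq j))
    (hK : ∀ j, 8 * (K : ℝ) + 1 ≤ Real.exp (E * lq j))
    (hU : ∀ a ∈ U, a none * β + ∑ j, a (some j) * lq j ≤ D)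
    (hV : ∀ s : Fin m →₀ ℕ, ∑ j, s j * lq j < θ' * D → s ∈ V)
    (hM : (M : ℝ) ≤ (ν + 2) * D + 1) (hD : 4 ≤ D)
    (hUc : (U.card : ℝ) ≤ Real.exp (E * D)) (hVc : (ν + 5) * D * V.card ≤ Real.exp (E * D))
    (hc : 2 * (ν + 3) * ((ν + 5) * D * V.card) < E * U.card) :
    ∃ c : (Option (Fin m) →₀ ℕ) → ℤ, (∃ a ∈ U, c a ≠ 0) ∧ (∀ a, |c a| ≤ (⌈Real.exp (E * D)⌉₊ : ℕ)) ∧
      nrm (rad (8 * K) fun j => Real.exp (lq j) * (4 * K * Real.exp (-ν * lq j))) (TP v M U c) ≤
        4 * Real.exp ((1 + 5 * E - ν * θ') * D) := by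
  classical
  have hED : 0 ≤ E * D := by positivity
  have hR : (0 : ℝ) ≤ 8 * K := by positivity
  have hr := rad_nonneg (Q := fun j => Real.exp (lq j)) hR fun j => (Real.exp_pos _).le
  set N : ℕ := ⌊D⌋₊ with hN
  set J : Finset (Option (Fin m) →₀ ℕ) :=
    (Finset.range (M + N + 1) ×ˢ V).image fun x => x.2.optionElim x.1 with hJ
  have hJc : (J.card : ℝ) ≤ (ν + 5) * D * V.card := by
    have h1 : J.card ≤ (M + N + 1) * V.card := by
      refine Finset.card_image_le.trans ?_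
      rw [Finset.card_product, Finset.card_range]
    have h2 : (N : ℝ) ≤ D := Nat.floor_le (by linarith)
    have h3 : (J.card : ℝ) ≤ (M + N + 1) * V.card := by exact_mod_cast h1
    refine h3.trans (mul_le_mul_of_nonneg_right ?_ (Nat.cast_nonneg _))
    linarith
  have hB : ∀ a ∈ U, nrm (rad (8 * K) fun j => Real.exp (lq j)) (Tt v M a) ≤
      Real.exp ((1 + 2 * E) * D) := by
    intro a ha
    refine (nrm_Tt_le hR hv M a).trans ?_
    have h1 := none_mul_le hE0 hβ hlq (hU a ha)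
    have h2 := prod_W_le hE0 hβ hK (hU a ha)
    have h3 : (1 + 2 * E) * D = E * D + (1 + E) * D := by ring
    rw [h3, Real.exp_add]
    exact mul_le_mul (Real.exp_le_exp.2 (by linarith)) h2 (by positivity) (Real.exp_pos _).le
  obtain ⟨c, hc0, hcX, hcJ⟩ := pigeon U J
    (fun c a => coeff c (Tt v M a) * (wt (rad (8 * K) fun j => Real.exp (lq j)) c : ℝ))
    (Real.exp ((1 + 2 * E) * D)) (Real.exp (-ν * D)) ⌈Real.exp (E * D)⌉₊ (Real.exp_pos _)
    (Real.exp_pos _).le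
    (fun c _ a ha => by
      rw [norm_mul, Complex.norm_real, Real.norm_of_nonneg (wt_nonneg hr c)]
      exact (coeff_le_nrm hr _ c).trans (hB a ha))
    (pigeon_ineq hν hE0 hE1 hD hUc
      (lt_of_le_of_lt (mul_le_mul_of_nonneg_left hJc (by linarith)) hc))
  refine ⟨c, hc0, hcX, ?_⟩
  have hdeg : degreeOf none (TP v M U c) ≤ M + N := by
    refine degreeOf_TP_le c fun a ha => Nat.le_floor ?_
    refine le_trans ?_ (sum_some_le hE0 hβ (hU a ha))
    push_cast
    exact Finset.sum_le_sum fun j _ => le_mul_of_one_le_right (Nat.cast_nonneg _) (hlq j)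
  have hsplit := nrm_split (R := 8 * K) (Q := fun j => Real.exp (lq j))
    (τ := fun j => 4 * K * Real.exp (-ν * lq j)) (δ := Real.exp ((E - ν) * (θ' * D)))
    (η := 2 * Real.exp (-ν * D)) hR (fun j => (Real.exp_pos _).le) (fun j => by positivity)
    (tau_le_one hν hE1 hlq hK) (Real.exp_pos _).le (by positivity) (TP v M U c) J
    (fun e he => by
      have h1 := hcJ e he
      have h2 : ∑ i ∈ U, (c i : ℂ) * (coeff e (Tt v M i) *
          (wt (rad (8 * K) fun j => Real.exp (lq j)) e : ℝ)) =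
          coeff e (TP v M U c) * (wt (rad (8 * K) fun j => Real.exp (lq j)) e : ℝ) := by
        rw [TP, coeff_sum, Finset.sum_mul]
        refine Finset.sum_congr rfl fun i _ => ?_
        rw [coeff_C_mul, mul_assoc]
      rwa [h2, norm_mul, Complex.norm_real, Real.norm_of_nonneg (wt_nonneg hr e)] at h1)
    (fun e he heJ => by
      have h1 : e none ≤ M + N := (monomial_le_degreeOf none he).trans hdeg
      have h2 : θ' * D ≤ ∑ j, e (some j) * lq j := by
        by_contra h3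
        apply heJ
        refine Finset.mem_image.2 ⟨(e none, e.some), Finset.mem_product.2
          ⟨Finset.mem_range.2 (by omega), hV _ (by simpa using h3)⟩, Finsupp.optionElim_some e⟩
      refine (prod_pow_le_exp (fun j => by positivity) (tau_le hK) _).trans
        (Real.exp_le_exp.2 ?_)
      exact mul_le_mul_of_nonpos_left h2 (by linarith))
  refine hsplit.trans ?_
  have h1 := nrm_TP_le hr hcX hB
  have hX := ceil_exp_le hED
  have h2 : (J.card : ℝ) * (2 * Real.exp (-ν * D)) ≤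
      2 * Real.exp ((1 + 5 * E - ν * θ') * D) := by
    calc (J.card : ℝ) * (2 * Real.exp (-ν * D)) ≤ Real.exp (E * D) * (2 * Real.exp (-ν * D)) :=
          mul_le_mul_of_nonneg_right (hJc.trans hVc) (by positivity)
      _ = 2 * Real.exp ((E - ν) * D) := by
          rw [sub_mul, sub_eq_add_neg, Real.exp_add, neg_mul]; ring
      _ ≤ _ := by
          refine mul_le_mul_of_nonneg_left (Real.exp_le_exp.2 ?_) (by norm_num)
          refine mul_le_mul_of_nonneg_right ?_ (by linarith)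
          nlinarith
  have h3 : nrm (rad (8 * K) fun j => Real.exp (lq j)) (TP v M U c) *
      Real.exp ((E - ν) * (θ' * D)) ≤ 2 * Real.exp ((1 + 5 * E - ν * θ') * D) := by
    calc _ ≤ Real.exp (E * D) * (2 * Real.exp (E * D) * Real.exp ((1 + 2 * E) * D)) *
            Real.exp ((E - ν) * (θ' * D)) := by
          refine mul_le_mul_of_nonneg_right (h1.trans ?_) (Real.exp_pos _).le
          gcongr
      _ = 2 * Real.exp (E * D + E * D + (1 + 2 * E) * D + (E - ν) * (θ' * D)) := by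
          rw [Real.exp_add, Real.exp_add, Real.exp_add]; ring
      _ ≤ _ := by
          refine mul_le_mul_of_nonneg_left (Real.exp_le_exp.2 ?_) (by norm_num)
          have := mul_le_mul_of_nonneg_left hθ'1 hED
          nlinarith
  linarith

theorem stage2 {K M : ℕ} {ν θ θ' E β D l : ℝ} {v ξ : Fin m → ℂ} {lq : Fin m → ℝ} {z₀ : ℂ}
    {h : Fin m → ℕ} {U : Finset (Option (Fin m) →₀ ℕ)} {c : (Option (Fin m) →₀ ℕ) → ℤ}
    (hK1 : 1 ≤ K) (hν : 2 ≤ ν) (hθ'1 : θ' ≤ 1) (hE0 : 0 < E) (hE1 : E ≤ 1 / 8)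
    (hη : 8 * E ≤ ν * θ' - 1 - (ν - 1) * θ)
    (hβ : 24 * (K : ℝ) ≤ E * β) (hlq : ∀ j, 1 ≤ lq j) (hv : ∀ j, ‖v j‖ ≤ Real.exp (lq j))
    (hK : ∀ j, 8 * (K : ℝ) + 1 ≤ Real.exp (E * lq j))
    (hU : ∀ a ∈ U, a none * β + ∑ j, a (some j) * lq j ≤ D)
    (hM : (ν + 2) * D ≤ M) (hD : 4 ≤ D) (hUc : (U.card : ℝ) ≤ Real.exp (E * D))
    (hcX : ∀ a, |c a| ≤ (⌈Real.exp (E * D)⌉₊ : ℕ))
    (hTP : nrm (rad (8 * K) fun j => Real.exp (lq j) * (4 * K * Real.exp (-ν * lq j)))
      (TP v M U c) ≤ 4 * Real.exp ((1 + 5 * E - ν * θ') * D))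
    (hz₀ : Complex.exp z₀ = 1) (hz₀' : ‖z₀‖ ≤ 8 * K - 1)
    (hξ : ∀ j, ‖ξ j - v j * z₀‖ ≤ Real.exp (lq j) * (2 * (K - 1) * Real.exp (-ν * lq j)))
    (hl : 1 ≤ l) (hh : ∀ j, ν * lq j ≤ l * (h j + 1)) (a : Option (Fin m) →₀ ℕ)
    (ha0 : a none * l ≤ E * D) (ha : ∑ j, a (some j) * lq j ≤ θ * D) :
    ‖coeff a (Phi v ξ h (PP U c))‖ ≤ 5 * Real.exp (-(2 * E) * D) := by
  have hED : 0 ≤ E * D := by positivity
  have hK1' : (1 : ℝ) ≤ K := by exact_mod_cast hK1
  set r : Fin m → ℝ := fun j => Real.exp (lq j) * (2 * K * Real.exp (-ν * lq j)) with hr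
  have hr2 : (fun j => 2 * r j) = fun j => Real.exp (lq j) * (4 * K * Real.exp (-ν * lq j)) := by
    funext j
    simp only [hr]
    ring
  have hρ : Real.exp (-l) ≤ 1 / 2 := by
    have h1 : Real.exp (-l) ≤ Real.exp (-1) := Real.exp_le_exp.2 (by linarith)
    have h2 := Real.exp_neg_one_lt_d9
    linarith
  have hw : Real.exp ((1 - ν) * ∑ j, a (some j) * lq j) ≤ wt r a.some := by
    refine exp_le_prod_pow (x := r) (fun j => ?_) fun j => a (some j)
    have : (1 - ν) * lq j = lq j + -ν * lq j := by ring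
    rw [this, Real.exp_add]
    refine mul_le_mul_of_nonneg_left ?_ (Real.exp_pos _).le
    exact le_mul_of_one_le_left (Real.exp_pos _).le (by linarith)
  have hw0 : 0 < wt r a.some := (Real.exp_pos _).trans_le hw
  have hmain : ∀ u : ℂ, ‖u‖ = Real.exp (-l) → ‖coeff a.some (ev u (Phi v ξ h (PP U c)))‖ ≤
      5 * Real.exp ((1 + 5 * E - ν * θ') * D) / wt r a.some := by
    intro u hu
    have hu' : ‖u‖ ≤ 1 / 2 := hu.le.trans hρ
    have hu1 : 1 + u ≠ 0 := by
      intro h0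
      have : u = -1 := by linear_combination h0
      rw [this] at hu'
      norm_num at hu'
    have hz : Complex.exp (z₀ + Complex.log (1 + u)) = 1 + u := by
      rw [Complex.exp_add, hz₀, Complex.exp_log hu1, one_mul]
    have hzn : ‖z₀ + Complex.log (1 + u)‖ ≤ 8 * K := by
      have h1 := Complex.norm_log_one_add_half_le_self hu'
      have h2 := norm_add_le z₀ (Complex.log (1 + u))
      linarith
    have he : ∀ j, ‖ξ j + v j * Gval (h j) u - v j * (z₀ + Complex.log (1 + u))‖ ≤ r j := by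
      intro j
      have h1 : ξ j + v j * Gval (h j) u - v j * (z₀ + Complex.log (1 + u)) =
          (ξ j - v j * z₀) + v j * (Gval (h j) u - Complex.log (1 + u)) := by ring
      have h2 : ‖Gval (h j) u - Complex.log (1 + u)‖ ≤ 2 * Real.exp (-ν * lq j) := by
        refine (norm_Gval_sub_log_le _ hu').trans (mul_le_mul_of_nonneg_left ?_ (by norm_num))
        rw [hu, ← Real.exp_nat_mul]
        refine Real.exp_le_exp.2 ?_
        have := hh j
        push_cast
        linarith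
      rw [h1]
      refine (norm_add_le _ _).trans ?_
      rw [norm_mul]
      have h3 := mul_le_mul (hv j) h2 (norm_nonneg _) (Real.exp_pos _).le
      have h4 := hξ j
      simp only [hr]
      linarith
    rw [le_div_iff₀ hw0]
    refine (coeff_ev_Phi_le hz he _ _).trans ?_
    rw [hr2]
    refine (nrm_Tz_le (M := M) (y := E * D / 3) (W := Real.exp ((1 + E) * D)) hv hzn
      (fun j => by positivity)
      (fun j => mul_le_of_le_one_right (Real.exp_pos _).le (tau_le_one hν hE1 hlq hK j)) hcX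
      (fun a ha => prod_W_le hE0 hβ hK (hU a ha))
      (fun a ha => none_mul_le hE0 hβ hlq (hU a ha)) (by nlinarith)).trans ?_
    have hX := ceil_exp_le hED
    have h5 : (U.card : ℝ) * ((⌈Real.exp (E * D)⌉₊ : ℕ) *
        (2 * Real.exp (3 * (E * D / 3) - M) * Real.exp ((1 + E) * D))) ≤
        Real.exp ((1 + 5 * E - ν * θ') * D) := by
      calc _ ≤ Real.exp (E * D) * (2 * Real.exp (E * D) *
            (2 * Real.exp (3 * (E * D / 3) - M) * Real.exp ((1 + E) * D))) := by gcongr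
        _ = 4 * Real.exp (E * D + E * D + (3 * (E * D / 3) - M) + (1 + E) * D) := by
            rw [Real.exp_add, Real.exp_add, Real.exp_add]; ring
        _ ≤ Real.exp 2 * Real.exp (E * D + E * D + (3 * (E * D / 3) - M) + (1 + E) * D) :=
            mul_le_mul_of_nonneg_right (by linarith [seven_le_exp (le_refl (2 : ℝ))])
              (Real.exp_pos _).le
        _ ≤ _ := by
            rw [← Real.exp_add]
            refine Real.exp_le_exp.2 ?_
            have h6 : ν * θ' * D ≤ ν * D := by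
              have : 0 ≤ ν * D := by positivity
              nlinarith
            nlinarith
    linarith
  have h1 := mv_cauchy _ a (Real.exp_pos (-l)) hmain
  rw [le_div_iff₀ hw0] at h1
  have h2 : Real.exp (-(E * D)) ≤ Real.exp (-l) ^ a none := by
    rw [← Real.exp_nat_mul]
    exact Real.exp_le_exp.2 (by linarith)
  have h3 : Real.exp ((1 - ν) * (θ * D)) ≤ wt r a.some :=
    (Real.exp_le_exp.2 (mul_le_mul_of_nonpos_left ha (by linarith))).trans hw
  have h4 : ‖coeff a (Phi v ξ h (PP U c))‖ * Real.exp (-(E * D) + (1 - ν) * (θ * D)) ≤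
      5 * Real.exp (-(2 * E) * D) * Real.exp (-(E * D) + (1 - ν) * (θ * D)) := by
    calc _ = ‖coeff a (Phi v ξ h (PP U c))‖ * Real.exp (-(E * D)) *
            Real.exp ((1 - ν) * (θ * D)) := by rw [Real.exp_add]; ring
      _ ≤ ‖coeff a (Phi v ξ h (PP U c))‖ * Real.exp (-l) ^ a none * wt r a.some := by gcongr
      _ ≤ _ := h1
      _ ≤ 5 * Real.exp (-(2 * E) * D + (-(E * D) + (1 - ν) * (θ * D))) := by
          refine mul_le_mul_of_nonneg_left (Real.exp_le_exp.2 ?_) (by norm_num)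
          have := mul_le_mul_of_nonneg_right hη (by linarith : 0 ≤ D)
          nlinarith
      _ = _ := by rw [Real.exp_add (-(2 * E) * D)]; ring
  exact le_of_mul_le_mul_right h4 (Real.exp_pos _)

theorem stage3 {E D : ℝ} {v ξ : Fin m → ℂ} {lq : Fin m → ℝ} {h : Fin m → ℕ}
    {U : Finset (Option (Fin m) →₀ ℕ)} {c : (Option (Fin m) →₀ ℕ) → ℤ} (hm : 1 ≤ m)
    (hv : ∀ j, (C (v j) : MvPolynomial (Option (Fin m)) ℂ) ∈ OA _)
    (hξ : ∀ j, (C (ξ j) : MvPolynomial (Option (Fin m)) ℂ) ∈ OA _)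
    (hlq : ∀ j, 1 ≤ lq j) (hD : 0 ≤ D) (hU : ∀ a ∈ U, ∑ j, a (some j) * lq j ≤ D)
    (hh : ∀ j, (h j : ℝ) ≤ E * lq j / (6 * m)) (h5 : 5 < Real.exp (E * D))
    (a : Option (Fin m) →₀ ℕ)
    (ha : ‖coeff a (Phi v ξ h (PP U c))‖ ≤ 5 * Real.exp (-(2 * E) * D)) :
    coeff a (Phi v ξ h (PP U c)) = 0 := by
  have hm' : (0 : ℝ) < m := by exact_mod_cast hm
  have hlq0 : ∀ j, 0 < lq j := fun j => by linarith [hlq j]
  set d : Fin m → ℕ := fun j => ⌊D / lq j⌋₊ with hd
  have hmem := Phi_PP_mem h d hv hξ U c fun b hb j => by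
    refine Nat.le_floor ?_
    rw [le_div_iff₀ (hlq0 j)]
    refine le_trans ?_ (hU b hb)
    exact Finset.single_le_sum (f := fun j => (b (some j) : ℝ) * lq j)
      (fun i _ => mul_nonneg (Nat.cast_nonneg _) (hlq0 i).le) (Finset.mem_univ j)
  have hΛ : ((∏ j, Nat.lcmUpto (h j) ^ d j : ℕ) : ℝ) ≤ Real.exp (E * D) := by
    push_cast
    refine (prod_pow_le_exp (lq := lq) (t := E / m) (fun j => Nat.cast_nonneg _)
      (fun j => (lcmUpto_le_exp _).trans (Real.exp_le_exp.2 ?_)) d).trans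
      (Real.exp_le_exp.2 ?_)
    · have h1 := hh j
      rw [le_div_iff₀ (by positivity)] at h1
      rw [div_mul_eq_mul_div, le_div_iff₀ hm']
      linarith
    · have h1 : ∑ j, (d j : ℝ) * lq j ≤ ∑ _j : Fin m, D := by
        refine Finset.sum_le_sum fun j _ => ?_
        rw [← le_div_iff₀ (hlq0 j)]
        exact Nat.floor_le (div_nonneg hD (hlq0 j).le)
      have hE : 0 ≤ E := by
        have h2 := (Nat.cast_nonneg (α := ℝ) _).trans (hh ⟨0, hm⟩)
        rw [le_div_iff₀ (by positivity), zero_mul] at h2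
        exact nonneg_of_mul_nonneg_left h2 (hlq0 _)
      simp only [Finset.sum_const, Finset.card_univ, Fintype.card_fin, nsmul_eq_mul] at h1
      calc E / m * ∑ j, (d j : ℝ) * lq j ≤ E / m * (m * D) :=
            mul_le_mul_of_nonneg_left h1 (by positivity)
        _ = E * D := by field_simp
  have h0 := coeff_eq_zero_of_mem_OA hmem a (by
    rw [coeff_C_mul, norm_mul, Complex.norm_natCast]
    calc _ ≤ Real.exp (E * D) * (5 * Real.exp (-(2 * E) * D)) :=
          mul_le_mul hΛ ha (norm_nonneg _) (Real.exp_pos _).le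
      _ < Real.exp (E * D) * (Real.exp (E * D) * Real.exp (-(2 * E) * D)) := by gcongr
      _ = 1 := by
          rw [← Real.exp_add, ← Real.exp_add, ← Real.exp_zero]
          congr 1
          ring)
  rw [coeff_C_mul] at h0
  refine (mul_eq_zero.1 h0).resolve_left ?_
  exact Nat.cast_ne_zero.2
    (Finset.prod_ne_zero_iff.2 fun j _ => pow_ne_zero _ (Nat.lcmUpto_ne_zero _))

end Vale.Agent.P021
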