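import Vale.Agent.P021.Count
import Vale.Agent.P021.AuxStage

namespace Vale.Agent.P021

open MvPolynomial Filter

theorem eventually_poly_le_exp (c a : ℝ) (n : ℕ) {E : ℝ} (hE : 0 < E) :
    ∀ᶠ D : ℝ in atTop, c * (D + a) ^ n ≤ Real.exp (E * D) := by
  have h1 := (isLittleO_pow_exp_pos_mul_atTop n hE).const_mul_left (|c| * 2 ^ n)
  filter_upwards [h1.bound one_pos, eventually_ge_atTop |a|] with D h2 h3
  rw [one_mul, Real.norm_of_nonneg (Real.exp_pos _).le] at h2
  have h0 : 0 ≤ D := (abs_nonneg a).trans h3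
  refine le_trans ?_ ((le_abs_self _).trans h2)
  refine (le_abs_self _).trans ?_
  rw [abs_mul, abs_pow, mul_assoc, ← mul_pow]
  refine mul_le_mul_of_nonneg_left (pow_le_pow_left₀ (abs_nonneg _) ?_ _) (abs_nonneg _)
  refine (abs_add_le _ _).trans ?_
  rw [abs_of_nonneg h0]
  linarith

theorem eventually_pow_le_two_mul {t : ℝ} (ht : 0 < t) (S : ℝ) (n : ℕ) :
    ∀ᶠ D : ℝ in atTop, (t * D + S) ^ n ≤ 2 * t ^ n * D ^ n := by
  have h1 : Tendsto (fun D : ℝ => (t + S / D) ^ n) atTop (nhds ((t + 0) ^ n)) :=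
    (tendsto_const_nhds.add (tendsto_const_nhds.div_atTop tendsto_id)).pow n
  rw [add_zero] at h1
  have h2 : t ^ n < 2 * t ^ n := by linarith [pow_pos ht n]
  filter_upwards [h1.eventually (ge_mem_nhds h2), eventually_gt_atTop 0] with D h3 h4
  have : t * D + S = (t + S / D) * D := by field_simp
  rw [this, mul_pow]
  exact mul_le_mul_of_nonneg_right h3 (by positivity)

theorem weight_option {m : ℕ} (w : Option (Fin m) → ℝ) (a : Option (Fin m) →₀ ℕ) :
    Finsupp.weight w a = a none * w none + ∑ j, a (some j) * w (some j) := by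
  rw [Finsupp.weight_eq_sum, Fintype.sum_option]
  simp only [nsmul_eq_mul]

theorem approx_bound {K k : ℕ} (hk : k < K) {p q : ℤ} (hq : 0 < (q : ℝ)) {ν : ℝ}
    (happ : |Real.pi - (p : ℝ) / (q : ℝ)| < (q : ℝ) ^ (-ν)) :
    ‖2 * Complex.I * (k : ℂ) * (p : ℂ) - (q : ℂ) * (k * (2 * Real.pi * Complex.I))‖ ≤
      Real.exp (Real.log q) * (2 * (K - 1) * Real.exp (-ν * Real.log q)) := by
  have h1 : 2 * Complex.I * (k : ℂ) * (p : ℂ) - (q : ℂ) * (k * (2 * Real.pi * Complex.I)) =
      ((q * (2 * k * (p / q - Real.pi)) : ℝ) : ℂ) * Complex.I := by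
    have : (q : ℂ) ≠ 0 := by exact_mod_cast hq.ne'
    push_cast
    field_simp
  rw [h1, norm_mul, Complex.norm_I, mul_one, Complex.norm_real, Real.norm_eq_abs, abs_mul,
    abs_of_pos hq, Real.exp_log hq, abs_mul, abs_sub_comm, mul_comm (-ν),
    ← Real.rpow_def_of_pos hq]
  refine mul_le_mul_of_nonneg_left ?_ hq.le
  have h2 : (k : ℝ) + 1 ≤ K := by exact_mod_cast hk
  have h3 : (0 : ℝ) ≤ k := Nat.cast_nonneg _
  rw [abs_of_nonneg (by positivity)]
  exact mul_le_mul (by linarith) happ.le (abs_nonneg _) (by linarith)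

theorem exists_aux (m K : ℕ) (ν θ θ' θ₁ ρ E β ω₀ : ℝ) (p q : Fin m → ℤ)
    (hm : 1 ≤ m) (hK : 1 ≤ K) (hν : 2 ≤ ν) (hθ₁ : 0 < θ₁) (hρ0 : 0 < ρ) (hρ : ρ ≤ 2)
    (hρθ : ρ * θ₁ ≤ θ) (hθ'0 : 0 < θ') (hθ'1 : θ' ≤ 1) (hE0 : 0 < E) (hE1 : E ≤ 1 / 8)
    (hη : 8 * E ≤ ν * θ' - 1 - (ν - 1) * θ) (hβ : 24 * (K : ℝ) ≤ E * β)
    (hcount : 4 * (ν + 3) * (ν + 5) * (m + 1) * β * θ' ^ m < E)
    (hω : 12 * (m : ℝ) * ν ≤ E ^ 2 * ω₀) (hq : ∀ j, 2 ≤ q j)
    (happ : ∀ j, |Real.pi - (p j : ℝ) / (q j : ℝ)| < (q j : ℝ) ^ (-ν))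
    (hqK : ∀ j, 8 * (K : ℝ) + 1 ≤ (q j : ℝ) ^ E) :
    ∀ᶠ D : ℝ in atTop, ∃ P : MvPolynomial (Option (Fin m)) ℂ, P ≠ 0 ∧ P ∈ Alt (kap β q) D ∧
      ∀ k : Fin K, Phi (fun j => (q j : ℂ)) (fun j => 2 * Complex.I * ((k : ℕ) : ℂ) * (p j : ℂ))
        (fun j => ⌊E * Real.log (q j) / (6 * m)⌋₊) P ∈ Ige (ome ω₀ θ₁ q) (ρ * D) := by
  classical
  set lq : Fin m → ℝ := fun j => Real.log (q j) with hlqdef
  have hK' : (1 : ℝ) ≤ K := by exact_mod_cast hK
  have hm' : (1 : ℝ) ≤ m := by exact_mod_cast hm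
  have hq0 : ∀ j, (0 : ℝ) < q j := fun j => by
    have : (2 : ℝ) ≤ q j := by exact_mod_cast hq j
    linarith
  have hKe : ∀ j, 8 * (K : ℝ) + 1 ≤ Real.exp (E * lq j) := fun j => by
    rw [mul_comm E, ← Real.rpow_def_of_pos (hq0 j)]
    exact hqK j
  have hlq : ∀ j, 1 ≤ lq j := fun j => by
    by_contra h1
    have h2 : E * lq j ≤ 1 := by nlinarith
    have h3 := Real.exp_le_exp.2 h2
    have h4 := Real.exp_one_lt_d9
    have h5 := hKe j
    linarith
  have hlq0 : ∀ j, 0 < lq j := fun j => by linarith [hlq j]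
  have hv : ∀ j, ‖(q j : ℂ)‖ ≤ Real.exp (lq j) := fun j => by
    rw [Complex.norm_intCast, abs_of_pos (hq0 j), Real.exp_log (hq0 j)]
  have hβ0 : 0 < β := by
    by_contra hb
    have : E * β ≤ 0 := mul_nonpos_of_nonneg_of_nonpos hE0.le (not_lt.1 hb)
    linarith
  have hω0 : 0 < ω₀ := by
    by_contra hb
    have h1 : E ^ 2 * ω₀ ≤ 0 := mul_nonpos_of_nonneg_of_nonpos (by positivity) (not_lt.1 hb)
    have h2 : 0 < 12 * (m : ℝ) * ν := by positivity
    linarith
  have hκ : ∀ o, 0 < kap β q o := fun o => by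
    cases o with
    | none => exact hβ0
    | some j => exact hlq0 j
  have hPi : 0 < ∏ j, lq j := Finset.prod_pos fun j _ => hlq0 j
  have hfac : (0 : ℝ) < m.factorial := by exact_mod_cast m.factorial_pos
  have hκprod : ∏ o, kap β q o = β * ∏ j, lq j := by
    rw [Fintype.prod_option]
    rfl
  filter_upwards [eventually_ge_atTop (4 : ℝ), eventually_ge_atTop (5 / E),
    eventually_poly_le_exp (1 / ((m + 1).factorial * (β * ∏ j, lq j))) (∑ o, kap β q o) (m + 1) hE0,
    eventually_poly_le_exp ((ν + 5) * (2 * θ' ^ m / (m.factorial * ∏ j, lq j))) 0 (m + 1) hE0,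
    eventually_pow_le_two_mul hθ'0 (∑ j, lq j) m] with D hD hD5 hDU hDV hD2
  have hD0 : 0 < D := by linarith
  set U := (mons_finite (kap β q) hκ Finset.univ D).toFinset with hUdef
  set V := (mons_finite lq hlq0 Finset.univ (θ' * D)).toFinset with hVdef
  have hUlt : ∀ a ∈ U, Finsupp.weight (kap β q) a < D := fun a ha =>
    ((Set.Finite.mem_toFinset _).1 ha).2
  have hU : ∀ a ∈ U, a none * β + ∑ j, a (some j) * lq j ≤ D := fun a ha => by
    have h1 := (hUlt a ha).le
    rwa [weight_option] at h1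
  have hV : ∀ s : Fin m →₀ ℕ, ∑ j, s j * lq j < θ' * D → s ∈ V := fun s hs => by
    refine (Set.Finite.mem_toFinset _).2 ⟨Finset.subset_univ _, ?_⟩
    rw [Finsupp.weight_eq_sum]
    simpa only [nsmul_eq_mul] using hs
  have hUc : (U.card : ℝ) ≤ Real.exp (E * D) := by
    have h1 := ncard_mons_le (kap β q) hκ Finset.univ D hD0.le
    rw [Set.ncard_eq_toFinset_card _ (mons_finite (kap β q) hκ Finset.univ D), hκprod,
      Finset.card_univ, Fintype.card_option, Fintype.card_fin] at h1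
    refine h1.trans (le_trans (le_of_eq ?_) hDU)
    ring
  have hUc' : D ^ (m + 1) / ((m + 1).factorial * (β * ∏ j, lq j)) ≤ U.card := by
    have h1 := le_ncard_mons (kap β q) hκ Finset.univ D hD0
    rwa [Set.ncard_eq_toFinset_card _ (mons_finite (kap β q) hκ Finset.univ D), hκprod,
      Finset.card_univ, Fintype.card_option, Fintype.card_fin] at h1
  have hVc : (ν + 5) * D * V.card ≤
      (ν + 5) * (2 * θ' ^ m / (m.factorial * ∏ j, lq j)) * D ^ (m + 1) := by
    have h1 := ncard_mons_le lq hlq0 Finset.univ (θ' * D) (by positivity)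
    rw [Set.ncard_eq_toFinset_card _ (mons_finite lq hlq0 Finset.univ (θ' * D)),
      Finset.card_univ, Fintype.card_fin] at h1
    calc (ν + 5) * D * V.card
        ≤ (ν + 5) * D * (2 * θ' ^ m * D ^ m / (m.factorial * ∏ j, lq j)) := by
          refine mul_le_mul_of_nonneg_left (h1.trans ?_) (by positivity)
          exact div_le_div_of_nonneg_right hD2 (by positivity)
      _ = _ := by ring
  have hc : 2 * (ν + 3) * ((ν + 5) * D * V.card) < E * U.card := by
    have h1 : 0 < D ^ (m + 1) / ((m + 1).factorial * (β * ∏ j, lq j)) := by positivity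
    calc 2 * (ν + 3) * ((ν + 5) * D * V.card)
        ≤ 2 * (ν + 3) * ((ν + 5) * (2 * θ' ^ m / (m.factorial * ∏ j, lq j)) * D ^ (m + 1)) :=
          mul_le_mul_of_nonneg_left hVc (by linarith)
      _ = (4 * (ν + 3) * (ν + 5) * (m + 1) * β * θ' ^ m) *
            (D ^ (m + 1) / ((m + 1).factorial * (β * ∏ j, lq j))) := by
          rw [Nat.factorial_succ]
          push_cast
          field_simp
          ring
      _ < E * (D ^ (m + 1) / ((m + 1).factorial * (β * ∏ j, lq j))) :=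
          mul_lt_mul_of_pos_right hcount h1
      _ ≤ _ := mul_le_mul_of_nonneg_left hUc' hE0.le
  have h5 : 5 < Real.exp (E * D) := by
    rw [div_le_iff₀ hE0] at hD5
    have := Real.add_one_le_exp (E * D)
    linarith
  obtain ⟨c, ⟨a₀, ha₀, hc0⟩, hcX, hTP⟩ := stage1 (M := ⌈(ν + 2) * D⌉₊) (v := fun j => (q j : ℂ))
    hν hθ'1 hE0 hE1 hβ hlq hv hKe hU hV (Nat.ceil_lt_add_one (by positivity)).le hD hUc
    (hVc.trans (by simpa using hDV)) hc
  refine ⟨PP U c, fun h0 => ?_, mem_Alt.2 fun a ha => ?_, fun k => mem_Ige.2 fun a ha => ?_⟩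
  · have h1 := coeff_PP U c a₀
    rw [h0, if_pos ha₀, coeff_zero] at h1
    exact hc0 (by exact_mod_cast h1.symm)
  · refine hUlt a ?_
    by_contra h1
    rw [mem_support_iff, coeff_PP, if_neg h1] at ha
    exact ha rfl
  · by_contra hlt
    rw [not_le, weight_option] at hlt
    have hlt' : a none * ω₀ + (∑ j, a (some j) * lq j) / θ₁ < ρ * D := by
      rw [Finset.sum_div]
      simpa only [ome, Option.elim_none, Option.elim_some, mul_div_assoc] using hlt
    have hs0 := sum_lq_nonneg hlq fun j => a (some j)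
    have hs1 : 0 ≤ (∑ j, a (some j) * lq j) / θ₁ := div_nonneg hs0 hθ₁.le
    have hs2 : 0 ≤ a none * ω₀ := by positivity
    refine mem_support_iff.1 ha (stage3 (E := E) (D := D) (lq := lq) hm
      (fun j => C_int_mem_OA _) (fun j => ?_) hlq hD0.le
      (fun b hb => sum_some_le hE0 hβ (hU b hb)) (fun j => Nat.floor_le ?_) h5 a ?_)
    · rw [map_mul, map_mul, map_mul]
      exact Subring.mul_mem _ (Subring.mul_mem _ (Subring.mul_mem _
        (by exact_mod_cast C_nat_mem_OA 2) C_I_mem_OA) (C_nat_mem_OA _)) (C_int_mem_OA _)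
    · have := hlq0 j
      positivity
    · refine stage2 (l := 6 * m * ν / E) (z₀ := (k : ℕ) * (2 * Real.pi * Complex.I)) hK hν hθ'1
        hE0 hE1 hη hβ hlq hv hKe hU (Nat.le_ceil _) hD hUc hcX hTP
        (Complex.exp_nat_mul_two_pi_mul_I _) ?_ (fun j => approx_bound k.2 (hq0 j) (happ j))
        ?_ (fun j => ?_) a ?_ ?_
      · have h1 : ((k : ℕ) : ℝ) + 1 ≤ K := by exact_mod_cast k.2
        have h2 := Real.pi_le_four
        have h3 := Real.pi_pos
        have h4 : (0 : ℝ) ≤ (k : ℕ) := Nat.cast_nonneg _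
        simp only [norm_mul, Complex.norm_natCast, Complex.norm_I, Complex.norm_real,
          Complex.norm_ofNat, Real.norm_of_nonneg h3.le]
        linarith only [mul_le_mul_of_nonneg_left h2 h4, h1]
      · rw [le_div_iff₀ hE0]
        linarith only [mul_le_mul hm' hν (by norm_num) (Nat.cast_nonneg _), hE1]
      · have h1 := (Nat.lt_floor_add_one (E * Real.log (q j) / (6 * m))).le
        calc ν * lq j = 6 * m * ν / E * (E * Real.log (q j) / (6 * m)) := by
              simp only [hlqdef]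
              field_simp
          _ ≤ _ := mul_le_mul_of_nonneg_left h1 (by positivity)
      · have h1 : 6 * m * ν / E ≤ E * ω₀ / 2 := by
          rw [div_le_iff₀ hE0]
          linarith only [hω]
        have h2 : a none * ω₀ ≤ 2 * D := by
          linarith only [hlt', hs1, mul_le_mul_of_nonneg_right hρ hD0.le]
        calc (a none : ℝ) * (6 * m * ν / E) ≤ a none * (E * ω₀ / 2) :=
              mul_le_mul_of_nonneg_left h1 (Nat.cast_nonneg _)
          _ = E * (a none * ω₀) / 2 := by ring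
          _ ≤ E * (2 * D) / 2 := by gcongr
          _ = E * D := by ring
      · have h1 : (∑ j, a (some j) * lq j) / θ₁ ≤ ρ * D := by linarith only [hlt', hs2]
        rw [div_le_iff₀ hθ₁] at h1
        linarith only [h1, mul_le_mul_of_nonneg_right hρθ hD0.le]

end Vale.Agent.P021
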