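import Mathlib

/-! Non-vanishing of two Wronskian-type determinants. -/

namespace Vale.Agent.P021

open Finset

section Abstract

variable {R : Type*} [CommRing R] [IsDomain R] [Algebra ℂ R]

theorem wronskian_ne_zero (δ : Derivation ℂ R R)
    (hc : ∀ a b : R, b ≠ 0 → δ a * b = a * δ b → ∃ γ : ℂ, a = γ • b)
    {ρ : ℕ} (f : Fin ρ → R) (hf : LinearIndependent ℂ f) :
    (Matrix.of fun a c : Fin ρ => δ^[a] (f c)).det ≠ 0 := by
  classical
  have key : ∀ n : ℕ, ∀ μ : Fin ρ → R, μ ≠ 0 → (univ.filter fun c => μ c ≠ 0).card ≤ n →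
      (∀ a < n, ∑ c, δ^[a] (f c) * μ c = 0) → False := by
    intro n
    induction n with
    | zero =>
      intro μ hμ hcard _
      apply hμ
      ext c
      by_contra h
      have : c ∈ univ.filter fun c => μ c ≠ 0 := by simpa using h
      rw [Nat.le_zero, card_eq_zero] at hcard
      simp [hcard] at this
    | succ n ih =>
      intro μ hμ hcard hT
      obtain ⟨c₀, hc₀⟩ := Function.ne_iff.mp hμ
      replace hc₀ : μ c₀ ≠ 0 := hc₀
      let μ' : Fin ρ → R := fun c => μ c₀ * δ (μ c) - δ (μ c₀) * μ c
      by_cases hμ' : μ' = 0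
      · have h1 : ∀ c, ∃ γ : ℂ, μ c = γ • μ c₀ := by
          intro c
          refine hc _ _ hc₀ ?_
          have := congrFun hμ' c
          simp only [μ', Pi.zero_apply] at this
          linear_combination this
        choose γ hγ using h1
        have h2 := hT 0 (Nat.succ_pos n)
        simp only [Function.iterate_zero, id_eq] at h2
        have h3 : (∑ c, γ c • f c) * μ c₀ = 0 := by
          rw [sum_mul, ← h2]
          refine sum_congr rfl fun c _ => ?_
          rw [hγ c, smul_mul_assoc, mul_smul_comm]
        have h4 := (mul_eq_zero.mp h3).resolve_right hc₀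
        have h5 := Fintype.linearIndependent_iff.mp hf γ h4 c₀
        apply hc₀
        rw [hγ c₀, h5, zero_smul]
      · refine ih μ' hμ' ?_ ?_
        · have hsub : (univ.filter fun c => μ' c ≠ 0) ⊆ (univ.filter fun c => μ c ≠ 0).erase c₀ := by
            intro c hc
            simp only [mem_filter, mem_univ, true_and, mem_erase] at hc ⊢
            constructor
            · rintro rfl
              apply hc
              simp only [μ']; ring
            · intro h
              apply hc
              simp [μ', h]
          have h1 := card_le_card hsub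
          rw [card_erase_of_mem (by simpa using hc₀)] at h1
          omega
        · intro a ha
          have h1 := hT a (by omega)
          have h2 := hT (a + 1) (by omega)
          have h3 := congrArg δ h1
          simp only [map_sum, Derivation.leibniz, smul_eq_mul, map_zero, sum_add_distrib] at h3
          simp only [Function.iterate_succ_apply'] at h2
          have h4 : ∑ c, δ^[a] (f c) * δ (μ c) = 0 := by
            rw [← h3, left_eq_add, ← h2]
            exact sum_congr rfl fun c _ => mul_comm _ _
          have h5 : ∑ c, δ^[a] (f c) * μ' c =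
              μ c₀ * ∑ c, δ^[a] (f c) * δ (μ c) - δ (μ c₀) * ∑ c, δ^[a] (f c) * μ c := by
            rw [mul_sum, mul_sum, ← sum_sub_distrib]
            refine sum_congr rfl fun c _ => ?_
            simp only [μ']; ring
          rw [h5, h4, h1]; simp
  intro hdet
  obtain ⟨μ, hμ, hM⟩ := Matrix.exists_mulVec_eq_zero_iff.mpr hdet
  refine key ρ μ hμ ((card_le_univ _).trans (by simp)) fun a ha => ?_
  have := congrFun hM ⟨a, ha⟩
  simpa [Matrix.mulVec, dotProduct] using this

theorem conn_det_ne_zero (E : Derivation ℂ R R) (v : R)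
    (hstar : ∀ (α β : R) (n : ℕ), α ≠ 0 → α * E β - E α * β - v * ((n : R) + 1) * α ^ 2 ≠ 0)
    (l : ℕ) (φ : ℕ → ℕ → R) (hφ0 : ∀ a, φ a (l + 1) = 0)
    (hφ : ∀ a c, φ (a + 1) c = E (φ a c) + v * ((c : R) + 1) * φ a (c + 1)) (hl : φ 0 l ≠ 0) :
    (Matrix.of fun a c : Fin (l + 1) => φ a c).det ≠ 0 := by
  classical
  have key : ∀ n : ℕ, ∀ (μ : ℕ → R) (c₀ : ℕ), c₀ + n = l → (∀ c < c₀, μ c = 0) → μ c₀ ≠ 0 →
      (∀ a ≤ n, ∑ c ∈ range (l + 1), φ a c * μ c = 0) → False := by
    intro n
    induction n with
    | zero =>
      intro μ c₀ hc hlt hne hT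
      have h1 := hT 0 le_rfl
      obtain rfl : c₀ = l := by omega
      rw [sum_range_succ, sum_eq_zero (fun c hc => by rw [hlt c (mem_range.mp hc), mul_zero]),
        zero_add] at h1
      exact mul_ne_zero hl hne h1
    | succ n ih =>
      intro μ c₀ hc hlt hne hT
      let ν : ℕ → R := fun c => E (μ c) - v * (c : R) * μ (c - 1)
      let μ' : ℕ → R := fun c => μ c₀ * ν c - E (μ c₀) * μ c
      have hprev : ∀ c ≤ c₀, (c : R) * μ (c - 1) = 0 := by
        intro c hc
        rcases Nat.eq_zero_or_pos c with rfl | hpos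
        · simp
        · rw [hlt (c - 1) (by omega), mul_zero]
      refine ih μ' (c₀ + 1) (by omega) ?_ ?_ ?_
      · intro c hc
        have h1 := hprev c (by omega)
        rcases Nat.lt_succ_iff_lt_or_eq.mp hc with h | rfl
        · simp only [μ', ν, hlt c h, map_zero]
          linear_combination (-(μ c₀ * v)) * h1
        · simp only [μ', ν]
          linear_combination (-(μ c * v)) * h1
      · have := hstar (μ c₀) (μ (c₀ + 1)) c₀ hne
        intro h
        apply this
        simp only [μ', ν, Nat.add_sub_cancel] at h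
        push_cast at h
        linear_combination h
      · intro a ha
        have h1 := hT a (by omega)
        have h2 := hT (a + 1) (by omega)
        have h3 := congrArg E h1
        simp only [map_sum, Derivation.leibniz, smul_eq_mul, map_zero, sum_add_distrib] at h3
        simp only [hφ, add_mul, sum_add_distrib] at h2
        have h4 : ∑ c ∈ range (l + 1), φ a c * (v * (c : R) * μ (c - 1)) =
            ∑ c ∈ range (l + 1), v * ((c : R) + 1) * φ a (c + 1) * μ c := by
          rw [sum_range_succ', sum_range_succ _ l, hφ0]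
          simp only [Nat.cast_zero, mul_zero, zero_mul, add_zero, Nat.add_sub_cancel]
          refine sum_congr rfl fun c _ => ?_
          push_cast; ring
        have h5 : ∑ c ∈ range (l + 1), φ a c * ν c = 0 := by
          simp only [ν, mul_sub, sum_sub_distrib]
          rw [h4]
          have h6 : ∑ c ∈ range (l + 1), μ c * E (φ a c) = ∑ c ∈ range (l + 1), E (φ a c) * μ c :=
            sum_congr rfl fun c _ => mul_comm _ _
          have h7 : ∑ c ∈ range (l + 1), v * ((c : R) + 1) * φ a (c + 1) * μ c =
              ∑ c ∈ range (l + 1), (v * (c : R) * φ a (c + 1) * μ c + v * 1 * φ a (c + 1) * μ c) :=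
            sum_congr rfl fun c _ => by ring
          rw [h6] at h3
          simp only [mul_add, add_mul, sum_add_distrib] at h2 h7 ⊢
          linear_combination h3 - h2
        have h8 : ∑ c ∈ range (l + 1), φ a c * μ' c =
            μ c₀ * ∑ c ∈ range (l + 1), φ a c * ν c -
              E (μ c₀) * ∑ c ∈ range (l + 1), φ a c * μ c := by
          rw [mul_sum, mul_sum, ← sum_sub_distrib]
          refine sum_congr rfl fun c _ => ?_
          simp only [μ']; ring
        rw [h8, h5, h1]; simp
  intro hdet
  obtain ⟨μ, hμ, hM⟩ := Matrix.exists_mulVec_eq_zero_iff.mpr hdet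
  let μ' : ℕ → R := fun c => if h : c < l + 1 then μ ⟨c, h⟩ else 0
  have hex : ∃ c, μ' c ≠ 0 := by
    obtain ⟨c, hc⟩ := Function.ne_iff.mp hμ
    exact ⟨c, by simp only [μ', dif_pos c.2]; exact hc⟩
  have hc₀ := Nat.find_spec hex
  have hle : Nat.find hex < l + 1 := by
    by_contra h
    exact hc₀ (by simp only [μ', dif_neg h])
  refine key (l - Nat.find hex) μ' (Nat.find hex) (by omega)
    (fun c hc => by simpa using Nat.find_min hex hc) hc₀ fun a ha => ?_
  have := congrFun hM ⟨a, by omega⟩
  rw [← Fin.sum_univ_eq_sum_range (fun c => φ a c * μ' c)]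
  have hμ' : ∀ c : Fin (l + 1), μ' c = μ c := fun c => by simp only [μ', dif_pos c.2]
  simpa [Matrix.mulVec, dotProduct, hμ'] using this

end Abstract

section Poly

open Polynomial

theorem poly_star {R : Type*} [CommRing R] [IsDomain R] [CharZero R] (a b : R[X]) (t : R)
    (ha : a ≠ 0) (ht : t ≠ 0) :
    a * (X * derivative b) - X * derivative a * b - C t * a ^ 2 ≠ 0 := by
  have hco : ∀ (p : R[X]) (n : ℕ), (X * derivative p).coeff n = n * p.coeff n := by
    intro p n
    cases n with
    | zero => simp
    | succ n => rw [coeff_X_mul, coeff_derivative]; push_cast; ring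
  have hdeg : ∀ (p : R[X]) (n : ℕ), p.natDegree ≤ n → (X * derivative p).natDegree ≤ n := by
    intro p n hp
    rw [natDegree_le_iff_coeff_eq_zero] at hp ⊢
    intro N hN
    rw [hco, hp N hN, mul_zero]
  have hlc : a.coeff a.natDegree ≠ 0 := leadingCoeff_ne_zero.mpr ha
  intro h
  rcases le_or_gt b.natDegree a.natDegree with hb | hb
  · have h1 := congrArg (fun p => p.coeff (a.natDegree + a.natDegree)) h
    simp only [coeff_sub, coeff_C_mul, coeff_zero, sq] at h1
    rw [coeff_mul_add_eq_of_natDegree_le le_rfl (hdeg b _ hb),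
      coeff_mul_add_eq_of_natDegree_le (hdeg a _ le_rfl) hb,
      coeff_mul_add_eq_of_natDegree_le le_rfl le_rfl, hco, hco] at h1
    refine mul_ne_zero ht (mul_ne_zero hlc hlc) ?_
    linear_combination -h1
  · have h1 := congrArg (fun p => p.coeff (a.natDegree + b.natDegree)) h
    simp only [coeff_sub, coeff_C_mul, coeff_zero, sq] at h1
    have hb0 : b ≠ 0 := by rintro rfl; simp at hb
    have hlb : b.coeff b.natDegree ≠ 0 := leadingCoeff_ne_zero.mpr hb0
    rw [coeff_mul_add_eq_of_natDegree_le le_rfl (hdeg b _ le_rfl),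
      coeff_mul_add_eq_of_natDegree_le (hdeg a _ le_rfl) le_rfl,
      coeff_eq_zero_of_natDegree_lt (p := a * a) (natDegree_mul_le.trans_lt (by omega)),
      hco, hco] at h1
    have hne : ((b.natDegree : R) - a.natDegree) ≠ 0 := by
      rw [sub_ne_zero]
      exact_mod_cast hb.ne'
    refine mul_ne_zero hne (mul_ne_zero hlc hlb) ?_
    linear_combination h1

end Poly

section Mv

open MvPolynomial

theorem optionEquivLeft_euler {τ : Type*} (p : MvPolynomial (Option τ) ℂ) :
    optionEquivLeft ℂ τ (X none * pderiv none p) =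
      Polynomial.X * Polynomial.derivative (optionEquivLeft ℂ τ p) := by
  classical
  induction p using MvPolynomial.induction_on with
  | C a => simp
  | add p q hp hq => simp only [map_add, mul_add, hp, hq]
  | mul_X p i hp =>
    have : X none * pderiv none (p * X i) =
        X none * pderiv none p * X i + p * (X none * pderiv none (X i)) := by
      rw [pderiv_mul]; ring
    rw [this, map_add, map_mul _ _ (X i), hp, map_mul _ p (X i), Polynomial.derivative_mul,
      map_mul _ p]
    cases i with
    | none => simp; ring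
    | some i => simp; ring

theorem mv_star {τ : Type*} (t : ℂ) (ht : t ≠ 0) (α β : MvPolynomial (Option τ) ℂ) (n : ℕ)
    (hα : α ≠ 0) :
    α * (X none * pderiv none β) - X none * pderiv none α * β -
      C t * ((n : MvPolynomial (Option τ) ℂ) + 1) * α ^ 2 ≠ 0 := by
  intro h
  have h1 := congrArg (optionEquivLeft ℂ τ) h
  rw [map_sub, map_sub, map_mul _ α, map_mul _ _ β, optionEquivLeft_euler, optionEquivLeft_euler,
    map_zero] at h1
  refine poly_star (optionEquivLeft ℂ τ α) (optionEquivLeft ℂ τ β) (C (t * ((n : ℂ) + 1)))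
    (by simpa using hα) ?_ ?_
  · rw [Ne, C_eq_zero]
    exact mul_ne_zero ht (Nat.cast_add_one_ne_zero n)
  · rw [← h1]
    simp

/-- A diagonal derivation. -/
noncomputable def diag {σ : Type*} (lam : σ → ℂ) :
    Derivation ℂ (MvPolynomial σ ℂ) (MvPolynomial σ ℂ) :=
  mkDerivation ℂ fun i => C (lam i) * X i

theorem diag_monomial {σ : Type*} (lam : σ → ℂ) (a : σ →₀ ℕ) (c : ℂ) :
    diag lam (monomial a c) = monomial a (Finsupp.weight lam a * c) := by
  classical
  rw [diag, mkDerivation_monomial, Finsupp.weight_apply, Finsupp.sum, Finsupp.sum, Finset.sum_mul,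
    map_sum, Finset.smul_sum]
  refine Finset.sum_congr rfl fun i hi => ?_
  have hi' : Finsupp.single i 1 ≤ a := by
    rw [Finsupp.single_le_iff]
    exact Nat.one_le_iff_ne_zero.mpr (Finsupp.mem_support_iff.mp hi)
  rw [smul_eq_mul, X, C_mul_monomial, monomial_mul, smul_monomial, tsub_add_cancel_of_le hi']
  congr 1
  simp only [smul_eq_mul, nsmul_eq_mul]
  ring

theorem coeff_diag {σ : Type*} (lam : σ → ℂ) (a : σ →₀ ℕ) (F : MvPolynomial σ ℂ) :
    coeff a (diag lam F) = Finsupp.weight lam a * coeff a F := by
  classical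
  induction F using MvPolynomial.induction_on' with
  | monomial u c =>
    rw [diag_monomial, coeff_monomial, coeff_monomial]
    split_ifs with h
    · rw [h]
    · simp
  | add p q hp hq => rw [map_add, coeff_add, coeff_add, hp, hq, mul_add]

theorem diag_const {σ : Type*} [Finite σ] (lam : σ → ℂ)
    (hlam : Function.Injective (Finsupp.weight lam : (σ →₀ ℕ) → ℂ)) (a b : MvPolynomial σ ℂ)
    (hb : b ≠ 0) (h : diag lam a * b = a * diag lam b) : ∃ γ : ℂ, a = γ • b := by
  classical
  let _ : LinearOrder σ := linearOrderOfSTO WellOrderingRel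
  let mo : MonomialOrder σ := MonomialOrder.lex
  have hsupp : ∀ F : MvPolynomial σ ℂ, (diag lam F).support ⊆ F.support := by
    intro F u hu
    rw [mem_support_iff] at hu ⊢
    rw [coeff_diag] at hu
    exact right_ne_zero_of_mul hu
  have hdeg : ∀ a : MvPolynomial σ ℂ, a ≠ 0 → diag lam a * b = a * diag lam b →
      mo.degree a = mo.degree b := by
    intro a ha h
    have h1 := congrArg (coeff (mo.degree a + mo.degree b)) h
    rw [mo.coeff_mul_of_add_of_degree_le (mo.degree_le_degree_of_support_subset (hsupp a)) le_rfl,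
      mo.coeff_mul_of_add_of_degree_le le_rfl (mo.degree_le_degree_of_support_subset (hsupp b)),
      coeff_diag, coeff_diag] at h1
    apply hlam
    have h2 := mo.coeff_degree_ne_zero_iff.mpr ha
    have h3 := mo.coeff_degree_ne_zero_iff.mpr hb
    apply mul_right_cancel₀ (mul_ne_zero h2 h3)
    linear_combination h1
  have h3 := mo.coeff_degree_ne_zero_iff.mpr hb
  refine ⟨coeff (mo.degree b) a / coeff (mo.degree b) b, ?_⟩
  by_contra hne
  have hne' := sub_ne_zero.mpr hne
  have h4 := hdeg _ hne' (by
    rw [map_sub, Derivation.map_smul, sub_mul, sub_mul, h, smul_mul_assoc, smul_mul_assoc,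
      mul_comm b])
  have h5 := mo.coeff_degree_ne_zero_iff.mpr hne'
  rw [h4, coeff_sub, coeff_smul, smul_eq_mul, div_mul_cancel₀ _ h3, sub_self] at h5
  exact h5 rfl

theorem exists_weight_injective (σ : Type*) [Fintype σ] :
    ∃ lam : σ → ℂ, Function.Injective (Finsupp.weight lam : (σ →₀ ℕ) → ℂ) := by
  classical
  obtain ⟨f, hf⟩ := exists_linearIndependent_of_le_rank (R := ℚ) (M := ℂ) (n := Fintype.card σ)
    (by rw [Complex.rank_rat_complex]; exact Cardinal.nat_lt_continuum _ |>.le)
  have hf' := hf.comp (Fintype.equivFin σ) (Fintype.equivFin σ).injective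
  refine ⟨f ∘ Fintype.equivFin σ, fun a b hab => ?_⟩
  rw [Finsupp.weight_eq_sum, Finsupp.weight_eq_sum] at hab
  have := Fintype.linearIndependent_iff.mp hf' (fun i => (a i : ℚ) - b i) (by
    simp only [sub_smul, Finset.sum_sub_distrib, Nat.cast_smul_eq_nsmul]
    exact sub_eq_zero.mpr hab)
  ext i
  exact_mod_cast sub_eq_zero.mp (this i)

end Mv

end Vale.Agent.P021
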