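import Vale.Agent.P021.Index
import Vale.Agent.P021.Wronsk

/-! Polynomials with bounded partial degrees, and the common part of the elimination step. -/

namespace Vale.Agent.P021

open MvPolynomial Finset

variable {σ : Type*}

/-- Polynomials with degree at most `d i` in the variable `i`. -/
noncomputable def Box (d : σ → ℕ) : Submodule ℂ (MvPolynomial σ ℂ) :=
  restrictSupport ℂ {a | ∀ i, a i ≤ d i}

theorem mem_Box {d : σ → ℕ} {F : MvPolynomial σ ℂ} :
    F ∈ Box d ↔ ∀ a ∈ F.support, ∀ i, a i ≤ d i := Iff.rfl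

theorem Box_mono {d d' : σ → ℕ} (h : ∀ i, d i ≤ d' i) {F : MvPolynomial σ ℂ} (hF : F ∈ Box d) :
    F ∈ Box d' := fun _ ha i => (hF ha i).trans (h i)

theorem Box_mul {d d' : σ → ℕ} {F G : MvPolynomial σ ℂ} (hF : F ∈ Box d) (hG : G ∈ Box d') :
    F * G ∈ Box (d + d') := by
  classical
  rw [mem_Box] at hF hG ⊢
  intro a ha i
  obtain ⟨b, hb, c, hc, rfl⟩ := Finset.mem_add.mp (support_mul F G ha)
  exact add_le_add (hF b hb i) (hG c hc i)

theorem C_mem_Box (d : σ → ℕ) (c : ℂ) : (C c : MvPolynomial σ ℂ) ∈ Box d := by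
  rw [C_apply, Box, monomial_mem_restrictSupport]
  left
  intro i
  simp

theorem C_mul_mem_Box {d : σ → ℕ} (c : ℂ) {F : MvPolynomial σ ℂ} (hF : F ∈ Box d) :
    C c * F ∈ Box d := by
  rw [C_mul']
  exact Submodule.smul_mem _ _ hF

theorem Box_prod {τ : Type*} (s : Finset τ) (d : σ → ℕ) (f : τ → MvPolynomial σ ℂ)
    (h : ∀ b ∈ s, f b ∈ Box d) : ∏ b ∈ s, f b ∈ Box (s.card • d) := by
  classical
  induction s using Finset.induction_on with
  | empty => simpa using C_mem_Box 0 1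
  | insert b s hb ih =>
    rw [prod_insert hb, card_insert_of_notMem hb, succ_nsmul']
    exact Box_mul (h b (mem_insert_self b s)) (ih fun c hc => h c (mem_insert_of_mem hc))

theorem Box_det {ρ : ℕ} (d : σ → ℕ) (M : Matrix (Fin ρ) (Fin ρ) (MvPolynomial σ ℂ))
    (h : ∀ a b, M a b ∈ Box d) : M.det ∈ Box (ρ • d) := by
  rw [Matrix.det_apply']
  refine Submodule.sum_mem _ fun π _ => ?_
  have h1 := Box_prod univ d (fun i => M (π i) i) fun b _ => h _ _
  rw [card_univ, Fintype.card_fin] at h1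
  have : (((Equiv.Perm.sign π : ℤˣ) : ℤ) : MvPolynomial σ ℂ) =
      C (((Equiv.Perm.sign π : ℤˣ) : ℤ) : ℂ) := by simp
  rw [this]
  exact C_mul_mem_Box _ h1

theorem pderiv_mem_Box {d : σ → ℕ} {F : MvPolynomial σ ℂ} (hF : F ∈ Box d) (i : σ) :
    pderiv i F ∈ Box d := by
  rw [mem_Box] at hF ⊢
  intro a ha k
  rw [mem_support_iff, coeff_pderiv] at ha
  have := hF _ (mem_support_iff.mpr (left_ne_zero_of_mul ha)) k
  simp only [Finsupp.coe_add, Pi.add_apply] at this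
  omega

theorem X_mul_pderiv_mem_Box {d : σ → ℕ} {F : MvPolynomial σ ℂ} (hF : F ∈ Box d) (i : σ) :
    X i * pderiv i F ∈ Box d := by
  classical
  rw [mem_Box] at hF ⊢
  intro a ha k
  rw [mem_support_iff, coeff_X_mul'] at ha
  split_ifs at ha with h
  · rw [coeff_pderiv] at ha
    have h1 : Finsupp.single i 1 ≤ a := by
      rw [Finsupp.single_le_iff]
      exact Nat.one_le_iff_ne_zero.mpr (Finsupp.mem_support_iff.mp h)
    rw [tsub_add_cancel_of_le h1] at ha
    exact hF _ (mem_support_iff.mpr (left_ne_zero_of_mul ha)) k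
  · exact absurd rfl ha

theorem pderiv_eq_zero_of_Box {d : σ → ℕ} {F : MvPolynomial σ ℂ} (hF : F ∈ Box d) {i : σ}
    (hi : d i = 0) : pderiv i F = 0 := by
  rw [mem_Box] at hF
  ext a
  rw [coeff_pderiv, coeff_zero]
  by_contra h
  have := hF _ (mem_support_iff.mpr (left_ne_zero_of_mul h)) i
  simp [hi] at this

theorem diag_mem_Box (lam : σ → ℂ) {d : σ → ℕ} {F : MvPolynomial σ ℂ} (hF : F ∈ Box d) :
    diag lam F ∈ Box d := by
  rw [mem_Box] at hF ⊢
  intro a ha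
  rw [mem_support_iff, coeff_diag] at ha
  exact hF a (mem_support_iff.mpr (right_ne_zero_of_mul ha))

theorem X_pow_mem_Box [DecidableEq σ] (i : σ) {c l : ℕ} (h : c ≤ l) :
    (X i ^ c : MvPolynomial σ ℂ) ∈ Box (Pi.single i l) := by
  rw [X_pow_eq_monomial, Box, monomial_mem_restrictSupport]
  left
  intro k
  by_cases hk : k = i
  · subst hk; simpa using h
  · simp [hk]

theorem Box_decomp [DecidableEq σ] {d : σ → ℕ} {F : MvPolynomial σ ℂ} (hF : F ∈ Box d) (hF0 : F ≠ 0)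
    (i : σ) : ∃ (l : ℕ) (φ : ℕ → MvPolynomial σ ℂ), l ≤ d i ∧
      (∀ c, φ c ∈ Box (Function.update d i 0)) ∧ (∀ c, l < c → φ c = 0) ∧ φ l ≠ 0 ∧
      F = ∑ c ∈ range (l + 1), φ c * X i ^ c := by
  rw [mem_Box] at hF
  let φ : ℕ → MvPolynomial σ ℂ := fun c =>
    ∑ a ∈ F.support with a i = c, monomial (a.erase i) (coeff a F)
  have h1 : F = ∑ c ∈ range (d i + 1), φ c * X i ^ c := by
    conv_lhs => rw [F.as_sum]
    rw [← sum_fiberwise_of_maps_to (s := F.support) (t := range (d i + 1)) (g := fun a => a i)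
      (fun a ha => mem_range.mpr (Nat.lt_succ_of_le (hF a ha i)))]
    refine sum_congr rfl fun c _ => ?_
    simp only [φ, sum_mul]
    refine sum_congr rfl fun a ha => ?_
    rw [X_pow_eq_monomial, monomial_mul, mul_one, ← (mem_filter.mp ha).2, Finsupp.erase_add_single]
  have hne : ((range (d i + 1)).filter fun c => φ c ≠ 0).Nonempty := by
    by_contra h
    rw [not_nonempty_iff_eq_empty, filter_eq_empty_iff] at h
    apply hF0
    rw [h1]
    exact sum_eq_zero fun c hc => by rw [not_not.mp (h hc), zero_mul]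
  obtain ⟨l, hl, hmax⟩ := exists_max_image _ id hne
  rw [mem_filter, mem_range] at hl
  have hzero : ∀ c, l < c → φ c = 0 := by
    intro c hc
    by_cases hcd : c < d i + 1
    · by_contra h
      have := hmax c (mem_filter.mpr ⟨mem_range.mpr hcd, h⟩)
      simp only [id] at this
      omega
    · refine sum_eq_zero fun a ha => ?_
      have h2 := hF a (mem_filter.mp ha).1 i
      have h3 := (mem_filter.mp ha).2
      omega
  refine ⟨l, φ, by omega, fun c => ?_, hzero, hl.2, ?_⟩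
  · refine Submodule.sum_mem _ fun a ha => ?_
    rw [Box, monomial_mem_restrictSupport]
    left
    intro k
    by_cases hk : k = i
    · subst hk; simp
    · rw [Finsupp.erase_ne hk, Function.update_of_ne hk]
      exact hF a (mem_filter.mp ha).1 k
  · rw [h1]
    symm
    refine sum_subset (range_subset_range.mpr (by omega)) fun c _ hc => ?_
    rw [hzero c (by simpa using hc), zero_mul]

section Step

variable {A : Type*} [CommRing A] [Algebra ℂ A] {δ : σ → Derivation ℂ A A} {ω : σ → ℝ}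
  {q : Ideal A}

theorem Idx_iterate' (T : A → A) (w : ℝ) (S : Set A) (hS : ∀ F ∈ S, T F ∈ S)
    (hT : ∀ F ∈ S, ∀ l, F ∈ Idx δ ω q l → T F ∈ Idx δ ω q (l - w)) (b : ℕ) {l : ℝ} {F : A}
    (hFS : F ∈ S) (hF : F ∈ Idx δ ω q l) : T^[b] F ∈ S ∧ T^[b] F ∈ Idx δ ω q (l - b * w) := by
  induction b with
  | zero => simpa using ⟨hFS, hF⟩
  | succ b ih =>
    rw [Function.iterate_succ_apply']
    refine ⟨hS _ ih.1, Idx_anti (le_of_eq ?_) (hT _ ih.1 _ ih.2)⟩
    push_cast; ring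

theorem step_common (hq : q.IsPrime) {c₀ : ℝ} (hc₀ : 0 < c₀) (hω : ∀ i, c₀ ≤ ω i) (j : σ) (t : A)
    {ρ : ℕ} (φ : Matrix (Fin ρ) (Fin ρ) A) (hφ : ∀ a c, δ j (φ a c) = 0) (G : Fin ρ → A)
    (hV : (Matrix.of fun b c : Fin ρ => (t • δ j)^[b] (G c)).det ∉ q) (l : ℝ)
    (hP : ∀ a, ∑ c, φ a c * G c ∈ Idx δ ω q l) :
    φ.det ∈ Idx δ ω q (∑ b : Fin ρ, max (l - b * ω j) 0) := by
  have hω0 : ∀ i, 0 ≤ ω i := fun i => hc₀.le.trans (hω i)
  refine Idx_cancel hq hc₀ hω hV ?_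
  rw [← Matrix.det_transpose (Matrix.of _), ← Matrix.det_mul]
  refine Idx_det hω0 _ _ fun a b => Idx_max hω0 ?_
  have h1 : ∀ b : ℕ, (t • δ j)^[b] (∑ c, φ a c * G c) = ∑ c, φ a c * (t • δ j)^[b] (G c) := by
    intro b
    induction b with
    | zero => simp
    | succ b ih =>
      simp only [Function.iterate_succ_apply', ih, map_sum]
      refine sum_congr rfl fun c _ => ?_
      rw [Derivation.leibniz]
      simp [hφ]
  have h2 := (Idx_iterate' (δ := δ) (ω := ω) (q := q) (⇑(t • δ j : Derivation ℂ A A)) (ω j) Set.univ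
    (fun _ _ => trivial) (fun F _ l hF => by
      simpa using Idx_mul_left hω0 t (Idx_deriv hF j)) b (Set.mem_univ _) (hP a)).2
  rw [h1] at h2
  simpa [Matrix.mul_apply] using h2

end Step

theorem sum_max_lower (ρ l₀ : ℕ) (κ ω N ϑ Γ : ℝ) (hρ1 : 1 ≤ ρ) (hρ : ρ ≤ l₀ + 1) (hκ : 0 < κ)
    (hω : 0 < ω) (hN : 0 < N) (hϑ0 : 0 < ϑ) (hϑ1 : ϑ ≤ 1) (hΓ : 1 ≤ Γ) (hωΓ : ω ≤ Γ * κ)
    (hl : l₀ * κ ≤ N) :
    ϑ ^ 2 / (32 * Γ) * (ρ * N) ≤ ∑ b : Fin ρ, max (ϑ * N / 2 - b * ω) 0 := by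
  set A := ϑ * N / 2 with hA
  have hA0 : 0 < A := by positivity
  set n := min ρ (⌊A / (2 * ω)⌋₊ + 1) with hn
  have h1 : (n : ℝ) * (A / 2) ≤ ∑ b : Fin ρ, max (A - b * ω) 0 := by
    rw [Fin.sum_univ_eq_sum_range (fun b => max (A - b * ω) 0)]
    calc (n : ℝ) * (A / 2) = ∑ b ∈ range n, A / 2 := by simp
      _ ≤ ∑ b ∈ range n, max (A - b * ω) 0 := by
        refine sum_le_sum fun b hb => le_max_of_le_left ?_
        have hb1 : b ≤ ⌊A / (2 * ω)⌋₊ := by
          have := mem_range.mp hb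
          omega
        have hb2 : (b : ℝ) ≤ A / (2 * ω) :=
          (Nat.cast_le.mpr hb1).trans (Nat.floor_le (by positivity))
        rw [le_div_iff₀ (by positivity)] at hb2
        linarith
      _ ≤ ∑ b ∈ range ρ, max (A - b * ω) 0 :=
        sum_le_sum_of_subset_of_nonneg (range_subset_range.mpr (min_le_left _ _))
          fun _ _ _ => le_max_right _ _
  refine le_trans ?_ h1
  have hρ0 : (0 : ℝ) < ρ := by exact_mod_cast hρ1
  rw [div_mul_eq_mul_div, div_le_iff₀ (by positivity)]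
  rcases le_or_gt ρ (⌊A / (2 * ω)⌋₊ + 1) with h | h
  · rw [hn, min_eq_left h, hA]
    have : ϑ * (ϑ * ρ * N) ≤ 8 * Γ * (ϑ * ρ * N) :=
      mul_le_mul_of_nonneg_right (by linarith) (by positivity)
    nlinarith
  · have hn' : n = ⌊A / (2 * ω)⌋₊ + 1 := min_eq_right h.le
    have h2 : A / (2 * ω) < n := by rw [hn']; push_cast; exact Nat.lt_floor_add_one _
    rw [div_lt_iff₀ (by positivity)] at h2
    have h3 : (ρ : ℝ) ≤ 2 * l₀ := by exact_mod_cast (by omega : ρ ≤ 2 * l₀)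
    have h4 : (ρ : ℝ) * ω ≤ 2 * Γ * N := by
      calc (ρ : ℝ) * ω ≤ 2 * l₀ * (Γ * κ) := by gcongr
        _ = 2 * Γ * (l₀ * κ) := by ring
        _ ≤ 2 * Γ * N := by gcongr
    refine le_of_mul_le_mul_right ?_ hω
    have h5 : ϑ ^ 2 * (ρ * N) * ω ≤ ϑ ^ 2 * N * (2 * Γ * N) := by
      calc ϑ ^ 2 * (ρ * N) * ω = ϑ ^ 2 * N * (ρ * ω) := by ring
        _ ≤ _ := by gcongr
    have h6 : A * (8 * Γ * A) ≤ n * (2 * ω) * (8 * Γ * A) :=
      mul_le_mul_of_nonneg_right h2.le (by positivity)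
    have h7 : A * (8 * Γ * A) = ϑ ^ 2 * N * (2 * Γ * N) := by rw [hA]; ring
    nlinarith

end Vale.Agent.P021
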