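import Vale.Agent.P021.Defs

/-! Counting lattice points in weighted simplices. -/

namespace Vale.Agent.P021

open scoped Nat

theorem mem_mons_insert {σ : Type*} [DecidableEq σ] (κ : σ → ℝ) (hκ : ∀ i, 0 < κ i)
    (s : Finset σ) (j : σ) (_hj : j ∉ s) (l : ℝ) (a : σ →₀ ℕ) :
    a ∈ mons κ (insert j s) l ↔ ∃ c ∈ Finset.range ⌈l / κ j⌉₊,
      ∃ b ∈ mons κ s (l - c * κ j), b + Finsupp.single j c = a := by
  have hw : ∀ b : σ →₀ ℕ, 0 ≤ Finsupp.weight κ b := by
    intro b
    rw [Finsupp.weight_apply]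
    exact Finset.sum_nonneg (fun i _ => nsmul_nonneg (hκ i).le _)
  constructor
  · rintro ⟨h1, h2⟩
    have e := Finsupp.erase_add_single j a
    have h3 : Finsupp.weight κ a = Finsupp.weight κ (a.erase j) + a j * κ j := by
      conv_lhs => rw [← e]
      rw [map_add, Finsupp.weight_single, nsmul_eq_mul]
    refine ⟨a j, ?_, a.erase j, ⟨?_, ?_⟩, e⟩
    · rw [Finset.mem_range, Nat.lt_ceil, lt_div_iff₀ (hκ j)]
      linarith [hw (a.erase j)]
    · rw [Finsupp.support_erase]
      intro i hi
      obtain ⟨h4, h5⟩ := Finset.mem_erase.1 hi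
      exact (Finset.mem_insert.1 (h1 h5)).resolve_left h4
    · linarith
  · rintro ⟨c, -, b, ⟨h1, h2⟩, rfl⟩
    refine ⟨?_, ?_⟩
    · refine Finsupp.support_add.trans (Finset.union_subset
        (h1.trans (Finset.subset_insert _ _)) (Finsupp.support_single_subset.trans ?_))
      simp
    · rw [map_add, Finsupp.weight_single, nsmul_eq_mul]
      linarith

theorem mons_empty_subset {σ : Type*} (κ : σ → ℝ) (l : ℝ) : mons κ ∅ l ⊆ {0} := by
  rintro a ⟨h, -⟩
  simpa using h

theorem mons_finite {σ : Type*} (κ : σ → ℝ) (hκ : ∀ i, 0 < κ i) (s : Finset σ) (l : ℝ) :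
    (mons κ s l).Finite := by
  classical
  induction s using Finset.induction_on generalizing l with
  | empty => exact (Set.finite_singleton _).subset (mons_empty_subset κ l)
  | insert j s hj ih =>
    refine (Set.Finite.biUnion (Finset.range ⌈l / κ j⌉₊).finite_toSet
      (fun c _ => (ih (l - c * κ j)).image (fun b => b + Finsupp.single j c))).subset ?_
    intro a ha
    obtain ⟨c, hc, b, hb, e⟩ := (mem_mons_insert κ hκ s j hj l a).1 ha
    exact Set.mem_biUnion (Finset.mem_coe.2 hc) ⟨b, hb, e⟩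

theorem ncard_mons_insert {σ : Type*} [DecidableEq σ] (κ : σ → ℝ) (hκ : ∀ i, 0 < κ i)
    (s : Finset σ) (j : σ) (hj : j ∉ s) (l : ℝ) :
    (mons κ (insert j s) l).ncard =
      ∑ c ∈ Finset.range ⌈l / κ j⌉₊, (mons κ s (l - c * κ j)).ncard := by
  have e : (mons_finite κ hκ (insert j s) l).toFinset = (Finset.range ⌈l / κ j⌉₊).biUnion
      (fun c => (mons_finite κ hκ s (l - c * κ j)).toFinset.image
        (fun b => b + Finsupp.single j c)) := by
    ext a
    simp only [Set.Finite.mem_toFinset, Finset.mem_biUnion, Finset.mem_image]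
    exact mem_mons_insert κ hκ s j hj l a
  rw [Set.ncard_eq_toFinset_card _ (mons_finite κ hκ (insert j s) l), e, Finset.card_biUnion]
  · apply Finset.sum_congr rfl
    intro c _
    rw [Finset.card_image_of_injective _ (add_left_injective _),
      Set.ncard_eq_toFinset_card _ (mons_finite κ hκ s _)]
  · intro c _ c' _ hcc
    simp only [Function.onFun]
    rw [Finset.disjoint_left]
    intro a ha ha'
    obtain ⟨b, hb, rfl⟩ := Finset.mem_image.1 ha
    obtain ⟨b', hb', e'⟩ := Finset.mem_image.1 ha'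
    have h1 : b j = 0 := Finsupp.notMem_support_iff.1
      (fun h => hj (((Set.Finite.mem_toFinset _).1 hb).1 h))
    have h2 : b' j = 0 := Finsupp.notMem_support_iff.1
      (fun h => hj (((Set.Finite.mem_toFinset _).1 hb').1 h))
    have h3 := DFunLike.congr_fun e' j
    simp [h1, h2] at h3
    exact hcc h3.symm

theorem pow_succ_sub_le (x y : ℝ) (hy : 0 ≤ y) (hxy : y ≤ x) (n : ℕ) :
    x ^ (n + 1) - y ^ (n + 1) ≤ (n + 1) * (x - y) * x ^ n := by
  induction n with
  | zero => simp
  | succ n ih =>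
    have hx : 0 ≤ x := hy.trans hxy
    have h1 : y ^ (n + 1) ≤ x ^ (n + 1) := pow_le_pow_left₀ hy hxy _
    have h2 := mul_le_mul_of_nonneg_left ih hx
    have h3 := mul_le_mul_of_nonneg_left h1 (sub_nonneg.2 hxy)
    push_cast
    have e : x ^ (n + 1 + 1) - y ^ (n + 1 + 1) =
        x * (x ^ (n + 1) - y ^ (n + 1)) + (x - y) * y ^ (n + 1) := by ring
    have e2 : ((n : ℝ) + 1 + 1) * (x - y) * x ^ (n + 1) =
        x * ((n + 1) * (x - y) * x ^ n) + (x - y) * x ^ (n + 1) := by ring
    linarith

theorem le_pow_succ_sub (x k : ℝ) (hx : 0 ≤ x) (hk : 0 ≤ k) (n : ℕ) :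
    (n + 1) * k * x ^ n ≤ (x + k) ^ (n + 1) - x ^ (n + 1) := by
  induction n with
  | zero => simp
  | succ n ih =>
    have h1 : x ^ (n + 1) ≤ (x + k) ^ (n + 1) := pow_le_pow_left₀ hx (by linarith) _
    have h2 := mul_le_mul_of_nonneg_left ih hx
    have h3 := mul_le_mul_of_nonneg_left h1 hk
    push_cast
    have e : (x + k) ^ (n + 1 + 1) - x ^ (n + 1 + 1) =
        x * ((x + k) ^ (n + 1) - x ^ (n + 1)) + k * (x + k) ^ (n + 1) := by ring
    have e2 : ((n : ℝ) + 1 + 1) * k * x ^ (n + 1) =
        x * ((n + 1) * k * x ^ n) + k * x ^ (n + 1) := by ring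
    linarith

theorem le_ncard_mons {σ : Type*} (κ : σ → ℝ) (hκ : ∀ i, 0 < κ i) (s : Finset σ) (l : ℝ)
    (hl : 0 < l) :
    l ^ s.card / ((s.card)! * ∏ i ∈ s, κ i) ≤ ((mons κ s l).ncard : ℝ) := by
  classical
  induction s using Finset.induction_on generalizing l with
  | empty =>
    have h0 : (0 : σ →₀ ℕ) ∈ mons κ ∅ l := ⟨by simp, by simpa using hl⟩
    have h1 : 0 < (mons κ ∅ l).ncard := (Set.ncard_pos (mons_finite κ hκ ∅ l)).2 ⟨0, h0⟩
    have h2 : (1 : ℝ) ≤ (mons κ ∅ l).ncard := by exact_mod_cast h1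
    simpa using h2
  | insert j s hj ih =>
    rw [ncard_mons_insert κ hκ s j hj, Finset.card_insert_of_notMem hj, Finset.prod_insert hj]
    push_cast
    set n := s.card
    set P := ∏ i ∈ s, κ i
    have hP : 0 < P := Finset.prod_pos (fun i _ => hκ i)
    have hk := hκ j
    set C := ⌈l / κ j⌉₊ with hC
    let f : ℕ → ℝ := fun c => (max (l - c * κ j) 0) ^ (n + 1)
    have h1 : ∀ c ∈ Finset.range C, (f c - f (c + 1)) / ((n + 1) * κ j * (n ! * P)) ≤
        ((mons κ s (l - c * κ j)).ncard : ℝ) := by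
      intro c hc
      have hc' : 0 < l - c * κ j := by
        rw [Finset.mem_range, hC, Nat.lt_ceil, lt_div_iff₀ hk] at hc
        linarith
      refine le_trans ?_ (ih _ hc')
      have a1 : f c = (l - c * κ j) ^ (n + 1) := by simp only [f]; rw [max_eq_left hc'.le]
      have a2 : max (l - ((c + 1 : ℕ) : ℝ) * κ j) 0 ≤ l - c * κ j := by
        push_cast
        exact max_le (by linarith) hc'.le
      have a3 := pow_succ_sub_le _ _ (le_max_right _ _) a2 n
      have a4 : l - c * κ j - max (l - ((c + 1 : ℕ) : ℝ) * κ j) 0 ≤ κ j := by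
        have := le_max_left (l - ((c + 1 : ℕ) : ℝ) * κ j) 0
        push_cast at this ⊢
        linarith
      have a5 : ((n : ℝ) + 1) * (l - c * κ j - max (l - ((c + 1 : ℕ) : ℝ) * κ j) 0) *
          (l - c * κ j) ^ n ≤ (n + 1) * κ j * (l - c * κ j) ^ n :=
        mul_le_mul_of_nonneg_right (mul_le_mul_of_nonneg_left a4 (by positivity)) (by positivity)
      rw [← div_div]
      apply div_le_div_of_nonneg_right _ (by positivity)
      rw [div_le_iff₀ (by positivity), a1]
      simp only [f]
      linarith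
    refine le_trans (le_of_eq ?_) (Finset.sum_le_sum h1)
    rw [← Finset.sum_div, Finset.sum_range_sub']
    have b1 : f 0 = l ^ (n + 1) := by simp [f, max_eq_left hl.le]
    have b2 : f C = 0 := by
      have : l - C * κ j ≤ 0 := by
        have := Nat.le_ceil (l / κ j)
        rw [div_le_iff₀ hk] at this
        linarith
      simp [f, max_eq_right this]
    rw [b1, b2, Nat.factorial_succ]
    push_cast
    ring

theorem ncard_mons_le {σ : Type*} (κ : σ → ℝ) (hκ : ∀ i, 0 < κ i) (s : Finset σ) (l : ℝ)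
    (hl : 0 ≤ l) :
    ((mons κ s l).ncard : ℝ) ≤ (l + ∑ i ∈ s, κ i) ^ s.card / ((s.card)! * ∏ i ∈ s, κ i) := by
  classical
  induction s using Finset.induction_on generalizing l with
  | empty =>
    have h1 := Set.ncard_le_ncard (mons_empty_subset κ l) (Set.finite_singleton _)
    rw [Set.ncard_singleton] at h1
    have h2 : ((mons κ ∅ l).ncard : ℝ) ≤ 1 := by exact_mod_cast h1
    simpa using h2
  | insert j s hj ih =>
    rw [ncard_mons_insert κ hκ s j hj, Finset.card_insert_of_notMem hj, Finset.prod_insert hj,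
      Finset.sum_insert hj]
    push_cast
    set n := s.card
    set P := ∏ i ∈ s, κ i
    set S := ∑ i ∈ s, κ i
    have hP : 0 < P := Finset.prod_pos (fun i _ => hκ i)
    have hS : 0 ≤ S := Finset.sum_nonneg (fun i _ => (hκ i).le)
    have hk := hκ j
    set C := ⌈l / κ j⌉₊ with hC
    let f : ℕ → ℝ := fun c => (l - c * κ j + S + κ j) ^ (n + 1)
    have h1 : ∀ c ∈ Finset.range C, ((mons κ s (l - c * κ j)).ncard : ℝ) ≤
        (f c - f (c + 1)) / ((n + 1) * κ j * (n ! * P)) := by
      intro c hc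
      have hc' : 0 < l - c * κ j := by
        rw [Finset.mem_range, hC, Nat.lt_ceil, lt_div_iff₀ hk] at hc
        linarith
      refine le_trans (ih _ hc'.le) ?_
      have a1 : f (c + 1) = (l - c * κ j + S) ^ (n + 1) := by
        simp only [f]; push_cast; ring
      have a3 := le_pow_succ_sub (l - c * κ j + S) (κ j) (by linarith) hk.le n
      rw [← div_div _ ((n + 1) * κ j)]
      apply div_le_div_of_nonneg_right _ (by positivity)
      rw [le_div_iff₀ (by positivity), a1]
      simp only [f]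
      linarith
    refine le_trans (Finset.sum_le_sum h1) ?_
    rw [← Finset.sum_div, Finset.sum_range_sub']
    have b1 : f 0 = (l + (κ j + S)) ^ (n + 1) := by simp only [f]; push_cast; ring
    have b2 : 0 ≤ f C := by
      have : C * κ j ≤ l + κ j := by
        have := (Nat.ceil_lt_add_one (div_nonneg hl hk.le)).le
        have h2 := mul_le_mul_of_nonneg_right this hk.le
        rw [add_mul, div_mul_cancel₀ _ hk.ne', one_mul] at h2
        exact h2
      exact pow_nonneg (by linarith) _
    have e : ((n : ℝ) + 1) * κ j * (n ! * P) = ((n + 1)! : ℕ) * (κ j * P) := by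
      rw [Nat.factorial_succ]; push_cast; ring
    rw [b1, e]
    exact div_le_div_of_nonneg_right (by linarith) (by positivity)

end Vale.Agent.P021
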