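import Mathlib

/-! Common definitions for the proof that the irrationality exponent of pi is two. -/

namespace Vale.Agent.P021

open MvPolynomial

/-- Exponent vectors supported in `s` whose `κ`-weight is `< l`. -/
def mons {σ : Type*} (κ : σ → ℝ) (s : Finset σ) (l : ℝ) : Set (σ →₀ ℕ) :=
  {a | a.support ⊆ s ∧ Finsupp.weight κ a < l}

/-- Polynomials all of whose monomials have `κ`-weight `< l`. -/
noncomputable def Alt {σ : Type*} (κ : σ → ℝ) (l : ℝ) : Submodule ℂ (MvPolynomial σ ℂ) :=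
  restrictSupport ℂ {a | Finsupp.weight κ a < l}

/-- Polynomials all of whose monomials have `ω`-weight `≥ l`. -/
noncomputable def Ige {σ : Type*} (ω : σ → ℝ) (l : ℝ) : Submodule ℂ (MvPolynomial σ ℂ) :=
  restrictSupport ℂ {a | l ≤ Finsupp.weight ω a}

/-- The truncation `u - u^2/2 + ... ± u^h/h` of `log (1+u)`, with `u = X none`. -/
noncomputable def Gp (m h : ℕ) : MvPolynomial (Option (Fin m)) ℂ :=
  ∑ i ∈ Finset.range h, C ((-1) ^ i / ((i : ℂ) + 1)) * X none ^ (i + 1)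

/-- Local coordinates at the point `(1, ξ)`: `y = 1 + u`, `x j = ξ j + v j * G (u) + w j`. -/
noncomputable def Phi {m : ℕ} (v ξ : Fin m → ℂ) (h : Fin m → ℕ) :
    MvPolynomial (Option (Fin m)) ℂ →ₐ[ℂ] MvPolynomial (Option (Fin m)) ℂ :=
  aeval fun o => o.elim (1 + X none) fun j => C (ξ j) + C (v j) * Gp m (h j) + X (some j)

/-- Global weights. -/
noncomputable def kap {m : ℕ} (β : ℝ) (q : Fin m → ℤ) : Option (Fin m) → ℝ :=
  fun o => o.elim β fun j => Real.log (q j)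

/-- Local weights. -/
noncomputable def ome {m : ℕ} (ω₀ θ₁ : ℝ) (q : Fin m → ℤ) : Option (Fin m) → ℝ :=
  fun o => o.elim ω₀ fun j => Real.log (q j) / θ₁

theorem mem_Alt {σ : Type*} {κ : σ → ℝ} {l : ℝ} {F : MvPolynomial σ ℂ} :
    F ∈ Alt κ l ↔ ∀ a ∈ F.support, Finsupp.weight κ a < l := Iff.rfl

theorem mem_Ige {σ : Type*} {ω : σ → ℝ} {l : ℝ} {F : MvPolynomial σ ℂ} :
    F ∈ Ige ω l ↔ ∀ a ∈ F.support, l ≤ Finsupp.weight ω a := Iff.rfl

end Vale.Agent.P021
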