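import Mathlib

/-! The index filtration attached to an ideal and a weighted family of derivations. -/

namespace Vale.Agent.P021

variable {A : Type*} [CommRing A] [Algebra ℂ A] {σ : Type*}

/-- Apply a word of derivations (head first). -/
def applyW (δ : σ → Derivation ℂ A A) : List σ → A → A
  | [], F => F
  | i :: w, F => applyW δ w (δ i F)

/-- The weight of a word. -/
def wwt (ω : σ → ℝ) (w : List σ) : ℝ := (w.map ω).sum

@[simp] theorem wwt_nil (ω : σ → ℝ) : wwt ω [] = 0 := rfl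

@[simp] theorem wwt_cons (ω : σ → ℝ) (i : σ) (w : List σ) : wwt ω (i :: w) = ω i + wwt ω w := by
  simp [wwt]

theorem wwt_nonneg {ω : σ → ℝ} (hω : ∀ i, 0 ≤ ω i) (w : List σ) : 0 ≤ wwt ω w := by
  induction w with
  | nil => simp
  | cons i w ih => rw [wwt_cons]; exact add_nonneg (hω i) ih

theorem applyW_add (δ : σ → Derivation ℂ A A) (w : List σ) (F G : A) :
    applyW δ w (F + G) = applyW δ w F + applyW δ w G := by
  induction w generalizing F G with
  | nil => rfl
  | cons i w ih => simp only [applyW, map_add, ih]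

theorem applyW_zero (δ : σ → Derivation ℂ A A) (w : List σ) : applyW δ w 0 = 0 := by
  induction w with
  | nil => rfl
  | cons i w ih => simp only [applyW, map_zero, ih]

theorem applyW_neg (δ : σ → Derivation ℂ A A) (w : List σ) (F : A) :
    applyW δ w (-F) = -applyW δ w F := by
  induction w generalizing F with
  | nil => rfl
  | cons i w ih => simp only [applyW, map_neg, ih]

/-- `F` has index at least `l`: all derivatives along words of weight `< l` lie in `q`. -/
def Idx (δ : σ → Derivation ℂ A A) (ω : σ → ℝ) (q : Ideal A) (l : ℝ) : AddSubgroup A where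
  carrier := {F | ∀ w : List σ, wwt ω w < l → applyW δ w F ∈ q}
  add_mem' := fun {F G} hF hG w hw => by
    rw [applyW_add]; exact q.add_mem (hF w hw) (hG w hw)
  zero_mem' := fun w _ => by rw [applyW_zero]; exact q.zero_mem
  neg_mem' := fun {F} hF w hw => by rw [applyW_neg]; exact q.neg_mem (hF w hw)

variable {δ : σ → Derivation ℂ A A} {ω : σ → ℝ} {q : Ideal A}

theorem mem_Idx {l : ℝ} {F : A} :
    F ∈ Idx δ ω q l ↔ ∀ w : List σ, wwt ω w < l → applyW δ w F ∈ q := Iff.rfl

theorem Idx_anti {l l' : ℝ} (h : l ≤ l') {F : A} (hF : F ∈ Idx δ ω q l') : F ∈ Idx δ ω q l :=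
  fun w hw => hF w (hw.trans_le h)

theorem Idx_nonpos (hω : ∀ i, 0 ≤ ω i) {l : ℝ} (hl : l ≤ 0) (F : A) : F ∈ Idx δ ω q l :=
  fun w hw => absurd (hw.trans_le hl) (not_lt.mpr (wwt_nonneg hω w))

theorem Idx_deriv {l : ℝ} {F : A} (hF : F ∈ Idx δ ω q l) (i : σ) :
    δ i F ∈ Idx δ ω q (l - ω i) :=
  fun w hw => hF (i :: w) (by rw [wwt_cons]; linarith)

theorem Idx_mem {l : ℝ} {F : A} (hF : F ∈ Idx δ ω q l) (hl : 0 < l) : F ∈ q :=
  hF [] (by simpa using hl)

theorem Idx_of_deriv {l : ℝ} {F : A} (h0 : 0 < l → F ∈ q)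
    (h : ∀ i, δ i F ∈ Idx δ ω q (l - ω i)) : F ∈ Idx δ ω q l := by
  intro w hw
  cases w with
  | nil => exact h0 (by simpa using hw)
  | cons i w => exact h i w (by rw [wwt_cons] at hw; linarith)

theorem Idx_mul {l l' : ℝ} {F G : A} (hF : F ∈ Idx δ ω q l) (hG : G ∈ Idx δ ω q l') :
    F * G ∈ Idx δ ω q (l + l') := by
  intro w
  induction w generalizing F G l l' with
  | nil =>
    intro hw
    rw [wwt_nil] at hw
    by_cases hl : 0 < l
    · exact q.mul_mem_right _ (Idx_mem hF hl)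
    · exact q.mul_mem_left _ (Idx_mem hG (by linarith))
  | cons i w ih =>
    intro hw
    rw [wwt_cons] at hw
    simp only [applyW, Derivation.leibniz, smul_eq_mul, applyW_add]
    refine q.add_mem (ih hF (Idx_deriv hG i) (by linarith)) ?_
    exact ih hG (Idx_deriv hF i) (by linarith)

theorem Idx_mul_left (hω : ∀ i, 0 ≤ ω i) {l : ℝ} {F : A} (G : A) (hF : F ∈ Idx δ ω q l) :
    G * F ∈ Idx δ ω q l := by
  simpa using Idx_mul (Idx_nonpos (δ := δ) (q := q) hω le_rfl G) hF

theorem Idx_max (hω : ∀ i, 0 ≤ ω i) {l : ℝ} {F : A} (hF : F ∈ Idx δ ω q l) :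
    F ∈ Idx δ ω q (max l 0) := by
  rcases le_total l 0 with h | h
  · rw [max_eq_right h]; exact Idx_nonpos hω le_rfl F
  · rwa [max_eq_left h]

theorem Idx_prod (hω : ∀ i, 0 ≤ ω i) {τ : Type*} (s : Finset τ) (f : τ → A) (l : τ → ℝ)
    (h : ∀ b ∈ s, f b ∈ Idx δ ω q (l b)) : ∏ b ∈ s, f b ∈ Idx δ ω q (∑ b ∈ s, l b) := by
  classical
  induction s using Finset.induction_on with
  | empty => simpa using Idx_nonpos hω le_rfl 1
  | insert b s hb ih =>
    rw [Finset.prod_insert hb, Finset.sum_insert hb]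
    exact Idx_mul (h b (Finset.mem_insert_self b s))
      (ih fun c hc => h c (Finset.mem_insert_of_mem hc))

theorem Idx_det (hω : ∀ i, 0 ≤ ω i) {τ : Type*} [Fintype τ] [DecidableEq τ] (M : Matrix τ τ A)
    (l : τ → ℝ) (h : ∀ a b, M a b ∈ Idx δ ω q (l b)) : M.det ∈ Idx δ ω q (∑ b, l b) := by
  rw [Matrix.det_apply']
  refine AddSubgroup.sum_mem _ fun π _ => Idx_mul_left hω _ ?_
  exact Idx_prod hω _ _ _ fun b _ => h (π b) b

theorem Idx_cancel (hq : q.IsPrime) {c : ℝ} (hc : 0 < c) (hω : ∀ i, c ≤ ω i) {V : A} (hV : V ∉ q)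
    {l : ℝ} {U : A} (h : U * V ∈ Idx δ ω q l) : U ∈ Idx δ ω q l := by
  have hω0 : ∀ i, 0 ≤ ω i := fun i => hc.le.trans (hω i)
  have key : ∀ n : ℕ, ∀ (l : ℝ) (U : A), l ≤ n * c → U * V ∈ Idx δ ω q l → U ∈ Idx δ ω q l := by
    intro n
    induction n with
    | zero => intro l U hl _; exact Idx_nonpos hω0 (by simpa using hl) U
    | succ n ih =>
      intro l U hl h
      refine Idx_of_deriv (fun hl0 => (hq.mem_or_mem (Idx_mem h hl0)).resolve_right hV) fun i => ?_
      have hli : l - ω i ≤ n * c := by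
        have := hω i
        push_cast at hl
        linarith
      have h1 : U ∈ Idx δ ω q (l - ω i) :=
        ih _ U hli (Idx_anti (by linarith [hω0 i]) h)
      refine ih _ _ hli ?_
      have h2 := Idx_deriv h i
      have h3 : δ i U * V = δ i (U * V) - δ i V * U := by
        simp only [Derivation.leibniz, smul_eq_mul]; ring
      rw [h3]
      exact AddSubgroup.sub_mem _ h2 (Idx_mul_left hω0 _ h1)
  obtain ⟨n, hn⟩ := exists_nat_ge (l / c)
  exact key n l U (by rwa [div_le_iff₀ hc] at hn) h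

theorem Idx_iterate (i : σ) (b : ℕ) {l : ℝ} {F : A} (hF : F ∈ Idx δ ω q l) :
    (δ i)^[b] F ∈ Idx δ ω q (l - b * ω i) := by
  induction b with
  | zero => simpa using hF
  | succ b ih =>
    rw [Function.iterate_succ_apply']
    have := Idx_deriv ih i
    refine Idx_anti (le_of_eq ?_) this
    push_cast; ring

end Vale.Agent.P021
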