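import Mathlib

/-! An abstract intersection inequality proved by Noetherian induction. -/

namespace Vale.Agent.P021

open Module

section LinAlg

variable {U V W : Type*} [AddCommGroup U] [AddCommGroup V] [AddCommGroup W]
  [Module ℂ U] [Module ℂ V] [Module ℂ W]

theorem finrank_add_le_of_comp_eq_zero [Module.Finite ℂ V] (f : U →ₗ[ℂ] V) (g : V →ₗ[ℂ] W)
    (hf : Function.Injective f) (hg : Function.Surjective g) (h : ∀ u, g (f u) = 0) :
    finrank ℂ W + finrank ℂ U ≤ finrank ℂ V := by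
  have h1 := LinearMap.finrank_range_add_finrank_ker g
  rw [LinearMap.range_eq_top.mpr hg, finrank_top] at h1
  have h2 : finrank ℂ U ≤ finrank ℂ (LinearMap.ker g) := by
    refine LinearMap.finrank_le_finrank_of_injective
      (f := f.codRestrict (LinearMap.ker g) fun u => h u) ?_
    intro a b hab
    exact hf (congrArg Subtype.val hab)
  omega

theorem finrank_le_add_of_ker_le [Module.Finite ℂ U] [Module.Finite ℂ V] [Module.Finite ℂ W]
    (f : U →ₗ[ℂ] V) (g : V →ₗ[ℂ] W) (h : LinearMap.ker g ≤ LinearMap.range f) :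
    finrank ℂ V ≤ finrank ℂ U + finrank ℂ W := by
  have h1 := LinearMap.finrank_range_add_finrank_ker g
  have h2 : finrank ℂ (LinearMap.range g) ≤ finrank ℂ W := Submodule.finrank_le _
  have h3 : finrank ℂ (LinearMap.ker g) ≤ finrank ℂ (LinearMap.range f) :=
    Submodule.finrank_mono h
  have h4 : finrank ℂ (LinearMap.range f) ≤ finrank ℂ U := LinearMap.finrank_range_le f
  omega

end LinAlg

/-- A global degree filtration together with finitely many local order filtrations. -/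
structure Filt (A : Type*) [CommRing A] [Algebra ℂ A] (ι : Type*) where
  G : ℝ → Submodule ℂ A
  I : ι → ℝ → Ideal A
  G_fin : ∀ n, Module.Finite ℂ (G n)
  G_mono : Monotone G
  G_mul : ∀ {n N : ℝ} {f g : A}, f ∈ G N → g ∈ G n → f * g ∈ G (N + n)
  G_exh : ∀ f, ∃ N, f ∈ G N
  G_one : ∀ n, 0 < n → (1 : A) ∈ G n
  I_top : ∀ k l, l ≤ 0 → I k l = ⊤
  I_mul : ∀ {k : ι} {l l' : ℝ} {f g : A}, f ∈ I k l → g ∈ I k l' → f * g ∈ I k (l + l')
  I_fin : ∀ k l, Module.Finite ℂ (A ⧸ I k l)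

namespace Filt

variable {A : Type*} [CommRing A] [Algebra ℂ A] {ι : Type*} (F : Filt A ι)

/-- The global Hilbert function of `A ⧸ a`. -/
noncomputable def h (a : Ideal A) (n : ℝ) : ℕ :=
  finrank ℂ ((F.G n).map (Ideal.Quotient.mkₐ ℂ a).toLinearMap)

/-- The local Hilbert function of `A ⧸ a`. -/
noncomputable def H (a : Ideal A) (k : ι) (l : ℝ) : ℕ :=
  finrank ℂ (A ⧸ (a ⊔ F.I k l))

theorem I_anti (k : ι) {l l' : ℝ} (hl : l ≤ l') : F.I k l' ≤ F.I k l := by
  intro f hf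
  have h1 : (1 : A) ∈ F.I k (l - l') := by rw [F.I_top k _ (by linarith)]; trivial
  have := F.I_mul hf h1
  simpa using this

instance fin_map (a : Ideal A) (n : ℝ) :
    Module.Finite ℂ ((F.G n).map (Ideal.Quotient.mkₐ ℂ a).toLinearMap) := by
  have := F.G_fin n
  infer_instance

instance fin_quot (a : Ideal A) (k : ι) (l : ℝ) : Module.Finite ℂ (A ⧸ (a ⊔ F.I k l)) := by
  have := F.I_fin k l
  exact Module.Finite.of_surjective
    (Ideal.Quotient.factorₐ ℂ (le_sup_right : F.I k l ≤ a ⊔ F.I k l)).toLinearMap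
    (Ideal.Quotient.factor_surjective le_sup_right)

theorem h_mono (a : Ideal A) {n n' : ℝ} (hn : n ≤ n') : F.h a n ≤ F.h a n' :=
  Submodule.finrank_mono (Submodule.map_mono (F.G_mono hn))

theorem H_mono (a : Ideal A) (k : ι) {l l' : ℝ} (hl : l ≤ l') : F.H a k l ≤ F.H a k l' := by
  have hle : a ⊔ F.I k l' ≤ a ⊔ F.I k l := sup_le_sup_left (F.I_anti k hl) a
  exact LinearMap.finrank_le_finrank_of_surjective
    (f := (Ideal.Quotient.factorₐ ℂ hle).toLinearMap) (Ideal.Quotient.factor_surjective hle)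

theorem H_eq_zero (a : Ideal A) (k : ι) (l : ℝ) (h : a ⊔ F.I k l = ⊤) : F.H a k l = 0 := by
  unfold H
  have : Subsingleton (A ⧸ (a ⊔ F.I k l)) := Ideal.Quotient.subsingleton_iff.mpr h
  exact Module.finrank_zero_of_subsingleton

theorem H_nonpos (a : Ideal A) (k : ι) {l : ℝ} (hl : l ≤ 0) : F.H a k l = 0 :=
  F.H_eq_zero a k l (by rw [F.I_top k l hl]; simp)

/-- Multiplication by `f` between quotients. -/
noncomputable def mulQ (b a : Ideal A) (f : A) (hf : ∀ g ∈ b, f * g ∈ a) :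
    (A ⧸ b) →ₗ[ℂ] (A ⧸ a) :=
  (Submodule.mapQ b a (LinearMap.mulLeft A f) hf).restrictScalars ℂ

theorem mulQ_mk (b a : Ideal A) (f : A) (hf : ∀ g ∈ b, f * g ∈ a) (g : A) :
    mulQ b a f hf (Ideal.Quotient.mk b g) = Ideal.Quotient.mk a (f * g) := rfl

theorem h_ineq (a b : Ideal A) (f : A) (hb : ∀ g, g ∈ b ↔ f * g ∈ a) {N : ℝ} (hf : f ∈ F.G N)
    (n : ℝ) : F.h (a ⊔ Ideal.span {f}) n + F.h b (n - N) ≤ F.h a n := by
  unfold h
  have hle : a ≤ a ⊔ Ideal.span {f} := le_sup_left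
  refine finrank_add_le_of_comp_eq_zero
    ((mulQ b a f fun g hg => (hb g).mp hg).restrict ?_)
    ((Ideal.Quotient.factorₐ ℂ hle).toLinearMap.restrict ?_) ?_ ?_ ?_
  · rintro _ ⟨g, hg, rfl⟩
    refine ⟨f * g, ?_, rfl⟩
    have := F.G_mul hf hg
    simpa using this
  · rintro _ ⟨g, hg, rfl⟩
    exact ⟨g, hg, rfl⟩
  · rintro ⟨_, g, hg, rfl⟩ ⟨_, g', hg', rfl⟩ hgg
    have h1 : Ideal.Quotient.mk a (f * g) = Ideal.Quotient.mk a (f * g') :=
      congrArg Subtype.val hgg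
    rw [Ideal.Quotient.eq, ← mul_sub, ← hb] at h1
    exact Subtype.ext (Ideal.Quotient.eq.mpr h1)
  · rintro ⟨_, g, hg, rfl⟩
    exact ⟨⟨_, g, hg, rfl⟩, rfl⟩
  · rintro ⟨_, g, hg, rfl⟩
    apply Subtype.ext
    change Ideal.Quotient.mk (a ⊔ Ideal.span {f}) (f * g) = 0
    rw [Ideal.Quotient.eq_zero_iff_mem]
    exact Ideal.mem_sup_right (Ideal.mul_mem_right _ _ (Ideal.mem_span_singleton_self f))

theorem H_ineq (a b : Ideal A) (f : A) (hb : ∀ g ∈ b, f * g ∈ a) (k : ι) {l₀ : ℝ}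
    (hf : f ∈ a ⊔ F.I k l₀) (l : ℝ) :
    F.H a k l ≤ F.H b k (l - l₀) + F.H (a ⊔ Ideal.span {f}) k l := by
  unfold H
  have hle : a ⊔ F.I k l ≤ (a ⊔ Ideal.span {f}) ⊔ F.I k l := sup_le_sup_right le_sup_left _
  have hmul : ∀ g ∈ b ⊔ F.I k (l - l₀), f * g ∈ a ⊔ F.I k l := by
    intro g hg
    obtain ⟨g1, hg1, g2, hg2, rfl⟩ := Submodule.mem_sup.mp hg
    obtain ⟨f1, hf1, f2, hf2, hf12⟩ := Submodule.mem_sup.mp hf
    rw [mul_add]
    refine Ideal.add_mem _ (Ideal.mem_sup_left (hb g1 hg1)) ?_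
    rw [← hf12, add_mul]
    refine Ideal.add_mem _ (Ideal.mem_sup_left (Ideal.mul_mem_right _ _ hf1)) ?_
    have := F.I_mul hf2 hg2
    exact Ideal.mem_sup_right (by simpa using this)
  refine finrank_le_add_of_ker_le (mulQ _ _ f hmul) (Ideal.Quotient.factorₐ ℂ hle).toLinearMap ?_
  intro x hx
  obtain ⟨g, rfl⟩ := Ideal.Quotient.mk_surjective x
  have h1 : Ideal.Quotient.mk ((a ⊔ Ideal.span {f}) ⊔ F.I k l) g = 0 := hx
  rw [Ideal.Quotient.eq_zero_iff_mem] at h1
  obtain ⟨g1, hg1, g2, hg2, rfl⟩ := Submodule.mem_sup.mp h1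
  obtain ⟨g3, hg3, g4, hg4, rfl⟩ := Submodule.mem_sup.mp hg1
  obtain ⟨c, rfl⟩ := Ideal.mem_span_singleton'.mp hg4
  refine ⟨Ideal.Quotient.mk _ c, ?_⟩
  rw [mulQ_mk, Ideal.Quotient.eq]
  have : f * c - (g3 + c * f + g2) = -(g3 + g2) := by ring
  rw [this]
  exact neg_mem (Ideal.add_mem _ (Ideal.mem_sup_left hg3) (Ideal.mem_sup_right hg2))

/-- The hypothesis on prime ideals. -/
def PrimeHyp : Prop :=
  ∀ p : Ideal A, p.IsPrime →
    (∃ N : ℝ, 0 < N ∧ ∃ f ∈ F.G N, f ∉ p ∧ ∀ k, f ∈ p ⊔ F.I k N) ∨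
    (∃ k₀, (∀ k, k ≠ k₀ → ∀ l, p ⊔ F.I k l = ⊤) ∧ ∀ f : A, ∃ c : ℂ, f - algebraMap ℂ A c ∈ p)

theorem main_ineq [IsNoetherianRing A] [Fintype ι] (hP : F.PrimeHyp) (a : Ideal A) :
    ∃ c : ℝ, ∀ n : ℝ, ∑ k, F.H a k n ≤ F.h a (n + c) := by
  classical
  induction a using IsNoetherian.induction with
  | hgt a ih =>
  by_cases htop : a = ⊤
  · refine ⟨0, fun n => ?_⟩
    rw [Finset.sum_eq_zero fun k _ => F.H_eq_zero a k n (by simp [htop])]
    exact Nat.zero_le _
  change Ideal A at a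
  by_cases hpr : Ideal.IsPrime a
  · rcases hP a hpr with ⟨N, hN, f, hfG, hfa, hfI⟩ | ⟨k₀, hk₀, hconst⟩
    · have hlt : a < a ⊔ Ideal.span {f} := by
        refine lt_of_le_of_ne le_sup_left fun h => hfa ?_
        rw [h]
        exact Ideal.mem_sup_right (Ideal.mem_span_singleton_self f)
      obtain ⟨c, hc⟩ := ih _ hlt
      refine ⟨c, ?_⟩
      have key : ∀ j : ℕ, ∀ n : ℝ, n ≤ j * N → ∑ k, F.H a k n ≤ F.h a (n + c) := by
        intro j
        induction j with
        | zero =>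
          intro n hn
          rw [Finset.sum_eq_zero fun k _ => F.H_nonpos a k (by simpa using hn)]
          exact Nat.zero_le _
        | succ j ihj =>
          intro n hn
          have h1 := ihj (n - N) (by push_cast at hn; linarith)
          have h2 := hc n
          have h3 := F.h_ineq a a f (fun g => ⟨fun hg => Ideal.mul_mem_left _ _ hg,
            fun hg => (hpr.mem_or_mem hg).resolve_left hfa⟩) hfG (n + c)
          have h4 : ∑ k, F.H a k n ≤
              ∑ k, F.H a k (n - N) + ∑ k, F.H (a ⊔ Ideal.span {f}) k n := by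
            rw [← Finset.sum_add_distrib]
            exact Finset.sum_le_sum fun k _ =>
              F.H_ineq a a f (fun g hg => Ideal.mul_mem_left _ _ hg) k (hfI k) n
          have h5 : n + c - N = n - N + c := by ring
          rw [h5] at h3
          omega
      intro n
      obtain ⟨j, hj⟩ := exists_nat_ge (n / N)
      exact key j n (by rwa [div_le_iff₀ hN] at hj)
    · refine ⟨0, fun n => ?_⟩
      rcases le_or_gt n 0 with hn | hn
      · rw [Finset.sum_eq_zero fun k _ => F.H_nonpos a k hn]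
        exact Nat.zero_le _
      rw [Finset.sum_eq_single k₀ (fun k _ hk => F.H_eq_zero a k n (hk₀ k hk n)) (by simp)]
      have h1 : F.H a k₀ n ≤ 1 := by
        unfold H
        have : finrank ℂ (A ⧸ (a ⊔ F.I k₀ n)) ≤ finrank ℂ ℂ := by
          refine LinearMap.finrank_le_finrank_of_surjective
            (f := Algebra.linearMap ℂ (A ⧸ (a ⊔ F.I k₀ n))) ?_
          intro x
          obtain ⟨g, rfl⟩ := Ideal.Quotient.mk_surjective x
          obtain ⟨c, hc⟩ := hconst g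
          refine ⟨c, ?_⟩
          change Ideal.Quotient.mk _ (algebraMap ℂ A c) = _
          rw [eq_comm, Ideal.Quotient.eq]
          exact Ideal.mem_sup_left hc
        simpa using this
      have h2 : 1 ≤ F.h a (n + 0) := by
        unfold h
        rw [Nat.one_le_iff_ne_zero, Ne, Submodule.finrank_eq_zero, Submodule.eq_bot_iff]
        intro h
        have := h (Ideal.Quotient.mk a 1) ⟨1, F.G_one _ (by linarith), rfl⟩
        rw [Ideal.Quotient.eq_zero_iff_mem] at this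
        exact htop ((Ideal.eq_top_iff_one a).mpr this)
      omega
  · obtain ⟨f, hf, g, hg, hfg⟩ := (Ideal.not_isPrime_iff.mp hpr).resolve_left htop
    have hlt : a < a ⊔ Ideal.span {f} := by
      refine lt_of_le_of_ne le_sup_left fun h => hf ?_
      rw [h]
      exact Ideal.mem_sup_right (Ideal.mem_span_singleton_self f)
    let b : Ideal A := Submodule.comap (LinearMap.mulLeft A f) a
    have hb : ∀ x, x ∈ b ↔ f * x ∈ a := fun x => Iff.rfl
    have hlt' : a < b := by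
      refine lt_of_le_of_ne (fun x hx => (hb x).mpr (Ideal.mul_mem_left _ _ hx)) fun h => hg ?_
      rw [h]
      exact (hb g).mpr hfg
    obtain ⟨c₁, hc₁⟩ := ih _ hlt
    obtain ⟨c₂, hc₂⟩ := ih _ hlt'
    obtain ⟨N, hN⟩ := F.G_exh f
    refine ⟨max c₁ (c₂ + N), fun n => ?_⟩
    have h1 := hc₁ n
    have h2 := hc₂ n
    have h3 := F.h_ineq a b f hb hN (n + max c₁ (c₂ + N))
    have h4 : ∑ k, F.H a k n ≤ ∑ k, F.H b k n + ∑ k, F.H (a ⊔ Ideal.span {f}) k n := by
      rw [← Finset.sum_add_distrib]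
      refine Finset.sum_le_sum fun k _ => ?_
      have := F.H_ineq a b f (fun g hg => (hb g).mp hg) k (l₀ := 0)
        (by rw [F.I_top k 0 le_rfl]; simp) n
      simpa using this
    have h5 := F.h_mono (a ⊔ Ideal.span {f})
      (show n + c₁ ≤ n + max c₁ (c₂ + N) by linarith [le_max_left c₁ (c₂ + N)])
    have h6 := F.h_mono b
      (show n + c₂ ≤ n + max c₁ (c₂ + N) - N by linarith [le_max_right c₁ (c₂ + N)])
    omega

theorem final_ineq [IsNoetherianRing A] [IsDomain A] [Fintype ι] (hP : F.PrimeHyp)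
    (a : ℕ) (η : ℝ) (hη : 0 < η) (P : A) (hP0 : P ≠ 0) (hPG : P ∈ F.G (a * η))
    (hPI : ∀ k, P ∈ F.I k ((a + 1) * η)) :
    ∃ c : ℝ, ∀ J : ℕ, (a + 1) * ∑ k, F.H ⊥ k ((J - a) * η) ≤ a * F.h ⊥ (J * η + c) := by
  obtain ⟨c, hc⟩ := F.main_ineq hP (⊥ ⊔ Ideal.span {P})
  have step : ∀ n : ℝ, ∑ k, F.H ⊥ k n + F.h ⊥ (n + c - a * η) ≤
      ∑ k, F.H ⊥ k (n - (a + 1) * η) + F.h ⊥ (n + c) := by
    intro n
    have h1 := hc n
    have h3 := F.h_ineq ⊥ ⊥ P (fun g => by simp [hP0]) hPG (n + c)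
    have h4 : ∑ k, F.H ⊥ k n ≤
        ∑ k, F.H ⊥ k (n - (a + 1) * η) + ∑ k, F.H (⊥ ⊔ Ideal.span {P}) k n := by
      rw [← Finset.sum_add_distrib]
      exact Finset.sum_le_sum fun k _ =>
        F.H_ineq ⊥ ⊥ P (fun g hg => Ideal.mul_mem_left _ _ hg) k
          (Ideal.mem_sup_right (hPI k)) n
    omega
  have key : ∀ J : ℕ, ∑ i ∈ Finset.range (a + 1), ∑ k, F.H ⊥ k ((J - i) * η) ≤
      ∑ i ∈ Finset.range a, F.h ⊥ ((J - i) * η + c) := by
    intro J
    induction J with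
    | zero =>
      rw [Finset.sum_eq_zero]
      · exact Nat.zero_le _
      intro i _
      refine Finset.sum_eq_zero fun k _ => F.H_nonpos _ k ?_
      have : (0 : ℝ) ≤ i := Nat.cast_nonneg i
      push_cast
      nlinarith
    | succ J ih =>
      have h1 := step ((J + 1 : ℕ) * η)
      have e1 := Finset.sum_range_succ' (fun i : ℕ => ∑ k, F.H ⊥ k ((((J + 1 : ℕ) : ℝ) - i) * η)) (a + 1)
      have e2 := Finset.sum_range_succ (fun i : ℕ => ∑ k, F.H ⊥ k ((((J + 1 : ℕ) : ℝ) - i) * η)) (a + 1)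
      have e3 := Finset.sum_range_succ' (fun i : ℕ => F.h ⊥ ((((J + 1 : ℕ) : ℝ) - i) * η + c)) a
      have e4 := Finset.sum_range_succ (fun i : ℕ => F.h ⊥ ((((J + 1 : ℕ) : ℝ) - i) * η + c)) a
      have f1 : ∀ i : ℕ, (((J + 1 : ℕ) : ℝ) - ((i + 1 : ℕ) : ℝ)) * η = (J - i) * η := by
        intro i; push_cast; ring
      simp only [f1] at e1 e3
      have g1 : (((J + 1 : ℕ) : ℝ) - ((0 : ℕ) : ℝ)) * η = ((J + 1 : ℕ) : ℝ) * η := by simp
      have g2 : ((J : ℝ) - (a : ℝ)) * η = ((J + 1 : ℕ) : ℝ) * η - (a + 1) * η := by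
        push_cast; ring
      have g3 : (((J + 1 : ℕ) : ℝ) - (a : ℝ)) * η + c = ((J + 1 : ℕ) : ℝ) * η + c - a * η := by
        ring
      rw [g1] at e1 e3
      rw [f1 a, g2] at e2
      rw [g3] at e4
      omega
  refine ⟨c, fun J => ?_⟩
  have h1 : (a + 1) * ∑ k, F.H ⊥ k ((J - a) * η) ≤
      ∑ i ∈ Finset.range (a + 1), ∑ k, F.H ⊥ k ((J - i) * η) := by
    have := Finset.card_nsmul_le_sum (Finset.range (a + 1))
      (fun i : ℕ => ∑ k, F.H ⊥ k ((J - i) * η)) (∑ k, F.H ⊥ k ((J - a) * η)) (by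
        intro i hi
        refine Finset.sum_le_sum fun k _ => F.H_mono _ k ?_
        have : (i : ℝ) ≤ a := by exact_mod_cast Nat.lt_succ_iff.mp (Finset.mem_range.mp hi)
        nlinarith)
    simpa using this
  have h2 : ∑ i ∈ Finset.range a, F.h ⊥ ((J - i) * η + c) ≤ a * F.h ⊥ (J * η + c) := by
    have := Finset.sum_le_card_nsmul (Finset.range a)
      (fun i : ℕ => F.h ⊥ ((J - i) * η + c)) (F.h ⊥ (J * η + c)) (by
        intro i _
        refine F.h_mono _ ?_
        have : (0 : ℝ) ≤ i := Nat.cast_nonneg i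
        nlinarith)
    simpa using this
  exact h1.trans ((key J).trans h2)

end Filt

end Vale.Agent.P021
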