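import Vale.Agent.P021.Box

/-! A function field version of Roth's lemma, in two frames. -/

namespace Vale.Agent.P021

open MvPolynomial Finset

variable {m : ℕ}

theorem deriv_sum_apply {A τ : Type*} [CommRing A] [Algebra ℂ A] (s : Finset τ)
    (D : τ → Derivation ℂ A A) (F : A) : (∑ i ∈ s, D i) F = ∑ i ∈ s, D i F := by
  classical
  induction s using Finset.induction_on with
  | empty => simp
  | insert b s hb ih => rw [sum_insert hb, sum_insert hb, Derivation.add_apply, ih]

/-- The derivation `y d/dy + ∑ v j d/dx j`. -/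
noncomputable def Dfull (v : Fin m → ℂ) :
    Derivation ℂ (MvPolynomial (Option (Fin m)) ℂ) (MvPolynomial (Option (Fin m)) ℂ) :=
  (X none : MvPolynomial (Option (Fin m)) ℂ) • pderiv none +
    ∑ j, (C (v j) : MvPolynomial (Option (Fin m)) ℂ) • pderiv (some j)

theorem Dfull_apply (v : Fin m → ℂ) (F : MvPolynomial (Option (Fin m)) ℂ) :
    Dfull v F = X none * pderiv none F + ∑ j, C (v j) * pderiv (some j) F := by
  simp [Dfull, deriv_sum_apply]

/-- The first frame. -/
noncomputable def frameA (v : Fin m → ℂ) : Option (Fin m) →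
    Derivation ℂ (MvPolynomial (Option (Fin m)) ℂ) (MvPolynomial (Option (Fin m)) ℂ) :=
  fun o => o.elim (Dfull v) fun j => pderiv (some j)

/-- The second frame. -/
noncomputable def frameB (m : ℕ) : Option (Fin m) →
    Derivation ℂ (MvPolynomial (Option (Fin m)) ℂ) (MvPolynomial (Option (Fin m)) ℂ) :=
  fun o => o.elim 0 fun j => pderiv (some j)

theorem iterate_pderiv_X_pow {σ : Type*} (i : σ) (b c : ℕ) :
    (⇑((1 : MvPolynomial σ ℂ) • (pderiv i : Derivation ℂ (MvPolynomial σ ℂ) (MvPolynomial σ ℂ))))^[b]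
      (X i ^ c) = (c.descFactorial b : MvPolynomial σ ℂ) * X i ^ (c - b) := by
  rw [one_smul]
  induction b with
  | zero => simp
  | succ b ih =>
    rw [Function.iterate_succ_apply', ih, pderiv_mul, Derivation.map_natCast, pderiv_pow,
      pderiv_X_self, Nat.descFactorial_succ, Nat.sub_sub]
    push_cast
    ring

theorem stepA (v : Fin m → ℂ) (hv : ∀ j, v j ≠ 0) {ω : Option (Fin m) → ℝ}
    {q : Ideal (MvPolynomial (Option (Fin m)) ℂ)} (hq : q.IsPrime) {c₀ : ℝ} (hc₀ : 0 < c₀)
    (hω : ∀ i, c₀ ≤ ω i) (j : Fin m) (d : Option (Fin m) → ℕ)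
    (P : MvPolynomial (Option (Fin m)) ℂ) (l w : ℝ) (hd : ∀ i, j < i → d (some i) = 0)
    (hPd : P ∈ Box d) (hP0 : P ≠ 0) (hP : P ∈ Idx (frameA v) ω q l) (hw : 0 ≤ w)
    (hw0 : ω none ≤ w) (hwi : ∀ i, i < j → ω (some i) ≤ w) :
    ∃ ρ : ℕ, 1 ≤ ρ ∧ ρ ≤ d (some j) + 1 ∧ ∃ U, U ≠ 0 ∧ U ∈ Box (ρ • Function.update d (some j) 0) ∧
      U ∈ Idx (frameA v) ω q (∑ b : Fin ρ, max (l - d (some j) * w - b * ω (some j)) 0) := by
  have hω0 : ∀ i, 0 ≤ ω i := fun i => hc₀.le.trans (hω i)
  obtain ⟨l₀, φ₀, hl₀, hφ₀B, hφ₀z, hφ₀l, hPeq⟩ := Box_decomp hPd hP0 (some j)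
  set d' := Function.update d (some j) 0 with hd'
  let E : Derivation ℂ (MvPolynomial (Option (Fin m)) ℂ) (MvPolynomial (Option (Fin m)) ℂ) :=
    (X none : MvPolynomial (Option (Fin m)) ℂ) • pderiv none
  have hE : ∀ F, E F = X none * pderiv none F := fun F => rfl
  let T : MvPolynomial (Option (Fin m)) ℂ → MvPolynomial (Option (Fin m)) ℂ :=
    fun F => E F + C (v j) * pderiv (some j) F
  let φ : ℕ → ℕ → MvPolynomial (Option (Fin m)) ℂ := fun a =>
    Nat.rec φ₀ (fun _ ψ c => E (ψ c) + C (v j) * ((c : MvPolynomial (Option (Fin m)) ℂ) + 1) *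
      ψ (c + 1)) a
  have hφs : ∀ a c, φ (a + 1) c =
      E (φ a c) + C (v j) * ((c : MvPolynomial (Option (Fin m)) ℂ) + 1) * φ a (c + 1) :=
    fun a c => rfl
  have hφB : ∀ a c, φ a c ∈ Box d' := by
    intro a
    induction a with
    | zero => exact hφ₀B
    | succ a ih =>
      intro c
      rw [hφs, hE]
      refine Submodule.add_mem _ (X_mul_pderiv_mem_Box (ih c) none) ?_
      have : C (v j) * ((c : MvPolynomial (Option (Fin m)) ℂ) + 1) = C (v j * ((c : ℂ) + 1)) := by
        simp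
      rw [this]
      exact C_mul_mem_Box _ (ih _)
  have hφz : ∀ a c, l₀ < c → φ a c = 0 := by
    intro a
    induction a with
    | zero => exact hφ₀z
    | succ a ih =>
      intro c hc
      rw [hφs, ih c hc, ih (c + 1) (by omega)]
      simp
  have hφp : ∀ a c, pderiv (some j) (φ a c) = 0 := fun a c =>
    pderiv_eq_zero_of_Box (hφB a c) (by simp [hd'])
  have hTP : ∀ a, T^[a] P = ∑ c ∈ range (l₀ + 1), φ a c * X (some j) ^ c := by
    intro a
    induction a with
    | zero => exact hPeq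
    | succ a ih =>
      rw [Function.iterate_succ_apply', ih]
      simp only [T, map_sum, hφs, add_mul, sum_add_distrib]
      have e1 : ∀ c, E (φ a c * X (some j) ^ c) = E (φ a c) * X (some j) ^ c := by
        intro c
        rw [hE, hE, pderiv_mul, pderiv_pow, pderiv_X_of_ne (by simp)]
        ring
      have e2 : ∀ c, pderiv (some j) (φ a c * X (some j) ^ c) =
          (c : MvPolynomial (Option (Fin m)) ℂ) * φ a c * X (some j) ^ (c - 1) := by
        intro c
        rw [pderiv_mul, pderiv_pow, pderiv_X_self, hφp]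
        ring
      simp only [e1, e2]
      congr 1
      rw [sum_range_succ', sum_range_succ _ l₀, hφz a (l₀ + 1) (by omega), mul_add, mul_sum]
      simp only [Nat.cast_zero, zero_mul, mul_zero, add_zero, Nat.add_sub_cancel]
      refine sum_congr rfl fun c _ => ?_
      push_cast; ring
  have hTB : ∀ F ∈ (Box d : Set (MvPolynomial (Option (Fin m)) ℂ)), T F ∈ (Box d : Set _) :=
    fun F hF => Submodule.add_mem _ (X_mul_pderiv_mem_Box hF none)
      (C_mul_mem_Box _ (pderiv_mem_Box hF _))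
  have hTI : ∀ F ∈ (Box d : Set (MvPolynomial (Option (Fin m)) ℂ)), ∀ l,
      F ∈ Idx (frameA v) ω q l → T F ∈ Idx (frameA v) ω q (l - w) := by
    intro F hF l hFl
    have e : T F = Dfull v F - ∑ i ∈ univ.erase j, C (v i) * pderiv (some i) F := by
      rw [Dfull_apply, ← add_sum_erase univ _ (mem_univ j)]
      simp only [T, hE]
      ring
    rw [e]
    refine AddSubgroup.sub_mem _ (Idx_anti (by linarith) (Idx_deriv hFl none)) ?_
    refine AddSubgroup.sum_mem _ fun i hi => ?_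
    rcases lt_or_gt_of_ne (ne_of_mem_erase hi) with h | h
    · exact Idx_mul_left hω0 _ (Idx_anti (by linarith [hwi i h]) (Idx_deriv hFl (some i)))
    · rw [pderiv_eq_zero_of_Box hF (hd i h), mul_zero]
      exact AddSubgroup.zero_mem _
  refine ⟨l₀ + 1, by omega, by omega, (Matrix.of fun a c : Fin (l₀ + 1) => φ a c).det, ?_,
    Box_det _ _ fun a c => hφB a c, ?_⟩
  · refine conn_det_ne_zero E (C (v j)) (fun α β n hα => ?_) l₀ φ
      (fun a => hφz a _ (by omega)) hφs hφ₀l
    exact mv_star (v j) (hv j) α β n hα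
  · refine step_common (δ := frameA v) hq hc₀ hω (some j) 1
      (Matrix.of fun a c : Fin (l₀ + 1) => φ a c) (fun a c => hφp a c)
      (fun c => X (some j) ^ (c : ℕ)) ?_ _ fun a => ?_
    · change (Matrix.of fun b c : Fin (l₀ + 1) =>
        (⇑((1 : MvPolynomial (Option (Fin m)) ℂ) • (pderiv (some j) : Derivation ℂ _ _)))^[b]
          (X (some j) ^ (c : ℕ))).det ∉ q
      simp only [iterate_pderiv_X_pow]
      rw [Matrix.det_of_upperTriangular]
      · simp only [Matrix.of_apply, Nat.sub_self, pow_zero, mul_one, Nat.descFactorial_self]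
        intro h
        refine hq.ne_top (Ideal.eq_top_of_isUnit_mem _ h ?_)
        have : ∏ i : Fin (l₀ + 1), (((i : ℕ).factorial : ℕ) : MvPolynomial (Option (Fin m)) ℂ) =
            C (∏ i : Fin (l₀ + 1), (((i : ℕ).factorial : ℕ) : ℂ)) := by simp
        rw [this]
        refine IsUnit.map C (Ne.isUnit ?_)
        exact prod_ne_zero_iff.mpr fun i _ => by exact_mod_cast Nat.factorial_ne_zero _
      · intro b c hcb
        have : (c : ℕ) < b := hcb
        simp [Nat.descFactorial_eq_zero_iff_lt.mpr this]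
    · have h1 := (Idx_iterate' T w _ hTB hTI a hPd hP).2
      rw [hTP, ← Fin.sum_univ_eq_sum_range (fun c => φ a c * X (some j) ^ c)] at h1
      refine Idx_anti ?_ h1
      have : ((a : ℕ) : ℝ) ≤ d (some j) := by exact_mod_cast (by omega : (a : ℕ) ≤ d (some j))
      nlinarith

theorem diag_apply {σ : Type*} [Fintype σ] (lam : σ → ℂ) (F : MvPolynomial σ ℂ) :
    diag lam F = ∑ i, C (lam i) * X i * pderiv i F := by
  classical
  have : diag lam = ∑ i, (C (lam i) * X i : MvPolynomial σ ℂ) • pderiv i := by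
    refine derivation_ext fun k => ?_
    simp [diag, deriv_sum_apply, pderiv_X, Pi.single_apply]
  rw [this]
  simp [deriv_sum_apply]

theorem stepB {ω : Option (Fin m) → ℝ}
    {q : Ideal (MvPolynomial (Option (Fin m)) ℂ)} (hq : q.IsPrime) {c₀ : ℝ} (hc₀ : 0 < c₀)
    (hω : ∀ i, c₀ ≤ ω i)
    (hT1 : ∀ (j : Fin m) (n : ℕ) (V : MvPolynomial (Option (Fin m)) ℂ),
      V ∈ Box (Pi.single (some j) n) → V ∈ q → V = 0)
    (j : Fin m) (d : Option (Fin m) → ℕ) (hdn : d none = 0)
    (P : MvPolynomial (Option (Fin m)) ℂ) (l w : ℝ) (hd : ∀ i, j < i → d (some i) = 0)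
    (hPd : P ∈ Box d) (hP0 : P ≠ 0) (hP : P ∈ Idx (frameB m) ω q l) (hw : 0 ≤ w)
    (hwi : ∀ i, i < j → ω (some i) ≤ w) :
    ∃ ρ : ℕ, 1 ≤ ρ ∧ ρ ≤ d (some j) + 1 ∧ ∃ U, U ≠ 0 ∧ U ∈ Box (ρ • Function.update d (some j) 0) ∧
      U ∈ Idx (frameB m) ω q (∑ b : Fin ρ, max (l - d (some j) * w - b * ω (some j)) 0) := by
  have hω0 : ∀ i, 0 ≤ ω i := fun i => hc₀.le.trans (hω i)
  obtain ⟨l₀, φ₀, hl₀, hφ₀B, -, -, hPeq⟩ := Box_decomp hPd hP0 (some j)
  set d' := Function.update d (some j) 0 with hd'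
  obtain ⟨lam, hlam⟩ := exists_weight_injective (Option (Fin m))
  let S : Submodule ℂ (MvPolynomial (Option (Fin m)) ℂ) :=
    Submodule.span ℂ (Set.range fun c : Fin (l₀ + 1) => φ₀ c)
  have hfin : Module.Finite ℂ S := Module.Finite.span_of_finite ℂ (Set.finite_range _)
  let bs := Module.finBasis ℂ S
  set ρ := Module.finrank ℂ S with hρ
  have hρle : ρ ≤ l₀ + 1 := by
    have := finrank_range_le_card (R := ℂ) (fun c : Fin (l₀ + 1) => φ₀ c)
    rw [Fintype.card_fin] at this
    exact this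
  have hSB : S ≤ Box d' := Submodule.span_le.mpr (by rintro _ ⟨c, rfl⟩; exact hφ₀B c)
  have hmem : ∀ c : Fin (l₀ + 1), φ₀ c ∈ S := fun c => Submodule.subset_span ⟨c, rfl⟩
  let f : Fin ρ → MvPolynomial (Option (Fin m)) ℂ := fun i => bs i
  have hf : LinearIndependent ℂ f := bs.linearIndependent.map' S.subtype S.ker_subtype
  have hfB : ∀ i, f i ∈ Box d' := fun i => hSB (bs i).2
  let μ : Fin (l₀ + 1) → Fin ρ → ℂ := fun c i => bs.repr ⟨φ₀ c, hmem c⟩ i
  have hμ : ∀ c : Fin (l₀ + 1), φ₀ c = ∑ i, μ c i • f i := by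
    intro c
    have := congrArg S.subtype (bs.sum_repr ⟨φ₀ c, hmem c⟩)
    rw [map_sum] at this
    exact this.symm
  let G : Fin ρ → MvPolynomial (Option (Fin m)) ℂ := fun i =>
    ∑ c : Fin (l₀ + 1), μ c i • X (some j) ^ (c : ℕ)
  have hGB : ∀ i, G i ∈ Box (Pi.single (some j) l₀) := fun i =>
    Submodule.sum_mem _ fun c _ => Submodule.smul_mem _ _ (X_pow_mem_Box _ (by omega))
  have hPG : P = ∑ i, f i * G i := by
    rw [hPeq, ← Fin.sum_univ_eq_sum_range (fun c => φ₀ c * X (some j) ^ c)]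
    simp only [hμ, G, sum_mul, mul_sum]
    rw [sum_comm]
    refine sum_congr rfl fun i _ => sum_congr rfl fun c _ => ?_
    rw [smul_mul_assoc, mul_smul_comm]
  have hG : LinearIndependent ℂ G := by
    rw [Fintype.linearIndependent_iff]
    intro g hg
    have h1 : ∀ c : Fin (l₀ + 1), ∑ i, μ c i * g i = 0 := by
      intro c
      have h2 := congrArg (coeff (Finsupp.single (some j) (c : ℕ))) hg
      simp only [G, coeff_sum, coeff_smul, coeff_X_pow, coeff_zero, smul_eq_mul, mul_ite,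
        mul_one, mul_zero, Finsupp.single_injective _ |>.eq_iff, Fin.val_inj, sum_ite_eq',
        mem_univ, if_true] at h2
      rw [← h2]
      exact sum_congr rfl fun i _ => mul_comm _ _
    let ℓ : S →ₗ[ℂ] ℂ := bs.constr ℂ g
    have h2 : ∀ x (hx : x ∈ S), ℓ ⟨x, hx⟩ = 0 := by
      intro x hx
      induction hx using Submodule.span_induction with
      | mem x hx =>
        obtain ⟨c, rfl⟩ := hx
        rw [← h1 c]
        simp [ℓ, μ, Module.Basis.constr_apply_fintype]
      | zero => exact map_zero ℓ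
      | add x y hx hy ihx ihy =>
        have := map_add ℓ ⟨x, hx⟩ ⟨y, hy⟩
        rw [ihx, ihy, add_zero] at this
        exact this
      | smul a x hx ih =>
        have := map_smul ℓ a ⟨x, hx⟩
        rw [ih, smul_zero] at this
        exact this
    intro i
    have := h2 (bs i) (bs i).2
    simpa [ℓ] using this
  have hρ1 : 1 ≤ ρ := by
    by_contra h
    apply hP0
    rw [hPG]
    have : IsEmpty (Fin ρ) := by rw [show ρ = 0 by omega]; infer_instance
    simp
  let L := diag (Function.update lam (some j) 0)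
  let Θ : Derivation ℂ (MvPolynomial (Option (Fin m)) ℂ) (MvPolynomial (Option (Fin m)) ℂ) :=
    (C (lam (some j)) * X (some j) : MvPolynomial (Option (Fin m)) ℂ) • pderiv (some j)
  have hL : ∀ F, L F = ∑ i ∈ univ.erase (some j), C (lam i) * X i * pderiv i F := by
    intro F
    rw [diag_apply, ← add_sum_erase univ _ (mem_univ (some j))]
    simp only [Function.update_self, C_0, zero_mul, zero_add]
    exact sum_congr rfl fun i hi => by rw [Function.update_of_ne (ne_of_mem_erase hi)]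
  have hsplit : ∀ F, diag lam F = Θ F + L F := by
    intro F
    rw [hL, diag_apply, ← add_sum_erase univ _ (mem_univ (some j))]
    rfl
  have hLG : ∀ F ∈ Box (Pi.single (some j) l₀ : Option (Fin m) → ℕ), L F = 0 := by
    intro F hF
    rw [hL]
    exact sum_eq_zero fun i hi => by
      rw [pderiv_eq_zero_of_Box hF (Pi.single_eq_of_ne (ne_of_mem_erase hi) _), mul_zero]
  have hLf : ∀ F ∈ Box d', L F = diag lam F := by
    intro F hF
    rw [hsplit]
    simp [Θ, pderiv_eq_zero_of_Box hF (show d' (some j) = 0 by simp [hd'])]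
  have hitB : ∀ (e : Option (Fin m) → ℕ) (F) (a : ℕ), F ∈ Box e → (diag lam)^[a] F ∈ Box e := by
    intro e F a hF
    induction a with
    | zero => exact hF
    | succ a ih => rw [Function.iterate_succ_apply']; exact diag_mem_Box _ ih
  have hLP : ∀ a : ℕ, L^[a] P = ∑ i, (diag lam)^[a] (f i) * G i := by
    intro a
    induction a with
    | zero => exact hPG
    | succ a ih =>
      simp only [Function.iterate_succ_apply', ih, map_sum]
      refine sum_congr rfl fun i _ => ?_
      rw [Derivation.leibniz, hLG _ (hGB i), hLf _ (hitB _ _ a (hfB i)), smul_zero, zero_add,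
        smul_eq_mul, mul_comm]
  have hΘG : ∀ (b : ℕ) i, Θ^[b] (G i) = (diag lam)^[b] (G i) := by
    intro b i
    induction b with
    | zero => rfl
    | succ b ih =>
      rw [Function.iterate_succ_apply', Function.iterate_succ_apply', ih, hsplit,
        hLG _ (hitB _ _ b (hGB i)), add_zero]
  have hLB : ∀ F ∈ (Box d : Set (MvPolynomial (Option (Fin m)) ℂ)), L F ∈ (Box d : Set _) :=
    fun F hF => diag_mem_Box _ hF
  have hLI : ∀ F ∈ (Box d : Set (MvPolynomial (Option (Fin m)) ℂ)), ∀ l,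
      F ∈ Idx (frameB m) ω q l → L F ∈ Idx (frameB m) ω q (l - w) := by
    intro F hF l hFl
    rw [hL]
    refine AddSubgroup.sum_mem _ fun i hi => ?_
    cases i with
    | none =>
      rw [pderiv_eq_zero_of_Box hF hdn, mul_zero]
      exact AddSubgroup.zero_mem _
    | some i =>
      have hij : i ≠ j := fun h => ne_of_mem_erase hi (by rw [h])
      rcases lt_or_gt_of_ne hij with h | h
      · exact Idx_mul_left hω0 _ (Idx_anti (by linarith [hwi i h]) (Idx_deriv hFl (some i)))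
      · rw [pderiv_eq_zero_of_Box hF (hd i h), mul_zero]
        exact AddSubgroup.zero_mem _
  refine ⟨ρ, hρ1, by omega, (Matrix.of fun a c : Fin ρ => (diag lam)^[a] (f c)).det,
    wronskian_ne_zero _ (diag_const lam hlam) f hf,
    Box_det _ _ fun a c => hitB _ _ a (hfB c), ?_⟩
  refine step_common (δ := frameB m) hq hc₀ hω (some j) (C (lam (some j)) * X (some j))
    (Matrix.of fun a c : Fin ρ => (diag lam)^[a] (f c))
    (fun a c => pderiv_eq_zero_of_Box (hitB _ _ a (hfB c)) (by simp [hd'])) G ?_ _ fun a => ?_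
  · change (Matrix.of fun b c : Fin ρ => Θ^[b] (G c)).det ∉ q
    simp only [hΘG]
    intro h
    refine wronskian_ne_zero _ (diag_const lam hlam) G hG (hT1 j (ρ * l₀) _ ?_ h)
    refine Box_mono (fun i => ?_) (Box_det _ _ fun a c => hitB _ _ a (hGB c))
    by_cases hi : i = some j
    · subst hi; simp
    · simp [hi]
  · have h1 := (Idx_iterate' L w _ hLB hLI a hPd hP).2
    rw [hLP] at h1
    refine Idx_anti ?_ h1
    have : ((a : ℕ) : ℝ) ≤ d (some j) := by exact_mod_cast (by omega : (a : ℕ) ≤ d (some j))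
    nlinarith

/-- The map describing the loss of index in one elimination step. -/
noncomputable def shrink (Γ : ℝ) (x : ℝ) : ℝ := x ^ 2 / (32 * Γ)

theorem shrink_pos {Γ x : ℝ} (hΓ : 1 ≤ Γ) (hx : 0 < x) : 0 < shrink Γ x := by
  unfold shrink; positivity

theorem shrink_le {Γ x : ℝ} (hΓ : 1 ≤ Γ) (hx : 0 < x) (hx1 : x ≤ 1) : shrink Γ x ≤ x := by
  unfold shrink
  rw [div_le_iff₀ (by positivity)]
  nlinarith

theorem shrink_iterate {Γ : ℝ} (hΓ : 1 ≤ Γ) (t : ℕ) {x : ℝ} (hx : 0 < x) (hx1 : x ≤ 1) :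
    0 < (shrink Γ)^[t] x ∧ (shrink Γ)^[t] x ≤ x := by
  induction t with
  | zero => exact ⟨hx, le_rfl⟩
  | succ t ih =>
    rw [Function.iterate_succ_apply']
    exact ⟨shrink_pos hΓ ih.1, (shrink_le hΓ ih.1 (ih.2.trans hx1)).trans ih.2⟩

theorem roth_core
    (δ : Option (Fin m) →
      Derivation ℂ (MvPolynomial (Option (Fin m)) ℂ) (MvPolynomial (Option (Fin m)) ℂ))
    (κ ω : Option (Fin m) → ℝ) (q : Ideal (MvPolynomial (Option (Fin m)) ℂ))
    (Good : (Option (Fin m) → ℕ) → Prop) (Γ sep : ℝ) (hΓ : 1 ≤ Γ) (hsep : 0 ≤ sep)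
    (hκ : ∀ i, 0 < κ i) (hω : ∀ i, 0 < ω i) (hωΓ : ∀ j, ω (some j) ≤ Γ * κ (some j))
    (hs0 : ∀ j, ω none ≤ sep * κ (some j)) (hs : ∀ i j, i < j → ω (some i) ≤ sep * κ (some j))
    (hGood : ∀ d j (ρ : ℕ), Good d → Good (ρ • Function.update d (some j) 0))
    (hbase : ∀ d P, Good d → (∀ j, d (some j) = 0) → P ∈ Box d → P ∈ q → P = 0)
    (hstep : ∀ (j : Fin m) (d : Option (Fin m) → ℕ) (P : MvPolynomial (Option (Fin m)) ℂ)
      (l w : ℝ), Good d → (∀ i, j < i → d (some i) = 0) → P ∈ Box d → P ≠ 0 → P ∈ Idx δ ω q l →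
      0 ≤ w → ω none ≤ w → (∀ i, i < j → ω (some i) ≤ w) →
      ∃ ρ : ℕ, 1 ≤ ρ ∧ ρ ≤ d (some j) + 1 ∧ ∃ U, U ≠ 0 ∧
        U ∈ Box (ρ • Function.update d (some j) 0) ∧
        U ∈ Idx δ ω q (∑ b : Fin ρ, max (l - d (some j) * w - b * ω (some j)) 0))
    (t : ℕ) (ht : t ≤ m) : ∀ ϑ : ℝ, 0 < ϑ → ϑ ≤ 1 → sep ≤ (shrink Γ)^[t] ϑ / 2 →
      ∀ N : ℝ, 0 < N → ∀ (d : Option (Fin m) → ℕ) (P : MvPolynomial (Option (Fin m)) ℂ), Good d →
      (∀ i : Fin m, t ≤ i → d (some i) = 0) → (∀ i, d (some i) * κ (some i) ≤ N) →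
      P ∈ Box d → P ≠ 0 → P ∉ Idx δ ω q (ϑ * N) := by
  induction t with
  | zero =>
    intro ϑ hϑ _ _ N hN d P hG hd _ hPd hP0 hP
    exact hP0 (hbase d P hG (fun j => hd j (Nat.zero_le _)) hPd (Idx_mem hP (by positivity)))
  | succ t ih =>
    intro ϑ hϑ hϑ1 hsepϑ N hN d P hG hd hdN hPd hP0 hP
    let j : Fin m := ⟨t, by omega⟩
    obtain ⟨ρ, hρ1, hρ, U, hU0, hUB, hUI⟩ := hstep j d P _ (sep * κ (some j)) hG
      (fun i hi => hd i hi) hPd hP0 hP (mul_nonneg hsep (hκ _).le) (hs0 j) fun i hi => hs i j hi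
    have hρ0 : (0 : ℝ) < ρ := by exact_mod_cast hρ1
    refine ih (by omega) (shrink Γ ϑ) (shrink_pos hΓ hϑ) ((shrink_le hΓ hϑ hϑ1).trans hϑ1)
      hsepϑ (ρ * N) (by positivity) _ U (hGood d j ρ hG) ?_ ?_ hUB hU0 (Idx_anti ?_ hUI)
    · intro i hi
      by_cases hij : i = j
      · subst hij; simp
      · have : t + 1 ≤ i := by
          have : (i : ℕ) ≠ t := fun h => hij (Fin.ext h)
          omega
        simp [Function.update_of_ne (show some i ≠ some j by simpa using hij), hd i this]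
    · intro i
      by_cases hij : i = j
      · subst hij; simp; positivity
      · simp only [Pi.smul_apply, Function.update_of_ne (show some i ≠ some j by simpa using hij),
          smul_eq_mul, Nat.cast_mul, mul_assoc]
        exact mul_le_mul_of_nonneg_left (hdN i) hρ0.le
    · refine (sum_max_lower ρ (d (some j)) (κ (some j)) (ω (some j)) N ϑ Γ hρ1 hρ (hκ _) (hω _) hN
        hϑ hϑ1 hΓ (hωΓ j) (hdN j)).trans (sum_le_sum fun b _ => max_le_max_right _ ?_)
      have h1 : sep ≤ ϑ / 2 := by linarith [(shrink_iterate hΓ (t + 1) hϑ hϑ1).2]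
      have h2 : d (some j) * (sep * κ (some j)) ≤ ϑ / 2 * N := by
        calc d (some j) * (sep * κ (some j)) = sep * (d (some j) * κ (some j)) := by ring
          _ ≤ ϑ / 2 * N := mul_le_mul h1 (hdN j) (mul_nonneg (Nat.cast_nonneg _) (hκ _).le)
            (by positivity)
      linarith

end Vale.Agent.P021
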