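import Vale.Agent.P021.Count
import Vale.Agent.P021.Roth
import Vale.Agent.P021.Noeth

/-! Properties of the global and local filtrations. -/

namespace Vale.Agent.P021

open MvPolynomial Finset

section General

variable {σ : Type*}

theorem weight_nonneg {κ : σ → ℝ} (hκ : ∀ i, 0 ≤ κ i) (a : σ →₀ ℕ) : 0 ≤ Finsupp.weight κ a := by
  rw [Finsupp.weight_apply]
  exact sum_nonneg fun i _ => nsmul_nonneg (hκ i) _

theorem le_weight' {κ : σ → ℝ} (hκ : ∀ i, 0 ≤ κ i) (a : σ →₀ ℕ) (i : σ) :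
    a i * κ i ≤ Finsupp.weight κ a := by
  classical
  conv_rhs => rw [← Finsupp.erase_add_single i a, map_add, Finsupp.weight_single]
  have := weight_nonneg hκ (a.erase i)
  rw [nsmul_eq_mul]
  linarith

theorem Alt_mono (κ : σ → ℝ) : Monotone (Alt κ) := fun _ _ h _ hF =>
  mem_Alt.mpr fun a ha => (mem_Alt.mp hF a ha).trans_le h

theorem Alt_mul {κ : σ → ℝ} {N n : ℝ} {F G : MvPolynomial σ ℂ} (hF : F ∈ Alt κ N)
    (hG : G ∈ Alt κ n) : F * G ∈ Alt κ (N + n) := by
  classical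
  rw [mem_Alt] at hF hG ⊢
  intro a ha
  obtain ⟨b, hb, c, hc, rfl⟩ := Finset.mem_add.mp (support_mul F G ha)
  rw [map_add]
  exact add_lt_add (hF b hb) (hG c hc)

theorem C_mem_Alt (κ : σ → ℝ) {n : ℝ} (hn : 0 < n) (c : ℂ) : (C c : MvPolynomial σ ℂ) ∈ Alt κ n := by
  rw [C_apply, Alt, monomial_mem_restrictSupport]
  left
  simpa using hn

theorem X_mem_Alt (κ : σ → ℝ) {n : ℝ} (i : σ) (hn : κ i < n) :
    (X i : MvPolynomial σ ℂ) ∈ Alt κ n := by
  rw [X, Alt, monomial_mem_restrictSupport]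
  left
  simpa [Finsupp.weight_single] using hn

theorem exists_mem_Alt (κ : σ → ℝ) (F : MvPolynomial σ ℂ) : ∃ N, F ∈ Alt κ N := by
  refine ⟨∑ a ∈ F.support, |Finsupp.weight κ a| + 1, mem_Alt.mpr fun a ha => ?_⟩
  have := single_le_sum (f := fun a => |Finsupp.weight κ a|) (fun _ _ => abs_nonneg _) ha
  linarith [le_abs_self (Finsupp.weight κ a)]

theorem pderiv_mem_Alt {κ : σ → ℝ} (hκ : ∀ i, 0 ≤ κ i) {N : ℝ} {F : MvPolynomial σ ℂ}
    (hF : F ∈ Alt κ N) (i : σ) : pderiv i F ∈ Alt κ N := by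
  rw [mem_Alt] at hF ⊢
  intro a ha
  rw [mem_support_iff, coeff_pderiv] at ha
  have := hF _ (mem_support_iff.mpr (left_ne_zero_of_mul ha))
  rw [map_add, Finsupp.weight_single, one_smul] at this
  linarith [hκ i]

theorem X_mul_pderiv_mem_Alt {κ : σ → ℝ} {N : ℝ} {F : MvPolynomial σ ℂ} (hF : F ∈ Alt κ N)
    (i : σ) : X i * pderiv i F ∈ Alt κ N := by
  classical
  rw [mem_Alt] at hF ⊢
  intro a ha
  rw [mem_support_iff, coeff_X_mul'] at ha
  split_ifs at ha with h
  · rw [coeff_pderiv] at ha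
    have h1 : Finsupp.single i 1 ≤ a := by
      rw [Finsupp.single_le_iff]
      exact Nat.one_le_iff_ne_zero.mpr (Finsupp.mem_support_iff.mp h)
    rw [tsub_add_cancel_of_le h1] at ha
    exact hF _ (mem_support_iff.mpr (left_ne_zero_of_mul ha))
  · exact absurd rfl ha

theorem Ige_anti {ω : σ → ℝ} {l l' : ℝ} (h : l ≤ l') {F : MvPolynomial σ ℂ} (hF : F ∈ Ige ω l') :
    F ∈ Ige ω l := mem_Ige.mpr fun a ha => h.trans (mem_Ige.mp hF a ha)

theorem Ige_mul {ω : σ → ℝ} {l l' : ℝ} {F G : MvPolynomial σ ℂ} (hF : F ∈ Ige ω l)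
    (hG : G ∈ Ige ω l') : F * G ∈ Ige ω (l + l') := by
  classical
  rw [mem_Ige] at hF hG ⊢
  intro a ha
  obtain ⟨b, hb, c, hc, rfl⟩ := Finset.mem_add.mp (support_mul F G ha)
  rw [map_add]
  exact add_le_add (hF b hb) (hG c hc)

theorem Ige_nonpos {ω : σ → ℝ} (hω : ∀ i, 0 ≤ ω i) {l : ℝ} (hl : l ≤ 0) (F : MvPolynomial σ ℂ) :
    F ∈ Ige ω l := mem_Ige.mpr fun a _ => hl.trans (weight_nonneg hω a)

theorem Ige_mul_left {ω : σ → ℝ} (hω : ∀ i, 0 ≤ ω i) {l : ℝ} (G : MvPolynomial σ ℂ)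
    {F : MvPolynomial σ ℂ} (hF : F ∈ Ige ω l) : G * F ∈ Ige ω l := by
  simpa using Ige_mul (Ige_nonpos hω le_rfl G) hF

theorem pderiv_mem_Ige {ω : σ → ℝ} {l : ℝ} {F : MvPolynomial σ ℂ} (hF : F ∈ Ige ω l) (i : σ) :
    pderiv i F ∈ Ige ω (l - ω i) := by
  rw [mem_Ige] at hF ⊢
  intro a ha
  rw [mem_support_iff, coeff_pderiv] at ha
  have := hF _ (mem_support_iff.mpr (left_ne_zero_of_mul ha))
  rw [map_add, Finsupp.weight_single, one_smul] at this
  linarith

theorem X_pow_mem_Ige (ω : σ → ℝ) (i : σ) (h : ℕ) :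
    (X i ^ h : MvPolynomial σ ℂ) ∈ Ige ω (h * ω i) := by
  rw [X_pow_eq_monomial, Ige, monomial_mem_restrictSupport]
  left
  simp [Finsupp.weight_single]

/-- The order filtration as a family of ideals. -/
noncomputable def IgeI (ω : σ → ℝ) (hω : ∀ i, 0 ≤ ω i) (l : ℝ) : Ideal (MvPolynomial σ ℂ) where
  carrier := Ige ω l
  add_mem' := (Ige ω l).add_mem
  zero_mem' := (Ige ω l).zero_mem
  smul_mem' := fun c _ hx => Ige_mul_left hω c hx

/-- The coefficients of a polynomial on a set of exponents. -/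
noncomputable def coefs (S : Set (σ →₀ ℕ)) : MvPolynomial σ ℂ →ₗ[ℂ] (S → ℂ) :=
  LinearMap.pi fun a => lcoeff ℂ a.1

theorem coefs_surj {S : Set (σ →₀ ℕ)} (hS : S.Finite) : Function.Surjective (coefs S) := by
  classical
  intro g
  have := hS.fintype
  refine ⟨∑ a : S, monomial a.1 (g a), funext fun b => ?_⟩
  simp [coefs, coeff_sum, coeff_monomial, Subtype.val_inj]

theorem finrank_fun {S : Set (σ →₀ ℕ)} (hS : S.Finite) :
    Module.finrank ℂ (S → ℂ) = S.ncard := by
  have := hS.fintype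
  rw [Module.finrank_fintype_fun_eq_card, ← Nat.card_eq_fintype_card, Nat.card_coe_set_eq]

theorem finrank_restrictSupport (S : Set (σ →₀ ℕ)) :
    Module.finrank ℂ (restrictSupport ℂ S) = S.ncard := by
  rw [Module.finrank_eq_nat_card_basis (basisRestrictSupport ℂ S), Nat.card_coe_set_eq]

theorem mons_univ [Fintype σ] (κ : σ → ℝ) (l : ℝ) :
    mons κ univ l = {a | Finsupp.weight κ a < l} := by
  ext a; simp [mons]

theorem exists_vanishing (κ ω : σ → ℝ) (hκ : ∀ i, 0 < κ i) (hω : ∀ i, 0 < ω i) (s : Finset σ)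
    (K : ℕ) (T : Fin K → MvPolynomial σ ℂ →ₗ[ℂ] MvPolynomial σ ℂ) (ε : ℝ) (hε : 0 < ε)
    (hvol : K * (1 + ε) ^ s.card * ∏ i ∈ s, κ i < ∏ i ∈ s, ω i) :
    ∃ N : ℝ, 0 < N ∧ ∃ P : MvPolynomial σ ℂ, P ≠ 0 ∧ (∀ a ∈ P.support, a ∈ mons κ s N) ∧
      ∀ k, ∀ a ∈ mons ω s ((1 + ε) * N), coeff a (T k P) = 0 := by
  have hpκ : 0 < ∏ i ∈ s, κ i := prod_pos fun i _ => hκ i
  have hpω : 0 < ∏ i ∈ s, ω i := prod_pos fun i _ => hω i
  obtain ⟨x, hx0, hx⟩ : ∃ x : ℝ, 0 < x ∧
      K * (1 + ε + (∑ i ∈ s, ω i) * x) ^ s.card * ∏ i ∈ s, κ i < ∏ i ∈ s, ω i := by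
    have hc : ContinuousAt
        (fun x : ℝ => K * (1 + ε + (∑ i ∈ s, ω i) * x) ^ s.card * ∏ i ∈ s, κ i) 0 := by
      fun_prop
    have h1 := hc.eventually_lt_const (u := ∏ i ∈ s, ω i) (by simpa using hvol)
    obtain ⟨x, hx1, hx2⟩ := ((h1.filter_mono nhdsWithin_le_nhds).and
      (self_mem_nhdsWithin (s := Set.Ioi (0 : ℝ)))).exists
    exact ⟨x, hx2, hx1⟩
  have hN : 0 < x⁻¹ := inv_pos.mpr hx0
  refine ⟨x⁻¹, hN, ?_⟩
  set N := x⁻¹ with hNx
  have hlt : K * (mons ω s ((1 + ε) * N)).ncard < (mons κ s N).ncard := by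
    have h1 := le_ncard_mons κ hκ s N hN
    have h2 := ncard_mons_le ω hω s ((1 + ε) * N) (by positivity)
    have hf : (0 : ℝ) < s.card.factorial := by exact_mod_cast Nat.factorial_pos _
    have h3 : (1 + ε) * N + ∑ i ∈ s, ω i = (1 + ε + (∑ i ∈ s, ω i) * x) * N := by
      rw [hNx]; field_simp
    rw [h3, mul_pow] at h2
    have h4 : (K : ℝ) * ((1 + ε + (∑ i ∈ s, ω i) * x) ^ s.card * N ^ s.card /
        (s.card.factorial * ∏ i ∈ s, ω i)) < N ^ s.card / (s.card.factorial * ∏ i ∈ s, κ i) := by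
      rw [← mul_div_assoc, div_lt_div_iff₀ (by positivity) (by positivity)]
      have := mul_lt_mul_of_pos_right hx
        (show (0 : ℝ) < N ^ s.card * s.card.factorial by positivity)
      nlinarith
    have h5 := mul_le_mul_of_nonneg_left h2 (Nat.cast_nonneg (α := ℝ) K)
    exact_mod_cast (h5.trans_lt h4).trans_le h1
  have hfω := mons_finite ω hω s ((1 + ε) * N)
  have := hfω.fintype
  let L : restrictSupport ℂ (mons κ s N) →ₗ[ℂ] (Fin K → mons ω s ((1 + ε) * N) → ℂ) :=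
    (LinearMap.pi fun k => coefs _ ∘ₗ T k) ∘ₗ (restrictSupport ℂ (mons κ s N)).subtype
  have hker : LinearMap.ker L ≠ ⊥ := by
    have := (mons_finite κ hκ s N).fintype
    have : Module.Finite ℂ (restrictSupport ℂ (mons κ s N)) :=
      Module.Finite.of_basis (basisRestrictSupport ℂ _)
    refine LinearMap.ker_ne_bot_of_finrank_lt ?_
    rw [finrank_restrictSupport, Module.finrank_pi_fintype]
    simpa [finrank_fun hfω] using hlt
  obtain ⟨P, hP, hP0⟩ := Submodule.exists_mem_ne_zero_of_ne_bot hker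
  refine ⟨P, fun h => hP0 (Subtype.ext h), fun a ha => P.2 ha, fun k a ha => ?_⟩
  exact congrFun (congrFun (LinearMap.mem_ker.mp hP) k) ⟨a, ha⟩

theorem exists_X_sub_C_mem [DecidableEq σ] {p : Ideal (MvPolynomial σ ℂ)} (hp : p.IsPrime) (i : σ)
    (n : ℕ) (V : MvPolynomial σ ℂ) (hV : V ∈ Box (Pi.single i n)) (hVp : V ∈ p) (hV0 : V ≠ 0) :
    ∃ c : ℂ, X i - C c ∈ p := by
  obtain ⟨l, φ, -, hφ, -, -, hVeq⟩ := Box_decomp hV hV0 i
  have hφC : ∀ c, φ c = C (coeff 0 (φ c)) := by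
    intro c
    ext a
    by_cases ha : a = 0
    · subst ha; simp
    · rw [coeff_C, if_neg (Ne.symm ha)]
      by_contra h
      apply ha
      ext k
      have := mem_Box.mp (hφ c) a (mem_support_iff.mpr h) k
      by_cases hk : k = i
      · subst hk; simpa using this
      · simpa [hk] using this
  let V₀ : Polynomial ℂ := ∑ c ∈ range (l + 1), Polynomial.C (coeff 0 (φ c)) * Polynomial.X ^ c
  have hV₀ : Polynomial.aeval (X i : MvPolynomial σ ℂ) V₀ = V := by
    rw [hVeq]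
    simp only [V₀, map_sum, map_mul, map_pow, Polynomial.aeval_C, Polynomial.aeval_X,
      algebraMap_eq]
    exact sum_congr rfl fun c _ => by rw [← hφC c]
  have hV₀0 : V₀ ≠ 0 := by
    intro h
    rw [h, map_zero] at hV₀
    exact hV0 hV₀.symm
  have hroot : (V₀.map (algebraMap ℂ (MvPolynomial σ ℂ ⧸ p))).IsRoot
      (Ideal.Quotient.mk p (X i)) := by
    rw [Polynomial.IsRoot, Polynomial.eval_map_algebraMap]
    have := Polynomial.aeval_algHom_apply (Ideal.Quotient.mkₐ ℂ p) (X i) V₀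
    rw [hV₀] at this
    exact this.trans (Ideal.Quotient.eq_zero_iff_mem.mpr hVp)
  obtain ⟨c, hc⟩ := (IsAlgClosed.splits V₀).mem_range_of_isRoot hV₀0 hroot
  exact ⟨c, Ideal.Quotient.eq.mp hc.symm⟩

theorem intertwine (φ : MvPolynomial σ ℂ →ₐ[ℂ] MvPolynomial σ ℂ)
    (d d' : Derivation ℂ (MvPolynomial σ ℂ) (MvPolynomial σ ℂ))
    (h : ∀ i, φ (d (X i)) = d' (φ (X i))) (F : MvPolynomial σ ℂ) : φ (d F) = d' (φ F) := by
  induction F using MvPolynomial.induction_on with
  | C a => simp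
  | add p q hp hq => simp only [map_add, hp, hq]
  | mul_X p i hp =>
    simp only [map_mul, Derivation.leibniz, smul_eq_mul, map_add, hp, h]

end General

section Phi

variable {m : ℕ}

theorem pderiv_some_Gp (h : ℕ) (j : Fin m) : pderiv (some j) (Gp m h) = 0 := by
  simp [Gp, pderiv_X_of_ne]

theorem pderiv_none_Gp (h : ℕ) :
    (1 + X none) * pderiv none (Gp m h) = 1 - (-X none) ^ h := by
  induction h with
  | zero => simp [Gp]
  | succ h ih =>
    have e : Gp m (h + 1) = Gp m h + C ((-1) ^ h / ((h : ℂ) + 1)) * X none ^ (h + 1) :=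
      sum_range_succ _ _
    have e2 : (C ((-1) ^ h / ((h : ℂ) + 1)) : MvPolynomial (Option (Fin m)) ℂ) *
        ((h + 1 : ℕ) : MvPolynomial (Option (Fin m)) ℂ) = (-1) ^ h := by
      rw [← map_natCast C, ← map_mul, Nat.cast_succ,
        div_mul_cancel₀ _ (Nat.cast_add_one_ne_zero h)]
      simp
    rw [e, map_add, mul_add, ih, pderiv_C_mul, pderiv_pow, pderiv_X_self, mul_one, ← mul_assoc (C _),
      e2, Nat.add_sub_cancel, ← neg_pow, pow_succ]
    ring

variable (v ξ : Fin m → ℂ) (h : Fin m → ℕ)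

theorem Phi_none : Phi v ξ h (X none) = 1 + X none := by simp [Phi]

theorem Phi_some (j : Fin m) :
    Phi v ξ h (X (some j)) = C (ξ j) + C (v j) * Gp m (h j) + X (some j) := by simp [Phi]

theorem Phi_surj : Function.Surjective (Phi v ξ h) := by
  have h0 : (X none : MvPolynomial (Option (Fin m)) ℂ) ∈ (Phi v ξ h).range :=
    ⟨X none - 1, by simp [Phi_none]⟩
  have hC : ∀ c : ℂ, (C c : MvPolynomial (Option (Fin m)) ℂ) ∈ (Phi v ξ h).range := fun c =>
    Subalgebra.algebraMap_mem _ c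
  have hX : ∀ i, (X i : MvPolynomial (Option (Fin m)) ℂ) ∈ (Phi v ξ h).range := by
    rintro (_ | j)
    · exact h0
    · have h1 : Phi v ξ h (X (some j)) ∈ (Phi v ξ h).range := ⟨_, rfl⟩
      have h2 : C (ξ j) + C (v j) * Gp m (h j) ∈ (Phi v ξ h).range :=
        add_mem (hC _) (mul_mem (hC _) (sum_mem fun i _ => mul_mem (hC _) (pow_mem h0 _)))
      have := sub_mem h1 h2
      rwa [Phi_some, add_sub_cancel_left] at this
  intro F
  change F ∈ (Phi v ξ h).range
  induction F using MvPolynomial.induction_on with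
  | C a => exact hC a
  | add p q hp hq => exact add_mem hp hq
  | mul_X p i hp => exact mul_mem hp (hX i)

theorem Phi_pderiv (j : Fin m) (F : MvPolynomial (Option (Fin m)) ℂ) :
    Phi v ξ h (pderiv (some j) F) = pderiv (some j) (Phi v ξ h F) := by
  refine intertwine _ _ _ ?_ F
  rintro (_ | i)
  · simp [Phi_none, pderiv_X_of_ne]
  · by_cases hij : i = j
    · subst hij
      simp [Phi_some, pderiv_some_Gp]
    · simp [Phi_some, pderiv_some_Gp, pderiv_X_of_ne (show some i ≠ some j by simpa using hij)]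

theorem Phi_Dfull (F : MvPolynomial (Option (Fin m)) ℂ) :
    Phi v ξ h (Dfull v F) = (1 + X none) * pderiv none (Phi v ξ h F) +
      ∑ j, C (v j) * (-X none) ^ h j * pderiv (some j) (Phi v ξ h F) := by
  let D' : Derivation ℂ (MvPolynomial (Option (Fin m)) ℂ) (MvPolynomial (Option (Fin m)) ℂ) :=
    (1 + X none : MvPolynomial (Option (Fin m)) ℂ) • pderiv none +
      ∑ j, (C (v j) * (-X none) ^ h j : MvPolynomial (Option (Fin m)) ℂ) • pderiv (some j)
  have hD' : ∀ G, D' G = (1 + X none) * pderiv none G +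
      ∑ j, C (v j) * (-X none) ^ h j * pderiv (some j) G := by
    intro G
    simp [D', deriv_sum_apply]
  rw [← hD']
  refine intertwine _ _ _ ?_ F
  rintro (_ | i)
  · rw [hD', Dfull_apply, Phi_none]
    simp [pderiv_X_of_ne, Phi_none]
  · rw [hD', Dfull_apply, Phi_some]
    have e1 : ∀ j : Fin m, pderiv (some j) (X (some i) : MvPolynomial (Option (Fin m)) ℂ) =
        if j = i then 1 else 0 := by
      intro j
      by_cases hij : j = i
      · subst hij; simp
      · rw [if_neg hij, pderiv_X_of_ne (by simpa using Ne.symm hij)]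
    have e2 : pderiv none (X (some i) : MvPolynomial (Option (Fin m)) ℂ) = 0 :=
      pderiv_X_of_ne (by simp)
    simp only [map_add, pderiv_C, pderiv_C_mul, pderiv_some_Gp, e1, e2, mul_zero, zero_add,
      add_zero, mul_ite, mul_one, sum_ite_eq', mem_univ, if_true, algHom_C, algebraMap_eq]
    linear_combination (-C (v i)) * pderiv_none_Gp (m := m) (h i)

variable {v ξ h}

theorem Phi_frameA {ω : Option (Fin m) → ℝ} (hω : ∀ i, 0 ≤ ω i)
    (hh : ∀ j, ω (some j) ≤ (h j + 1) * ω none) {l : ℝ} {F : MvPolynomial (Option (Fin m)) ℂ}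
    (hF : Phi v ξ h F ∈ Ige ω l) (i : Option (Fin m)) :
    Phi v ξ h (frameA v i F) ∈ Ige ω (l - ω i) := by
  cases i with
  | none =>
    change Phi v ξ h (Dfull v F) ∈ _
    rw [Phi_Dfull]
    refine Submodule.add_mem _ (Ige_mul_left hω _ (pderiv_mem_Ige hF none))
      (Submodule.sum_mem _ fun j _ => ?_)
    rw [neg_pow, ← mul_assoc, mul_assoc _ (X none ^ h j)]
    refine Ige_mul_left hω _ (Ige_anti ?_ (Ige_mul (X_pow_mem_Ige ω none (h j))
      (pderiv_mem_Ige hF (some j))))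
    linarith [hh j]
  | some j =>
    change Phi v ξ h (pderiv (some j) F) ∈ _
    rw [Phi_pderiv]
    exact pderiv_mem_Ige hF _

theorem frameA_mem_Alt {κ : Option (Fin m) → ℝ} (hκ : ∀ i, 0 ≤ κ i) {N : ℝ}
    {F : MvPolynomial (Option (Fin m)) ℂ} (hF : F ∈ Alt κ N) (i : Option (Fin m)) :
    frameA v i F ∈ Alt κ N := by
  cases i with
  | none =>
    change Dfull v F ∈ _
    rw [Dfull_apply]
    refine Submodule.add_mem _ (X_mul_pderiv_mem_Alt hF none) (Submodule.sum_mem _ fun j _ => ?_)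
    rw [C_mul']
    exact Submodule.smul_mem _ _ (pderiv_mem_Alt hκ hF _)
  | some j => exact pderiv_mem_Alt hκ hF _

/-- Setting the variable `none` to zero. -/
noncomputable def Zed (m : ℕ) :
    MvPolynomial (Option (Fin m)) ℂ →ₐ[ℂ] MvPolynomial (Option (Fin m)) ℂ :=
  aeval fun o => o.elim 0 fun j => X (some j)

theorem sub_Zed_mem (F : MvPolynomial (Option (Fin m)) ℂ) : X none ∣ F - Zed m F := by
  induction F using MvPolynomial.induction_on with
  | C a => simp
  | add p q hp hq =>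
    rw [map_add, add_sub_add_comm]
    exact dvd_add hp hq
  | mul_X p i hp =>
    rw [map_mul]
    cases i with
    | none => simp [Zed]
    | some j =>
      have : Zed m (X (some j)) = X (some j) := by simp [Zed]
      rw [this, ← sub_mul]
      exact hp.mul_right _

theorem Zed_support (F : MvPolynomial (Option (Fin m)) ℂ) :
    ∀ a ∈ (Zed m F).support, a none = 0 := by
  classical
  induction F using MvPolynomial.induction_on with
  | C c =>
    intro a ha
    rw [algHom_C, algebraMap_eq, mem_support_iff, coeff_C] at ha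
    split_ifs at ha with h
    · rw [← h]; rfl
    · exact absurd rfl ha
  | add p q hp hq =>
    intro a ha
    rw [map_add] at ha
    rcases mem_union.mp (support_add ha) with h | h
    · exact hp a h
    · exact hq a h
  | mul_X p i hp =>
    intro a ha
    rw [map_mul] at ha
    cases i with
    | none => simp [Zed] at ha
    | some j =>
      have : Zed m (X (some j)) = X (some j) := by simp [Zed]
      rw [this, support_mul_X, mem_map] at ha
      obtain ⟨b, hb, rfl⟩ := ha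
      simp [hp b hb]

theorem exists_of_Zed {ω : Option (Fin m) → ℝ} {l : ℝ} {P : MvPolynomial (Option (Fin m)) ℂ}
    (hP : Zed m (Phi v ξ h P) ∈ Ige ω l) :
    ∃ g, Phi v ξ h (P - (X none - 1) * g) ∈ Ige ω l := by
  obtain ⟨g, hg⟩ := sub_Zed_mem (Phi v ξ h P)
  obtain ⟨g', rfl⟩ := Phi_surj v ξ h g
  refine ⟨g', ?_⟩
  have : Phi v ξ h (P - (X none - 1) * g') = Zed m (Phi v ξ h P) := by
    rw [map_sub, map_mul, map_sub, Phi_none, map_one, add_sub_cancel_left, ← hg]
    ring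
  rwa [this]

end Phi

end Vale.Agent.P021
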