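import Vale.Agent.P021.ZeroEst
import Vale.Agent.P021.AuxPoly

/-! Choice of the parameters. -/

namespace Vale.Agent.P021

open Filter Topology Finset

theorem exists_large {ν : ℝ} (hν : 0 ≤ ν)
    (h : {pq : ℤ × ℤ | 2 ≤ pq.2 ∧
      |Real.pi - (pq.1 : ℝ) / (pq.2 : ℝ)| < (pq.2 : ℝ) ^ (-ν)}.Infinite) (B : ℝ) :
    ∃ pq : ℤ × ℤ, (2 ≤ pq.2 ∧ |Real.pi - (pq.1 : ℝ) / (pq.2 : ℝ)| < (pq.2 : ℝ) ^ (-ν)) ∧
      B ≤ Real.log pq.2 := by
  by_contra hcon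
  push Not at hcon
  apply h
  refine ((Set.finite_Icc (-(5 * ⌈Real.exp B⌉)) (5 * ⌈Real.exp B⌉)).prod
    (Set.finite_Icc 0 ⌈Real.exp B⌉)).subset ?_
  rintro ⟨p, q⟩ ⟨hq, hpq⟩
  have hlog := hcon (p, q) ⟨hq, hpq⟩
  simp only at hq hpq hlog
  have hq2 : (2 : ℝ) ≤ q := by exact_mod_cast hq
  have hq0 : (0 : ℝ) < q := by linarith
  have h1 : (q : ℝ) ≤ Real.exp B := by
    rw [← Real.exp_log hq0]; exact Real.exp_le_exp.mpr hlog.le
  have h2 : q ≤ ⌈Real.exp B⌉ := by exact_mod_cast h1.trans (Int.le_ceil _)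
  have h3 : (q : ℝ) ^ (-ν) ≤ 1 := Real.rpow_le_one_of_one_le_of_nonpos (by linarith) (by linarith)
  have h4 := abs_lt.mp (hpq.trans_le h3)
  have h5 : (p : ℝ) < 5 * q := by
    rw [← div_lt_iff₀ hq0]; linarith [Real.pi_lt_four]
  have h6 : (0 : ℝ) < p := by
    have : (0 : ℝ) < p / q := by linarith [Real.pi_gt_three]
    exact (div_pos_iff_of_pos_right hq0).mp this
  have h7 : p < 5 * q := by exact_mod_cast h5
  have h8 : 0 < p := by exact_mod_cast h6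
  refine ⟨⟨?_, ?_⟩, ?_, h2⟩ <;> simp only <;> omega

theorem exists_seq {T : ℤ × ℤ → Prop} (h : ∀ B : ℝ, ∃ pq, T pq ∧ B ≤ Real.log pq.2) (B c : ℝ)
    (hB : 0 ≤ B) (hc : 1 ≤ c) : ∃ f : ℕ → ℤ × ℤ, (∀ j, T (f j)) ∧ (∀ j, B ≤ Real.log (f j).2) ∧
      ∀ i j, i < j → c * Real.log (f i).2 ≤ Real.log (f j).2 := by
  choose g hg1 hg2 using h
  let f : ℕ → ℤ × ℤ := fun n => Nat.rec (g B) (fun _ x => g (c * Real.log x.2)) n
  have hs : ∀ n, c * Real.log (f n).2 ≤ Real.log (f (n + 1)).2 := fun n => hg2 _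
  have hB' : ∀ n, B ≤ Real.log (f n).2 := by
    intro n
    induction n with
    | zero => exact hg2 B
    | succ n ih => nlinarith [hs n]
  refine ⟨f, fun j => by cases j <;> exact hg1 _, hB', fun i j hij => ?_⟩
  induction j, hij using Nat.le_induction with
  | base => exact hs i
  | succ j _ ih => nlinarith [hs j, hB' j]

set_option maxHeartbeats 1000000 in
theorem exists_params (ν θ' θ₁ E : ℝ) (hν : 2 ≤ ν) (hθ'0 : 0 < θ') (hθ : θ' ^ 2 < θ₁)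
    (hθ₁ : θ₁ ≤ 1) (hE0 : 0 < E) (hE1 : E ≤ 1 / 8) :
    ∃ m K : ℕ, 1 ≤ m ∧ 1 ≤ K ∧ 4 * (ν + 3) * (ν + 5) * (m + 1) * (24 * K / E) * θ' ^ m < E ∧
      m * ν ≤ 2 * E * K ^ 2 * θ₁ ^ m := by
  obtain ⟨C₃, hC₃⟩ : ∃ y : ℝ, y = 96 * (ν + 3) * (ν + 5) / E ^ 2 := ⟨_, rfl⟩
  have hC₃0 : 0 < C₃ := by rw [hC₃]; positivity
  obtain ⟨r, hr⟩ : ∃ y : ℝ, y = θ₁ / θ' ^ 2 := ⟨_, rfl⟩
  have hr1 : 1 < r := by rw [hr, one_lt_div (by positivity)]; exact hθ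
  obtain ⟨C₄, hC₄⟩ : ∃ y : ℝ, y = 16 * C₃ ^ 2 * (ν / (2 * E)) := ⟨_, rfl⟩
  have hC₄0 : 0 < C₄ := by rw [hC₄]; positivity
  have ht := tendsto_pow_const_div_const_pow_of_one_lt 3 hr1
  obtain ⟨m, hm1, hm⟩ := ((eventually_ge_atTop 1).and
    (ht.eventually_lt_const (show (0 : ℝ) < 1 / (8 * C₄) by positivity))).exists
  have hm1' : (1 : ℝ) ≤ m := by exact_mod_cast hm1
  have hrm : 0 < r ^ m := by positivity
  have h1 : C₄ * (m + 1) ^ 3 ≤ r ^ m := by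
    rw [div_lt_div_iff₀ hrm (by positivity)] at hm
    have : ((m : ℝ) + 1) ^ 3 ≤ (2 * m) ^ 3 := by gcongr; linarith
    nlinarith
  obtain ⟨t, ht'⟩ : ∃ y : ℝ, y = θ' ^ m := ⟨_, rfl⟩
  have ht0 : 0 < t := by rw [ht']; positivity
  have hθm : θ₁ ^ m = r ^ m * t ^ 2 := by
    rw [hr, ht', div_pow, ← pow_mul, ← pow_mul, mul_comm m 2]
    field_simp
  have hθ₁1 : θ₁ ^ m ≤ 1 := pow_le_one₀ (by nlinarith) hθ₁
  obtain ⟨Y, hY⟩ : ∃ y : ℝ, y = 1 / (2 * C₃ * (m + 1) * t) := ⟨_, rfl⟩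
  have hY0 : 0 < Y := by rw [hY]; positivity
  have hYt : Y * (2 * C₃ * (m + 1) * t) = 1 := by rw [hY]; field_simp
  have h2 : 4 * (ν / (2 * E)) * (m + 1) ≤ Y ^ 2 * θ₁ ^ m := by
    rw [hθm]
    have e : Y ^ 2 * (r ^ m * t ^ 2) = r ^ m / (4 * C₃ ^ 2 * (m + 1) ^ 2) := by
      rw [hY]; field_simp; norm_num
    rw [e, le_div_iff₀ (by positivity)]
    refine le_trans (le_of_eq ?_) h1
    rw [hC₄]; ring
  have hνE : 1 ≤ ν / (2 * E) := by rw [le_div_iff₀ (by positivity)]; linarith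
  have hY1 : 1 ≤ Y := by
    by_contra hlt
    push Not at hlt
    have : Y ^ 2 * θ₁ ^ m ≤ 1 * 1 :=
      mul_le_mul (by nlinarith) hθ₁1 (by rw [hθm]; positivity) zero_le_one
    nlinarith
  have hK1 : 1 ≤ ⌊Y⌋₊ := Nat.le_floor (by simpa using hY1)
  have hK1' : (1 : ℝ) ≤ ⌊Y⌋₊ := by exact_mod_cast hK1
  have hKY : (⌊Y⌋₊ : ℝ) ≤ Y := Nat.floor_le hY0.le
  have hKY' : Y ≤ 2 * ⌊Y⌋₊ := by linarith [Nat.lt_floor_add_one Y]
  refine ⟨m, ⌊Y⌋₊, hm1, hK1, ?_, ?_⟩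
  · have e : 4 * (ν + 3) * (ν + 5) * (m + 1) * (24 * (⌊Y⌋₊ : ℝ) / E) * t =
        E * (⌊Y⌋₊ * (C₃ * (m + 1) * t)) := by
      rw [hC₃]; field_simp; norm_num
    rw [← ht', e]
    have : (⌊Y⌋₊ : ℝ) * (C₃ * (m + 1) * t) ≤ Y * (C₃ * (m + 1) * t) := by gcongr
    nlinarith
  · have h3 : Y ^ 2 * θ₁ ^ m ≤ (2 * ⌊Y⌋₊) ^ 2 * θ₁ ^ m := by
      have : 0 ≤ θ₁ ^ m := by rw [hθm]; positivity
      gcongr
    have h4 : ν / (2 * E) * (m + 1) ≤ ⌊Y⌋₊ ^ 2 * θ₁ ^ m := by nlinarith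
    rw [div_mul_eq_mul_div, div_le_iff₀ (by positivity)] at h4
    nlinarith

theorem num1 {θ₁ L : ℝ} (h0 : 0 < θ₁) (h1 : θ₁ < 1) (hL : 0 < L) : L < L / θ₁ := by
  rw [lt_div_iff₀ h0]; nlinarith

theorem num2 {θ₁ L : ℝ} (h0 : 1 / 2 ≤ θ₁) (hL : 0 < L) : L / θ₁ ≤ 2 * L := by
  rw [div_le_iff₀ (by linarith)]; nlinarith

theorem num3 {θ₁ L E m ν ω₀ H : ℝ} (h0 : 1 / 2 ≤ θ₁) (hL : 0 < L) (hE0 : 0 < E) (hE1 : E ≤ 1 / 8)
    (hm : 1 ≤ m) (hν : 2 < ν) (hω₀0 : 0 < ω₀) (hω : 12 * m * ν ≤ E ^ 2 * ω₀)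
    (hH : E * L / (6 * m) ≤ H) : L / θ₁ ≤ H * ω₀ := by
  refine le_trans ?_ (mul_le_mul_of_nonneg_right hH hω₀0.le)
  rw [div_mul_eq_mul_div, div_le_div_iff₀ (by linarith) (by positivity)]
  have h4 : 12 * m ≤ E * ω₀ := by
    have h5 : E * (E * ω₀) ≤ 1 * (E * ω₀) :=
      mul_le_mul_of_nonneg_right (by linarith) (by positivity)
    nlinarith
  have h2 : 6 * m ≤ E * ω₀ * θ₁ := by nlinarith
  nlinarith

theorem num4 {ν m K t E : ℝ} (hν : 2 < ν) (hm : 1 ≤ m) (hK : 1 ≤ K) (ht : 0 ≤ t) (hE0 : 0 < E)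
    (hE1 : E ≤ 1 / 8) (h : 4 * (ν + 3) * (ν + 5) * (m + 1) * (24 * K / E) * t < E) :
    2 * K * t ≤ 1 := by
  have e : 4 * (ν + 3) * (ν + 5) * (m + 1) * (24 * K / E) * t =
      48 * (ν + 3) * (ν + 5) * (m + 1) * (2 * K * t) / E := by ring
  rw [e, div_lt_iff₀ hE0] at h
  have h3 : (1 : ℝ) ≤ 48 * (ν + 3) * (ν + 5) * (m + 1) := by
    have : (1 : ℝ) ≤ 48 * (ν + 3) * (ν + 5) := by nlinarith
    nlinarith
  have h4 : 0 ≤ 2 * K * t := by positivity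
  nlinarith

theorem num5 {x a θ₁ : ℝ} (ha0 : 0 < a) (ha : 2 ≤ a * x ^ 2) (h : θ₁ ≤ 1) :
    (a + 1) / a * θ₁ ≤ θ₁ + x ^ 2 / 2 := by
  rw [div_mul_eq_mul_div, div_le_iff₀ ha0]
  nlinarith

set_option maxHeartbeats 1000000 in
theorem finite_approx (ν : ℝ) (hν : 2 < ν) :
    {pq : ℤ × ℤ | 2 ≤ pq.2 ∧ |Real.pi - (pq.1 : ℝ) / (pq.2 : ℝ)| < (pq.2 : ℝ) ^ (-ν)}.Finite := by
  by_contra hinf
  have hlarge := exists_large (by linarith) hinf
  obtain ⟨x, hx0, hx1, hxν⟩ : ∃ x : ℝ, 0 < x ∧ x < 1 / 4 ∧ x * (4 * (ν - 1)) = ν - 2 := by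
    refine ⟨(ν - 2) / (4 * (ν - 1)), div_pos (by linarith) (by linarith), ?_, ?_⟩
    · rw [div_lt_iff₀ (by linarith)]; linarith
    · exact div_mul_cancel₀ _ (by linarith)
  obtain ⟨θ', hθ'⟩ : ∃ y : ℝ, y = 1 - x := ⟨_, rfl⟩
  obtain ⟨θ, hθ⟩ : ∃ y : ℝ, y = θ' ^ 2 + x ^ 2 := ⟨_, rfl⟩
  obtain ⟨θ₁, hθ₁⟩ : ∃ y : ℝ, y = θ' ^ 2 + x ^ 2 / 2 := ⟨_, rfl⟩
  have hθ₁l : 1 / 2 ≤ θ₁ := by rw [hθ₁, hθ']; nlinarith
  have hθ₁u : θ₁ ≤ θ' := by rw [hθ₁, hθ']; nlinarith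
  have hθ'1 : θ' < 1 := by rw [hθ']; linarith
  have hθ'0 : 0 < θ' := by rw [hθ']; linarith
  have hθ₁0 : 0 < θ₁ := by linarith
  have hη : ν * θ' - 1 - (ν - 1) * θ = x * (ν - 2) / 2 := by
    rw [hθ, hθ']; linear_combination (-x / 2) * hxν
  obtain ⟨E, hE⟩ : ∃ y : ℝ, y = min (x * (ν - 2) / 16) (1 / 8) := ⟨_, rfl⟩
  have hE0 : 0 < E := by
    rw [hE]
    exact lt_min (by have := mul_pos hx0 (sub_pos.mpr hν); positivity) (by norm_num)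
  have hE1 : E ≤ 1 / 8 := hE ▸ min_le_right _ _
  have hE2 : E ≤ x * (ν - 2) / 16 := hE ▸ min_le_left _ _
  obtain ⟨a, ha⟩ := exists_nat_ge (2 / x ^ 2)
  rw [div_le_iff₀ (by positivity)] at ha
  have ha1 : (1 : ℝ) ≤ a := by nlinarith
  have ha0 : (0 : ℝ) < a := by linarith
  obtain ⟨m, K, hm, hK, hcount, hmK⟩ := exists_params ν θ' θ₁ E hν.le hθ'0
    (by rw [hθ₁]; nlinarith) (by linarith) hE0 hE1
  have hm' : (1 : ℝ) ≤ m := by exact_mod_cast hm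
  have hK' : (1 : ℝ) ≤ K := by exact_mod_cast hK
  obtain ⟨β, hβ⟩ : ∃ y : ℝ, y = 24 * (K : ℝ) / E := ⟨_, rfl⟩
  have hβ0 : 0 < β := by rw [hβ]; positivity
  rw [← hβ] at hcount
  obtain ⟨slack, hslack⟩ : ∃ y : ℝ, y = 1 / (2 * a) := ⟨_, rfl⟩
  have hslack0 : 0 < slack := by rw [hslack]; positivity
  have hslack1 : slack ≤ 1 := by rw [hslack, div_le_one (by positivity)]; linarith
  obtain ⟨ω₀, hω₀⟩ : ∃ y : ℝ, y = K * (1 + slack) * β * θ₁ ^ m := ⟨_, rfl⟩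
  have hω₀0 : 0 < ω₀ := by rw [hω₀]; positivity
  have hω : 12 * (m : ℝ) * ν ≤ E ^ 2 * ω₀ := by
    have e : E ^ 2 * ω₀ = 12 * (2 * E * K ^ 2 * θ₁ ^ m) * (1 + slack) := by
      rw [hω₀, hβ]; field_simp; norm_num
    rw [e]
    have h1 : 0 ≤ 2 * E * K ^ 2 * θ₁ ^ m * slack := by positivity
    linarith
  obtain ⟨sep, hsep, hze⟩ := zero_estimate m 2 slack (by norm_num) hslack0
  obtain ⟨f, hf1, hf2, hf3⟩ := exists_seq hlarge (max (ω₀ / sep) (Real.log (8 * K + 1) / E))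
    (max 1 (2 / sep)) (le_max_of_le_left (by positivity)) (le_max_left _ _)
  let p : Fin m → ℤ := fun j => (f j).1
  let q : Fin m → ℤ := fun j => (f j).2
  have hq : ∀ j, 2 ≤ q j := fun j => (hf1 j).1
  have hq' : ∀ j, (2 : ℝ) ≤ q j := fun j => by exact_mod_cast hq j
  have hlq : ∀ j, 0 < Real.log (q j) := fun j => Real.log_pos (by linarith [hq' j])
  have happ : ∀ j, |Real.pi - (p j : ℝ) / (q j : ℝ)| < (q j : ℝ) ^ (-ν) := fun j => (hf1 j).2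
  have hp : ∀ j, p j ≠ 0 := by
    intro j h0
    have h1 := happ j
    have h3 : (q j : ℝ) ^ (-ν) ≤ 1 :=
      Real.rpow_le_one_of_one_le_of_nonpos (by linarith [hq' j]) (by linarith)
    rw [h0, Int.cast_zero, zero_div, sub_zero, abs_of_pos Real.pi_pos] at h1
    linarith [Real.pi_gt_three]
  have hqK : ∀ j, 8 * (K : ℝ) + 1 ≤ (q j : ℝ) ^ E := by
    intro j
    have h1 : Real.log (8 * K + 1) / E ≤ Real.log (q j) := (le_max_right _ _).trans (hf2 j)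
    rw [div_le_iff₀ hE0] at h1
    rw [Real.rpow_def_of_pos (by linarith [hq' j]), ← Real.log_le_iff_le_exp (by positivity)]
    exact h1
  have hev := exists_aux m K ν θ θ' θ₁ ((a + 1) / a) E β ω₀ p q hm hK hν.le hθ₁0 (by positivity)
    (by rw [div_le_iff₀ ha0]; linarith)
    (by
      have : θ = θ₁ + x ^ 2 / 2 := by rw [hθ, hθ₁]; ring
      rw [this]
      exact num5 ha0 ha (hθ₁u.trans hθ'1.le))
    hθ'0 hθ'1.le hE0 hE1 (by rw [hη]; linarith) (by rw [hβ]; field_simp; rfl) hcount hω hq happ hqK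
  obtain ⟨D, hD0, P, hP0, hPA, hPI⟩ := ((eventually_gt_atTop 0).and hev).exists
  have hprod : 0 < ∏ j, Real.log (q j) := prod_pos fun j _ => hlq j
  have e1 : ∏ i, kap β q i = β * ∏ j, Real.log (q j) := by simp [Fintype.prod_option, kap]
  have e2 : ∏ j, ome ω₀ θ₁ q (some j) = (∏ j, Real.log (q j)) / θ₁ ^ m := by
    simp [ome, prod_div_distrib]
  have e3 : ∏ i, ome ω₀ θ₁ q i = K * (1 + slack) * β * ∏ j, Real.log (q j) := by
    rw [Fintype.prod_option, e2]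
    simp only [ome, Option.elim_none, hω₀]
    field_simp
  have key := hze K (kap β q) (ome ω₀ θ₁ q) (fun j => (q j : ℂ))
    (fun k j => 2 * Complex.I * ((k : ℕ) : ℂ) * (p j : ℂ))
    (fun j => ⌊E * Real.log (q j) / (6 * m)⌋₊)
    (by rintro (_ | j); exacts [hβ0, hlq j])
    (by rintro (_ | j); exacts [hω₀0, div_pos (hlq j) hθ₁0])
    (fun j => by have := hq j; exact_mod_cast (by omega : q j ≠ 0))
    (fun j k k' hk => by
      have h1 : (p j : ℂ) ≠ 0 := by exact_mod_cast hp j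
      have h2 := mul_left_cancel₀ (mul_ne_zero two_ne_zero Complex.I_ne_zero)
        (mul_right_cancel₀ h1 hk)
      exact Fin.ext (by exact_mod_cast h2))
    (fun j => num1 hθ₁0 (hθ₁u.trans_lt hθ'1) (hlq j)) (fun j => num2 hθ₁l (hlq j))
    (fun j => by
      change ω₀ ≤ sep * Real.log (q j)
      have h1 : ω₀ / sep ≤ Real.log (q j) := (le_max_left _ _).trans (hf2 j)
      rwa [div_le_iff₀' hsep] at h1)
    (fun i j hij => by
      change Real.log (q i) / θ₁ ≤ sep * Real.log (q j)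
      have h1 : 2 / sep * Real.log (q i) ≤ Real.log (q j) :=
        (mul_le_mul_of_nonneg_right (le_max_right _ _) (hlq i).le).trans (hf3 i j hij)
      rw [div_mul_eq_mul_div, div_le_iff₀' hsep] at h1
      exact (num2 hθ₁l (hlq i)).trans h1)
    (fun j => num3 hθ₁l (hlq j) hE0 hE1 hm' hν hω₀0 hω (Nat.lt_floor_add_one _).le)
    (by rw [e1, e3]; exact le_of_eq (by ring))
    (by
      rw [e2, le_div_iff₀ (by positivity)]
      have h1 : θ₁ ^ m ≤ θ' ^ m := pow_le_pow_left₀ hθ₁0.le hθ₁u m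
      have h2 : 2 * K * θ' ^ m ≤ 1 := num4 hν hm' hK' (by positivity) hE0 hE1 (hβ ▸ hcount)
      have h5 : K * (1 + slack) * θ₁ ^ m ≤ 2 * K * θ' ^ m := by
        calc K * (1 + slack) * θ₁ ^ m ≤ K * (1 + 1) * θ' ^ m := by gcongr
          _ = _ := by ring
      change K * (1 + slack) * (∏ j, Real.log (q j)) * θ₁ ^ m ≤ _
      have h6 := mul_le_mul_of_nonneg_right (h5.trans h2) hprod.le
      linarith)
    a (D / a) P (by positivity) hP0 (by rwa [mul_div_cancel₀ _ ha0.ne'])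
    (fun k => by
      have e : ((a : ℝ) + 1) * (D / a) = (a + 1) / a * D := by ring
      rw [e]; exact hPI k)
  rw [e1, e3] at key
  have e4 : a * (K * (1 + slack) * β * ∏ j, Real.log (q j)) =
      (a + 1 / 2) * (K * (β * ∏ j, Real.log (q j))) := by
    rw [hslack]; field_simp
  rw [e4] at key
  have : 0 < K * (β * ∏ j, Real.log (q j)) := by positivity
  linarith

theorem infinite_approx :
    {pq : ℤ × ℤ | IsCoprime pq.1 pq.2 ∧ 2 ≤ pq.2 ∧ 0 < |Real.pi - (pq.1 : ℝ) / (pq.2 : ℝ)| ∧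
      |Real.pi - (pq.1 : ℝ) / (pq.2 : ℝ)| < (pq.2 : ℝ) ^ (-(2 : ℝ))}.Infinite := by
  have h1 := Real.infinite_rat_abs_sub_lt_one_div_den_sq_of_irrational irrational_pi
  have h2 := h1.sdiff (Set.toFinite ({3, 4} : Set ℚ))
  refine Set.infinite_of_injOn_mapsTo (f := fun r : ℚ => (r.num, (r.den : ℤ))) ?_ ?_ h2
  · intro r _ r' _ h
    simp only [Prod.mk.injEq, Nat.cast_inj] at h
    exact Rat.ext h.1 h.2
  · rintro r ⟨hr, hr'⟩
    simp only [Set.mem_ofPred_eq] at hr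
    have e : ((r.num : ℝ) / ((r.den : ℤ) : ℝ)) = (r : ℝ) := by
      rw [Int.cast_natCast, Rat.cast_def]
    refine ⟨Int.isCoprime_iff_gcd_eq_one.mpr r.reduced, ?_, ?_, ?_⟩
    · by_contra hlt
      have hd : r.den = 1 := by
        have := r.den_pos
        simp only [not_le] at hlt
        omega
      apply hr'
      have hr2 : (r : ℝ) = r.num := by rw [Rat.cast_def, hd]; simp
      rw [hd, hr2] at hr
      have h4 := abs_lt.mp hr
      have h5 : (2 : ℝ) < r.num := by norm_num at h4; linarith [Real.pi_gt_three]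
      have h6 : (r.num : ℝ) < 5 := by norm_num at h4; linarith [Real.pi_lt_four]
      have h7 : 2 < r.num := by exact_mod_cast h5
      have h8 : r.num < 5 := by exact_mod_cast h6
      have h9 : r = r.num := ((Rat.den_eq_one_iff r).mp hd).symm
      have : r.num = 3 ∨ r.num = 4 := by omega
      rcases this with h | h <;> rw [h9, h] <;> simp
    · simp only
      rw [e, abs_pos, sub_ne_zero]
      exact fun h => irrational_pi ⟨r, h.symm⟩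
    · simp only
      rw [e, Int.cast_natCast, Real.rpow_neg (Nat.cast_nonneg _), Real.rpow_two, ← one_div]
      exact hr

end Vale.Agent.P021
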