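import Vale.Agent.P021.Defs

/-! Weighted `ℓ¹` norms of polynomials, a pigeonhole lemma, a Cauchy estimate, integrality. -/

namespace Vale.Agent.P021

open MvPolynomial

section Nrm

variable {σ : Type*} [Fintype σ]

/-- The weight `∏ r i ^ a i`. -/
noncomputable def wt (r : σ → ℝ) (a : σ →₀ ℕ) : ℝ := ∏ i, r i ^ a i

/-- Weighted `ℓ¹` norm. -/
noncomputable def nrm (r : σ → ℝ) (F : MvPolynomial σ ℂ) : ℝ :=
  ∑ a ∈ F.support, ‖coeff a F‖ * wt r a

theorem wt_nonneg {r : σ → ℝ} (hr : ∀ i, 0 ≤ r i) (a : σ →₀ ℕ) : 0 ≤ wt r a :=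
  Finset.prod_nonneg fun i _ => pow_nonneg (hr i) _

theorem wt_add (r : σ → ℝ) (a b : σ →₀ ℕ) : wt r (a + b) = wt r a * wt r b := by
  simp [wt, pow_add, Finset.prod_mul_distrib]

theorem wt_zero (r : σ → ℝ) : wt r 0 = 1 := by simp [wt]

theorem wt_single (r : σ → ℝ) (i : σ) : wt r (Finsupp.single i 1) = r i := by
  classical
  unfold wt
  rw [Finset.prod_eq_single i]
  · simp
  · intro j _ hj
    simp [hj.symm]
  · simp

theorem wt_mono {r r' : σ → ℝ} (hr : ∀ i, 0 ≤ r i) (h : ∀ i, r i ≤ r' i) (a : σ →₀ ℕ) :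
    wt r a ≤ wt r' a :=
  Finset.prod_le_prod (fun i _ => pow_nonneg (hr i) _)
    fun i _ => pow_le_pow_left₀ (hr i) (h i) _

theorem nrm_nonneg {r : σ → ℝ} (hr : ∀ i, 0 ≤ r i) (F : MvPolynomial σ ℂ) : 0 ≤ nrm r F :=
  Finset.sum_nonneg fun a _ => mul_nonneg (norm_nonneg _) (wt_nonneg hr a)

theorem nrm_eq_sum {r : σ → ℝ} {F : MvPolynomial σ ℂ} {s : Finset (σ →₀ ℕ)}
    (hs : F.support ⊆ s) : nrm r F = ∑ a ∈ s, ‖coeff a F‖ * wt r a := by
  unfold nrm
  refine Finset.sum_subset hs fun a _ ha => ?_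
  rw [notMem_support_iff.1 ha]
  simp

theorem nrm_zero (r : σ → ℝ) : nrm r 0 = 0 := by simp [nrm]

theorem nrm_add_le {r : σ → ℝ} (hr : ∀ i, 0 ≤ r i) (F G : MvPolynomial σ ℂ) :
    nrm r (F + G) ≤ nrm r F + nrm r G := by
  classical
  rw [nrm_eq_sum (support_add (p := F) (q := G)),
    nrm_eq_sum (F := F) (Finset.subset_union_left (s₂ := G.support)),
    nrm_eq_sum (F := G) (Finset.subset_union_right (s₁ := F.support)), ← Finset.sum_add_distrib]
  refine Finset.sum_le_sum fun a _ => ?_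
  rw [← add_mul, coeff_add]
  exact mul_le_mul_of_nonneg_right (norm_add_le _ _) (wt_nonneg hr a)

theorem nrm_sum_le {r : σ → ℝ} (hr : ∀ i, 0 ≤ r i) {ι : Type*} (s : Finset ι)
    (F : ι → MvPolynomial σ ℂ) : nrm r (∑ i ∈ s, F i) ≤ ∑ i ∈ s, nrm r (F i) := by
  classical
  induction s using Finset.induction_on with
  | empty => simp [nrm_zero]
  | insert i s hi ih =>
    rw [Finset.sum_insert hi, Finset.sum_insert hi]
    exact (nrm_add_le hr _ _).trans (by linarith)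

theorem nrm_monomial (r : σ → ℝ) (a : σ →₀ ℕ) (c : ℂ) :
    nrm r (monomial a c) = ‖c‖ * wt r a := by
  classical
  rw [nrm_eq_sum (s := {a}) support_monomial_subset]
  simp

theorem nrm_mul_le {r : σ → ℝ} (hr : ∀ i, 0 ≤ r i) (F G : MvPolynomial σ ℂ) :
    nrm r (F * G) ≤ nrm r F * nrm r G := by
  have h : F * G = ∑ a ∈ F.support, ∑ b ∈ G.support,
      monomial (a + b) (coeff a F * coeff b G) := by
    conv_lhs => rw [F.as_sum, G.as_sum]
    rw [Finset.sum_mul_sum]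
    simp only [monomial_mul]
  rw [h]
  refine (nrm_sum_le hr _ _).trans ?_
  unfold nrm
  rw [Finset.sum_mul_sum]
  refine Finset.sum_le_sum fun a _ => ?_
  refine (nrm_sum_le hr _ _).trans (le_of_eq ?_)
  refine Finset.sum_congr rfl fun b _ => ?_
  rw [nrm_monomial, norm_mul, wt_add]
  ring

theorem nrm_C (r : σ → ℝ) (c : ℂ) : nrm r (C c) = ‖c‖ := by
  rw [C_apply, nrm_monomial, wt_zero, mul_one]

theorem nrm_one (r : σ → ℝ) : nrm r 1 = 1 := by
  rw [← C_1, nrm_C, norm_one]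

theorem nrm_X (r : σ → ℝ) (i : σ) : nrm r (X i) = r i := by
  rw [X, nrm_monomial, wt_single, norm_one, one_mul]

theorem nrm_pow_le {r : σ → ℝ} (hr : ∀ i, 0 ≤ r i) (F : MvPolynomial σ ℂ) {b : ℝ}
    (hb : nrm r F ≤ b) (n : ℕ) : nrm r (F ^ n) ≤ b ^ n := by
  induction n with
  | zero => simp [nrm_one]
  | succ n ih =>
    rw [pow_succ, pow_succ]
    exact (nrm_mul_le hr _ _).trans
      (mul_le_mul ih hb (nrm_nonneg hr _) (pow_nonneg ((nrm_nonneg hr _).trans hb) _))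

theorem nrm_prod_le {r : σ → ℝ} (hr : ∀ i, 0 ≤ r i) {ι : Type*} (s : Finset ι)
    (F : ι → MvPolynomial σ ℂ) (b : ι → ℝ) (hb : ∀ i ∈ s, nrm r (F i) ≤ b i) :
    nrm r (∏ i ∈ s, F i) ≤ ∏ i ∈ s, b i := by
  classical
  induction s using Finset.induction_on with
  | empty => simp [nrm_one]
  | insert i s hi ih =>
    rw [Finset.prod_insert hi, Finset.prod_insert hi]
    have h1 := hb i (Finset.mem_insert_self _ _)
    exact (nrm_mul_le hr _ _).trans
      (mul_le_mul h1 (ih fun j hj => hb j (Finset.mem_insert_of_mem hj)) (nrm_nonneg hr _)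
        ((nrm_nonneg hr _).trans h1))

theorem nrm_C_mul_le {r : σ → ℝ} (hr : ∀ i, 0 ≤ r i) (c : ℂ) (F : MvPolynomial σ ℂ) :
    nrm r (C c * F) ≤ ‖c‖ * nrm r F := by
  simpa [nrm_C] using nrm_mul_le hr (C c) F

theorem coeff_le_nrm {r : σ → ℝ} (hr : ∀ i, 0 ≤ r i) (F : MvPolynomial σ ℂ) (a : σ →₀ ℕ) :
    ‖coeff a F‖ * wt r a ≤ nrm r F := by
  by_cases ha : a ∈ F.support
  · exact Finset.single_le_sum (f := fun a => ‖coeff a F‖ * wt r a)
      (fun b _ => mul_nonneg (norm_nonneg _) (wt_nonneg hr b)) ha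
  · rw [notMem_support_iff.1 ha]
    simpa using nrm_nonneg hr F

theorem nrm_mono {r r' : σ → ℝ} (hr : ∀ i, 0 ≤ r i) (h : ∀ i, r i ≤ r' i)
    (F : MvPolynomial σ ℂ) : nrm r F ≤ nrm r' F :=
  Finset.sum_le_sum fun a _ => mul_le_mul_of_nonneg_left (wt_mono hr h a) (norm_nonneg _)

theorem aeval_monomial_eq {A : Type*} [CommRing A] [Algebra ℂ A] (φ : σ → A) (a : σ →₀ ℕ)
    (c : ℂ) : aeval φ (monomial a c) = algebraMap ℂ A c * ∏ i, φ i ^ a i := by
  rw [aeval_monomial, Finsupp.prod_fintype _ _ (by simp)]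

theorem nrm_aeval_le {τ : Type*} [Fintype τ] {r : σ → ℝ} {r' : τ → ℝ} (hr' : ∀ i, 0 ≤ r' i)
    (φ : σ → MvPolynomial τ ℂ) (hφ : ∀ i, nrm r' (φ i) ≤ r i) (F : MvPolynomial σ ℂ) :
    nrm r' (aeval φ F) ≤ nrm r F := by
  conv_lhs => rw [F.as_sum, map_sum]
  refine (nrm_sum_le hr' _ _).trans (Finset.sum_le_sum fun a _ => ?_)
  rw [aeval_monomial_eq, algebraMap_eq]
  refine (nrm_C_mul_le hr' _ _).trans (mul_le_mul_of_nonneg_left ?_ (norm_nonneg _))
  exact nrm_prod_le hr' _ _ _ fun i _ => nrm_pow_le hr' _ (hφ i) _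

end Nrm

section Pigeon

theorem abs_sub_le_of_floor_eq {x y η : ℝ} (hη : 0 < η) (h : ⌊x / η⌋ = ⌊y / η⌋) :
    |x - y| ≤ η := by
  have h1 := Int.abs_sub_lt_one_of_floor_eq_floor h
  rw [← sub_div, abs_div, abs_of_pos hη, div_lt_one hη] at h1
  exact h1.le

theorem floor_mem_Icc {x η : ℝ} (hη : 0 < η) {N : ℕ} (h : |x| ≤ N * η) :
    ⌊x / η⌋ ∈ Finset.Icc (-(N : ℤ)) N := by
  rw [abs_le] at h
  rw [Finset.mem_Icc]
  constructor
  · rw [Int.le_floor, le_div_iff₀ hη]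
    push_cast
    linarith
  · have : x / η ≤ N := by
      rw [div_le_iff₀ hη]
      exact h.2
    have h2 := Int.floor_le (x / η)
    exact_mod_cast h2.trans this

theorem pigeon_fin {J ι : Type*} [Fintype J] [Fintype ι] (L : J → ι → ℂ) (B η : ℝ) (X : ℕ)
    (hη : 0 < η) (hB : 0 ≤ B) (hL : ∀ j i, ‖L j i‖ ≤ B)
    (h : (2 * (Fintype.card ι * B * X / η) + 3) ^ (2 * Fintype.card J) <
      ((X : ℝ) + 1) ^ Fintype.card ι) :
    ∃ c : ι → ℤ, c ≠ 0 ∧ (∀ i, |c i| ≤ X) ∧ ∀ j, ‖∑ i, (c i : ℂ) * L j i‖ ≤ 2 * η := by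
  classical
  set N : ℕ := ⌈Fintype.card ι * B * X / η⌉₊ with hN
  set S : Finset (ι → ℤ) := Fintype.piFinset fun _ => Finset.Icc (0 : ℤ) X with hS
  set T : Finset (J → ℤ × ℤ) :=
    Fintype.piFinset fun _ => Finset.Icc (-(N : ℤ)) N ×ˢ Finset.Icc (-(N : ℤ)) N with hT
  set V : (ι → ℤ) → J → ℂ := fun c j => ∑ i, (c i : ℂ) * L j i with hV
  set f : (ι → ℤ) → J → ℤ × ℤ := fun c j => (⌊(V c j).re / η⌋, ⌊(V c j).im / η⌋) with hf
  have hcard : T.card < S.card := by
    have h0 : (0 : ℝ) ≤ Fintype.card ι * B * X / η := by positivity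
    have hS' : (S.card : ℝ) = ((X : ℝ) + 1) ^ Fintype.card ι := by
      rw [hS, Fintype.card_piFinset]
      simp
    have hT' : (T.card : ℝ) = (2 * (N : ℝ) + 1) ^ (2 * Fintype.card J) := by
      rw [hT, Fintype.card_piFinset]
      have : ((N : ℤ) + 1 - -(N : ℤ)).toNat = 2 * N + 1 := by omega
      simp only [Finset.card_product, Int.card_Icc, this, Finset.prod_const, Finset.card_univ]
      push_cast
      rw [pow_mul]
      ring
    have hNle : (N : ℝ) ≤ Fintype.card ι * B * X / η + 1 := (Nat.ceil_lt_add_one h0).le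
    have : (T.card : ℝ) < S.card := by
      rw [hS', hT']
      refine lt_of_le_of_lt ?_ h
      exact pow_le_pow_left₀ (by positivity) (by linarith) _
    exact_mod_cast this
  have hmaps : Set.MapsTo f S T := by
    intro c hc
    have hc' : ∀ i, 0 ≤ c i ∧ c i ≤ X := fun i =>
      Finset.mem_Icc.1 (Fintype.mem_piFinset.1 (Finset.mem_coe.1 hc) i)
    have hb : ∀ j, ‖V c j‖ ≤ N * η := by
      intro j
      have h1 : ‖V c j‖ ≤ ∑ _i : ι, (X : ℝ) * B := by
        refine (norm_sum_le _ _).trans (Finset.sum_le_sum fun i _ => ?_)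
        rw [norm_mul, Complex.norm_intCast]
        refine mul_le_mul ?_ (hL j i) (norm_nonneg _) (by positivity)
        rw [abs_of_nonneg (by exact_mod_cast (hc' i).1)]
        exact_mod_cast (hc' i).2
      have h2 : Fintype.card ι * B * X / η ≤ N := Nat.le_ceil _
      rw [div_le_iff₀ hη] at h2
      simp only [Finset.sum_const, Finset.card_univ, nsmul_eq_mul] at h1
      linarith
    simp only [hT, Finset.mem_coe, Fintype.mem_piFinset, Finset.mem_product]
    intro j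
    exact ⟨floor_mem_Icc hη ((Complex.abs_re_le_norm _).trans (hb j)),
      floor_mem_Icc hη ((Complex.abs_im_le_norm _).trans (hb j))⟩
  obtain ⟨c₁, hc₁, c₂, hc₂, hne, heq⟩ := Finset.exists_ne_map_eq_of_card_lt_of_maps_to hcard hmaps
  have hc₁' : ∀ i, 0 ≤ c₁ i ∧ c₁ i ≤ X := by simpa [hS, Fintype.mem_piFinset] using hc₁
  have hc₂' : ∀ i, 0 ≤ c₂ i ∧ c₂ i ≤ X := by simpa [hS, Fintype.mem_piFinset] using hc₂
  refine ⟨c₁ - c₂, sub_ne_zero.2 hne, fun i => ?_, fun j => ?_⟩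
  · have := hc₁' i
    have := hc₂' i
    rw [Pi.sub_apply, abs_le]
    constructor <;> omega
  · have h1 : ∑ i, (((c₁ - c₂) i : ℤ) : ℂ) * L j i = V c₁ j - V c₂ j := by
      simp only [hV, ← Finset.sum_sub_distrib, Pi.sub_apply]
      refine Finset.sum_congr rfl fun i _ => ?_
      push_cast
      ring
    rw [h1]
    have h2 := congrFun heq j
    simp only [hf, Prod.mk.injEq] at h2
    have h3 := abs_sub_le_of_floor_eq hη h2.1
    have h4 := abs_sub_le_of_floor_eq hη h2.2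
    refine (Complex.norm_le_abs_re_add_abs_im _).trans ?_
    rw [Complex.sub_re, Complex.sub_im]
    linarith

theorem pigeon {α γ : Type*} (U : Finset α) (J : Finset γ) (L : γ → α → ℂ) (B η : ℝ) (X : ℕ)
    (hη : 0 < η) (hB : 0 ≤ B) (hL : ∀ j ∈ J, ∀ i ∈ U, ‖L j i‖ ≤ B)
    (h : (2 * (U.card * B * X / η) + 3) ^ (2 * J.card) < ((X : ℝ) + 1) ^ U.card) :
    ∃ c : α → ℤ, (∃ i ∈ U, c i ≠ 0) ∧ (∀ i, |c i| ≤ X) ∧
      ∀ j ∈ J, ‖∑ i ∈ U, (c i : ℂ) * L j i‖ ≤ 2 * η := by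
  classical
  obtain ⟨c, hc0, hcX, hc⟩ := pigeon_fin (J := J) (ι := U) (fun j i => L j i) B η X hη hB
    (fun j i => hL j j.2 i i.2) (by simpa using h)
  refine ⟨fun i => if hi : i ∈ U then c ⟨i, hi⟩ else 0, ?_, fun i => ?_, fun j hj => ?_⟩
  · obtain ⟨i, hi⟩ := Function.ne_iff.1 hc0
    exact ⟨i, i.2, by simpa using hi⟩
  · dsimp only
    split_ifs with hi
    · exact hcX _
    · simp
  · have := hc ⟨j, hj⟩
    rw [← Finset.sum_coe_sort U]
    simpa using this

end Pigeon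

section Cauchy

theorem iteratedDeriv_eval (f : Polynomial ℂ) (n : ℕ) :
    iteratedDeriv n (fun z => f.eval z) = fun z => (Polynomial.derivative^[n] f).eval z := by
  induction n with
  | zero => simp
  | succ n ih =>
    rw [iteratedDeriv_succ, ih, Function.iterate_succ_apply']
    funext z
    exact Polynomial.deriv _

theorem poly_cauchy (f : Polynomial ℂ) {R Cb : ℝ} (hR : 0 < R)
    (h : ∀ u : ℂ, ‖u‖ = R → ‖f.eval u‖ ≤ Cb) (t : ℕ) : ‖f.coeff t‖ * R ^ t ≤ Cb := by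
  have h1 := Complex.norm_iteratedDeriv_le_of_forall_mem_sphere_norm_le (c := 0) (C := Cb)
    (f := fun z => f.eval z) t hR f.differentiable.diffContOnCl
    (fun z hz => h z (by simpa using hz))
  rw [iteratedDeriv_eval] at h1
  simp only [← Polynomial.coeff_zero_eq_eval_zero, Polynomial.coeff_iterate_derivative,
    zero_add, Nat.descFactorial_self, nsmul_eq_mul, norm_mul, Complex.norm_natCast] at h1
  have ht : (0 : ℝ) < t.factorial := by exact_mod_cast t.factorial_pos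
  rw [le_div_iff₀ (pow_pos hR t), mul_assoc] at h1
  exact le_of_mul_le_mul_left h1 ht

/-- Evaluation of the variable `none`. -/
noncomputable def ev {m : ℕ} (u : ℂ) :
    MvPolynomial (Option (Fin m)) ℂ →ₐ[ℂ] MvPolynomial (Fin m) ℂ :=
  aeval fun o => o.elim (C u) X

theorem ev_monomial {m : ℕ} (u : ℂ) (a : Option (Fin m) →₀ ℕ) (c : ℂ) :
    ev u (monomial a c) = monomial a.some (c * u ^ a none) := by
  rw [ev, aeval_monomial_eq, Fintype.prod_option, monomial_eq, Finsupp.prod_fintype _ _ (by simp)]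
  simp [mul_assoc]

theorem mv_cauchy {m : ℕ} (F : MvPolynomial (Option (Fin m)) ℂ) (a : Option (Fin m) →₀ ℕ)
    {R Cb : ℝ} (hR : 0 < R) (h : ∀ u : ℂ, ‖u‖ = R → ‖coeff a.some (ev u F)‖ ≤ Cb) :
    ‖coeff a F‖ * R ^ a none ≤ Cb := by
  classical
  set f : Polynomial ℂ := ∑ b ∈ F.support with b.some = a.some,
    Polynomial.monomial (b none) (coeff b F) with hf
  have h1 : ∀ u, f.eval u = coeff a.some (ev u F) := by
    intro u
    conv_rhs => rw [F.as_sum, map_sum, coeff_sum]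
    rw [hf, Polynomial.eval_finsetSum, Finset.sum_filter]
    refine Finset.sum_congr rfl fun b _ => ?_
    rw [ev_monomial, coeff_monomial]
    split_ifs <;> simp
  have h2 : f.coeff (a none) = coeff a F := by
    rw [hf, Polynomial.finsetSum_coeff, Finset.sum_eq_single a]
    · simp
    · intro b hb hba
      rw [Polynomial.coeff_monomial, if_neg]
      intro hn
      apply hba
      rw [← Finsupp.optionElim_some b, ← Finsupp.optionElim_some a, hn,
        (Finset.mem_filter.1 hb).2]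
    · intro ha
      have : a ∉ F.support := fun h' => ha (Finset.mem_filter.2 ⟨h', rfl⟩)
      simp [notMem_support_iff.1 this]
  rw [← h2]
  exact poly_cauchy f hR (fun u hu => by rw [h1]; exact h u hu) _

end Cauchy

section Integral

/-- Polynomials with Gaussian integer coefficients. -/
noncomputable def OA (σ : Type*) : Subring (MvPolynomial σ ℂ) :=
  (MvPolynomial.map GaussianInt.toComplex).range

theorem X_mem_OA {σ : Type*} (i : σ) : (X i : MvPolynomial σ ℂ) ∈ OA σ :=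
  ⟨X i, map_X _ _⟩

theorem C_int_mem_OA {σ : Type*} (n : ℤ) : (C (n : ℂ) : MvPolynomial σ ℂ) ∈ OA σ :=
  ⟨C (n : GaussianInt), by rw [map_C]; simp⟩

theorem C_nat_mem_OA {σ : Type*} (n : ℕ) : (C (n : ℂ) : MvPolynomial σ ℂ) ∈ OA σ := by
  simp

theorem C_I_mem_OA {σ : Type*} : (C Complex.I : MvPolynomial σ ℂ) ∈ OA σ :=
  ⟨C ⟨0, 1⟩, by rw [map_C]; simp [GaussianInt.toComplex_def']⟩

theorem coeff_eq_zero_of_mem_OA {σ : Type*} {F : MvPolynomial σ ℂ} (hF : F ∈ OA σ)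
    (a : σ →₀ ℕ) (h : ‖coeff a F‖ < 1) : coeff a F = 0 := by
  obtain ⟨G, rfl⟩ := hF
  rw [coeff_map] at h ⊢
  set g := coeff a G
  have h1 : (g.norm : ℝ) < 1 := by
    rw [GaussianInt.intCast_real_norm, Complex.normSq_eq_norm_sq]
    have := norm_nonneg (GaussianInt.toComplex g)
    nlinarith
  have h2 : g.norm < 1 := by exact_mod_cast h1
  have h3 : g.norm = 0 := le_antisymm (by omega) (GaussianInt.norm_nonneg g)
  rw [GaussianInt.norm_eq_zero.1 h3, map_zero]

end Integral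

end Vale.Agent.P021
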