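import Vale.Agent.P021.Local

/-! The zero estimate. -/

namespace Vale.Agent.P021

open MvPolynomial Finset Filter Topology

variable {m : ℕ}

theorem finrank_quot_comap {ω : Option (Fin m) → ℝ} (hω : ∀ i, 0 < ω i) (v ξ : Fin m → ℂ)
    (h : Fin m → ℕ) (l : ℝ) :
    Nonempty ((MvPolynomial (Option (Fin m)) ℂ ⧸ (IgeI ω (fun i => (hω i).le) l).comap (Phi v ξ h))
      ≃ₗ[ℂ] (mons ω univ l → ℂ)) := by
  let f := coefs (mons ω univ l) ∘ₗ (Phi v ξ h).toLinearMap
  have hf : Function.Surjective f :=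
    (coefs_surj (mons_finite ω hω univ l)).comp (Phi_surj v ξ h)
  have hker : ((IgeI ω (fun i => (hω i).le) l).comap (Phi v ξ h)).restrictScalars ℂ =
      LinearMap.ker f := by
    ext F
    change Phi v ξ h F ∈ Ige ω l ↔ _
    rw [mem_Ige, LinearMap.mem_ker, funext_iff]
    constructor
    · rintro hF ⟨a, ha⟩
      by_contra hne
      exact absurd ha.2 (not_lt.mpr (hF a (mem_support_iff.mpr hne)))
    · intro hF a ha
      by_contra hlt
      exact mem_support_iff.mp ha (hF ⟨a, subset_univ _, not_le.mp hlt⟩)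
  exact ⟨(Submodule.Quotient.restrictScalarsEquiv ℂ _).symm ≪≫ₗ
    Submodule.quotEquivOfEq _ _ hker ≪≫ₗ f.quotKerEquivOfSurjective hf⟩

/-- The filtrations used in the zero estimate. -/
noncomputable def filt {K : ℕ} (κ ω : Option (Fin m) → ℝ) (hκ : ∀ i, 0 < κ i) (hω : ∀ i, 0 < ω i)
    (v : Fin m → ℂ) (ξ : Fin K → Fin m → ℂ) (h : Fin m → ℕ) :
    Filt (MvPolynomial (Option (Fin m)) ℂ) (Fin K) where
  G := Alt κ
  I := fun k l => (IgeI ω (fun i => (hω i).le) l).comap (Phi v (ξ k) h)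
  G_fin := fun n => by
    have := (mons_finite κ hκ univ n).fintype
    rw [mons_univ] at this
    exact Module.Finite.of_basis (basisRestrictSupport ℂ _)
  G_mono := Alt_mono κ
  G_mul := Alt_mul
  G_exh := exists_mem_Alt κ
  G_one := fun n hn => C_mem_Alt κ hn 1
  I_top := fun k l hl => by
    rw [eq_top_iff]
    intro F _
    exact Ige_nonpos (fun i => (hω i).le) hl _
  I_mul := fun {k l l' f g} hf hg => by
    change Phi v (ξ k) h (f * g) ∈ Ige ω (l + l')
    rw [map_mul]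
    exact Ige_mul hf hg
  I_fin := fun k l => by
    obtain ⟨e⟩ := finrank_quot_comap hω v (ξ k) h l
    have := (mons_finite ω hω univ l).fintype
    exact Module.Finite.equiv e.symm

theorem Filt.sup_top {A : Type*} [CommRing A] [Algebra ℂ A] {ι : Type*} (F : Filt A ι)
    (p : Ideal A) (k : ι) {μ : ℝ} (hμ : 0 < μ) (h : p ⊔ F.I k μ = ⊤) (l : ℝ) : p ⊔ F.I k l = ⊤ := by
  have key : ∀ n : ℕ, (1 : A) ∈ p ⊔ F.I k (n * μ) := by
    intro n
    induction n with
    | zero => rw [F.I_top k _ (by simp)]; simp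
    | succ n ih =>
      obtain ⟨a, ha, b, hb, hab⟩ := Submodule.mem_sup.mp ih
      obtain ⟨a', ha', b', hb', hab'⟩ := Submodule.mem_sup.mp ((Ideal.eq_top_iff_one _).mp h)
      have e : (1 : A) = (a + b * a') + b * b' := by
        rw [add_assoc, ← mul_add, hab', mul_one, hab]
      rw [e]
      refine Ideal.add_mem _ (Ideal.mem_sup_left (p.add_mem ha (p.mul_mem_left _ ha')))
        (Ideal.mem_sup_right ?_)
      have := F.I_mul hb hb'
      rwa [Nat.cast_succ, add_mul, one_mul]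
  obtain ⟨n, hn⟩ := exists_nat_ge (l / μ)
  rw [div_le_iff₀ hμ] at hn
  rw [Ideal.eq_top_iff_one]
  exact sup_le_sup_left (F.I_anti k hn) p (key n)

theorem Alt_sub_Box {κ : Option (Fin m) → ℝ} (hκ : ∀ i, 0 < κ i) {N : ℝ}
    {a : Option (Fin m) →₀ ℕ} (ha : Finsupp.weight κ a < N) (i : Option (Fin m)) :
    a i ≤ ⌊N / κ i⌋₊ := by
  refine Nat.le_floor ?_
  rw [le_div_iff₀ (hκ i)]
  exact (le_weight' (fun i => (hκ i).le) a i).trans ha.le

theorem floor_mul_le {κ N : ℝ} (hκ : 0 < κ) (hN : 0 < N) : (⌊N / κ⌋₊ : ℝ) * κ ≤ N := by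
  rw [← le_div_iff₀ hκ]
  exact Nat.floor_le (by positivity)

theorem primeHyp {K : ℕ} (κ ω : Option (Fin m) → ℝ) (hκ : ∀ i, 0 < κ i) (hω : ∀ i, 0 < ω i)
    (v : Fin m → ℂ) (ξ : Fin K → Fin m → ℂ) (h : Fin m → ℕ) (Γ ε sep : ℝ) (hΓ : 1 ≤ Γ)
    (hε0 : 0 < ε) (hε1 : ε ≤ 1) (hsep0 : 0 ≤ sep) (hsep : sep ≤ (shrink Γ)^[m] ε / 2)
    (hv : ∀ j, v j ≠ 0) (hξ : ∀ j, Function.Injective fun k => ξ k j)
    (hκω : ∀ j, κ (some j) < ω (some j)) (hωΓ : ∀ j, ω (some j) ≤ Γ * κ (some j))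
    (hs0 : ∀ j, ω none ≤ sep * κ (some j)) (hs : ∀ i j, i < j → ω (some i) ≤ sep * κ (some j))
    (hh : ∀ j, ω (some j) ≤ (h j + 1) * ω none)
    (hvolA : K * (1 + ε) ^ (m + 1) * ∏ i, κ i < ∏ i, ω i)
    (hvolB : K * (1 + ε) ^ m * ∏ j, κ (some j) < ∏ j, ω (some j)) :
    (filt κ ω hκ hω v ξ h).PrimeHyp := by
  intro p hp
  have hκ0 : ∀ i, 0 ≤ κ i := fun i => (hκ i).le
  have hω0 : ∀ i, 0 ≤ ω i := fun i => (hω i).le
  obtain ⟨i₀, -, hi₀⟩ := exists_min_image univ ω ⟨none, mem_univ _⟩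
  have hc : ∀ i, ω i₀ ≤ ω i := fun i => hi₀ i (mem_univ i)
  set F := filt κ ω hκ hω v ξ h with hF
  have hI : ∀ k l G, G ∈ F.I k l ↔ Phi v (ξ k) h G ∈ Ige ω l := fun k l G => Iff.rfl
  have hone : (∀ k l, p ⊔ F.I k l = ⊤) →
      ∃ N : ℝ, 0 < N ∧ ∃ f ∈ F.G N, f ∉ p ∧ ∀ k, f ∈ p ⊔ F.I k N := fun htop =>
    ⟨1, one_pos, 1, F.G_one 1 one_pos, fun h1 => hp.ne_top ((Ideal.eq_top_iff_one _).mpr h1),
      fun k => by rw [htop]; trivial⟩
  have hunit : ∀ k μ (c : ℂ), 0 < μ → c ≠ 0 → C c ∈ p ⊔ F.I k μ → ∀ l, p ⊔ F.I k l = ⊤ :=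
    fun k μ c hμ hc0 hmem => F.sup_top p k hμ
      (Ideal.eq_top_of_isUnit_mem _ hmem (IsUnit.map C hc0.isUnit))
  by_cases hT0 : ∀ (n : ℕ) (V : MvPolynomial (Option (Fin m)) ℂ),
      V ∈ Box (Pi.single none n) → V ∈ p → V = 0
  · left
    obtain ⟨N, hN, P, hP0, hPs, hPv⟩ := exists_vanishing κ ω hκ hω univ K
      (fun k => (Phi v (ξ k) h).toLinearMap) ε hε0 (by simpa using hvolA)
    have hPI : ∀ k, Phi v (ξ k) h P ∈ Ige ω ((1 + ε) * N) := fun k => mem_Ige.mpr fun a ha => by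
      by_contra hlt
      exact mem_support_iff.mp ha (hPv k a ⟨subset_univ _, not_le.mp hlt⟩)
    have hnot := roth_core (frameA v) κ ω p (fun _ => True) Γ sep hΓ hsep0 hκ hω hωΓ hs0 hs
      (fun _ _ _ _ => trivial)
      (fun d P _ hd hPd hPp => hT0 (d none) P (Box_mono (by
        rintro (_ | j)
        · simp
        · simp [hd j]) hPd) hPp)
      (fun j d P l w _ => stepA v hv hp (hω i₀) hc j d P l w) m le_rfl ε hε0 hε1 hsep N hN
      (fun i => ⌊N / κ i⌋₊) P trivial (fun i hi => absurd i.2 (not_lt.mpr hi))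
      (fun i => floor_mul_le (hκ _) hN)
      (mem_Box.mpr fun a ha i => Alt_sub_Box hκ (hPs a ha).2 i) hP0
    rw [mem_Idx] at hnot
    push Not at hnot
    obtain ⟨w, hw, hwp⟩ := hnot
    have key : ∀ (w : List (Option (Fin m))) (G : MvPolynomial (Option (Fin m)) ℂ) (l : ℝ),
        G ∈ Alt κ N → (∀ k, Phi v (ξ k) h G ∈ Ige ω l) → applyW (frameA v) w G ∈ Alt κ N ∧
          ∀ k, Phi v (ξ k) h (applyW (frameA v) w G) ∈ Ige ω (l - wwt ω w) := by
      intro w
      induction w with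
      | nil => intro G l h1 h2; exact ⟨h1, by simpa [applyW] using h2⟩
      | cons i w ih =>
        intro G l h1 h2
        have := ih (frameA v i G) (l - ω i) (frameA_mem_Alt hκ0 h1 i)
          fun k => Phi_frameA hω0 hh (h2 k) i
        rwa [wwt_cons, ← sub_sub]
    obtain ⟨k1, k2⟩ := key w P _ (mem_Alt.mpr fun a ha => (hPs a ha).2) hPI
    exact ⟨N, hN, _, k1, hwp, fun k => Ideal.mem_sup_right
      ((hI k _ _).mpr (Ige_anti (by linarith) (k2 k)))⟩
  push Not at hT0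
  obtain ⟨n, V, hV, hVp, hV0⟩ := hT0
  obtain ⟨c, hc1⟩ := exists_X_sub_C_mem hp none n V hV hVp hV0
  have hyI : ∀ k, (X none - 1 : MvPolynomial (Option (Fin m)) ℂ) ∈ F.I k (ω none) := by
    intro k
    rw [hI, map_sub, Phi_none, map_one, add_sub_cancel_left]
    simpa using X_pow_mem_Ige ω none 1
  by_cases hc' : c = 1
  swap
  · left
    refine hone fun k => hunit k (ω none) (c - 1) (hω _) (sub_ne_zero.mpr hc') ?_
    have : (C (c - 1) : MvPolynomial (Option (Fin m)) ℂ) = -(X none - C c) + (X none - 1) := by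
      simp
    rw [this]
    exact Ideal.add_mem _ (Ideal.mem_sup_left (neg_mem hc1)) (Ideal.mem_sup_right (hyI k))
  subst hc'
  rw [C_1] at hc1
  have hZ : ∀ k l G, Zed m (Phi v (ξ k) h G) ∈ Ige ω l →
      ∃ g, G - (X none - 1) * g ∈ F.I k l := fun k l G hG => exists_of_Zed hG
  have hsup : ∀ k l G, (∃ g, G - (X none - 1) * g ∈ F.I k l) → G ∈ p ⊔ F.I k l := by
    rintro k l G ⟨g, hg⟩
    have : G = (X none - 1) * g + (G - (X none - 1) * g) := by ring
    rw [this]
    exact Ideal.add_mem _ (Ideal.mem_sup_left (p.mul_mem_right _ hc1)) (Ideal.mem_sup_right hg)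
  by_cases hT1 : ∀ (j : Fin m) (n : ℕ) (V : MvPolynomial (Option (Fin m)) ℂ),
      V ∈ Box (Pi.single (some j) n) → V ∈ p → V = 0
  · left
    obtain ⟨N, hN, P, hP0, hPs, hPv⟩ := exists_vanishing κ ω hκ hω
      (univ.map Function.Embedding.some) K
      (fun k => ((Zed m).comp (Phi v (ξ k) h)).toLinearMap) ε hε0 (by simpa using hvolB)
    have hsupp : ∀ a : Option (Fin m) →₀ ℕ,
        a.support ⊆ univ.map Function.Embedding.some ↔ a none = 0 := by
      intro a
      constructor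
      · intro ha
        by_contra hne
        simpa using ha (Finsupp.mem_support_iff.mpr hne)
      · rintro ha (_ | j) hj
        · exact absurd ha (Finsupp.mem_support_iff.mp hj)
        · simp
    have hPI : ∀ k, Zed m (Phi v (ξ k) h P) ∈ Ige ω ((1 + ε) * N) := fun k =>
      mem_Ige.mpr fun a ha => by
        by_contra hlt
        exact mem_support_iff.mp ha
          (hPv k a ⟨(hsupp a).mpr (Zed_support _ a ha), not_le.mp hlt⟩)
    have hnot := roth_core (frameB m) κ ω p (fun d => d none = 0) Γ sep hΓ hsep0 hκ hω hωΓ hs0 hs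
      (fun d j ρ hd => by simp [hd])
      (fun d P hd0 hd hPd hPp => by
        by_contra hP0
        have hPC : P = C (coeff 0 P) := by
          ext a
          by_cases ha : a = 0
          · subst ha; simp
          · rw [coeff_C, if_neg (Ne.symm ha)]
            by_contra hne
            apply ha
            ext i
            have := mem_Box.mp hPd a (mem_support_iff.mpr hne) i
            cases i with
            | none => simpa [hd0] using this
            | some j => simpa [hd j] using this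
        have hc0 : coeff 0 P ≠ 0 := fun h0 => hP0 (by rw [hPC, h0, C_0])
        rw [hPC] at hPp
        exact hp.ne_top (Ideal.eq_top_of_isUnit_mem _ hPp (IsUnit.map C hc0.isUnit)))
      (fun j d P l w hd hd' h1 h2 h3 h4 _ h6 =>
        stepB hp (hω i₀) hc hT1 j d hd P l w hd' h1 h2 h3 h4 h6) m le_rfl ε hε0 hε1 hsep N hN
      (fun i => i.elim 0 fun j => ⌊N / κ (some j)⌋₊) P rfl (fun i hi => absurd i.2 (not_lt.mpr hi))
      (fun i => floor_mul_le (hκ _) hN)
      (mem_Box.mpr fun a ha i => by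
        cases i with
        | none => exact ((hsupp a).mp (hPs a ha).1).le
        | some j => exact Alt_sub_Box hκ (hPs a ha).2 (some j)) hP0
    rw [mem_Idx] at hnot
    push Not at hnot
    obtain ⟨w, hw, hwp⟩ := hnot
    have key : ∀ (w : List (Option (Fin m))) (G : MvPolynomial (Option (Fin m)) ℂ) (l : ℝ),
        G ∈ Alt κ N → (∀ k, ∃ g, G - (X none - 1) * g ∈ F.I k l) →
          applyW (frameB m) w G ∈ Alt κ N ∧
          ∀ k, ∃ g, applyW (frameB m) w G - (X none - 1) * g ∈ F.I k (l - wwt ω w) := by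
      intro w
      induction w with
      | nil => intro G l h1 h2; exact ⟨h1, by simpa [applyW] using h2⟩
      | cons i w ih =>
        intro G l h1 h2
        have := ih (frameB m i G) (l - ω i) ?_ ?_
        · rwa [wwt_cons, ← sub_sub]
        · cases i with
          | none => exact Submodule.zero_mem _
          | some j => exact pderiv_mem_Alt hκ0 h1 _
        · intro k
          cases i with
          | none => exact ⟨0, by simp [frameB]⟩
          | some j =>
            obtain ⟨g, hg⟩ := h2 k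
            refine ⟨pderiv (some j) g, ?_⟩
            rw [hI] at hg ⊢
            have := pderiv_mem_Ige hg (some j)
            rw [← Phi_pderiv] at this
            simpa [frameB] using this
    obtain ⟨k1, k2⟩ := key w P _ (mem_Alt.mpr fun a ha => (hPs a ha).2) fun k => hZ k _ _ (hPI k)
    refine ⟨N, hN, _, k1, hwp, fun k => ?_⟩
    exact sup_le_sup_left (F.I_anti k (by linarith)) p (hsup k _ _ (k2 k))
  push Not at hT1
  obtain ⟨j, n, V, hV, hVp, hV0⟩ := hT1
  obtain ⟨c, hc2⟩ := exists_X_sub_C_mem hp (some j) n V hV hVp hV0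
  have hxI : ∀ k i, X (some i) - C (ξ k i) ∈ p ⊔ F.I k (ω (some i)) := by
    intro k i
    refine hsup k _ _ (hZ k _ _ ?_)
    have : Zed m (Phi v (ξ k) h (X (some i) - C (ξ k i))) = X (some i) := by
      simp [Phi_some, Zed, Gp]
    rw [this]
    simpa using X_pow_mem_Ige ω (some i) 1
  have htop : ∀ k, ξ k j ≠ c → ∀ l, p ⊔ F.I k l = ⊤ := by
    intro k hk
    refine hunit k (ω (some j)) (c - ξ k j) (hω _) (sub_ne_zero.mpr hk.symm) ?_
    have : (C (c - ξ k j) : MvPolynomial (Option (Fin m)) ℂ) =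
        -(X (some j) - C c) + (X (some j) - C (ξ k j)) := by simp
    rw [this]
    exact Ideal.add_mem _ (Ideal.mem_sup_left (neg_mem hc2)) (hxI k j)
  by_cases hex : ∃ k₀, ξ k₀ j = c
  swap
  · push Not at hex
    exact Or.inl (hone fun k => htop k (hex k))
  obtain ⟨k₀, hk₀⟩ := hex
  have htop' : ∀ k, k ≠ k₀ → ∀ l, p ⊔ F.I k l = ⊤ := fun k hk =>
    htop k fun h => hk (hξ j (h.trans hk₀.symm))
  by_cases hall : ∀ i, X (some i) - C (ξ k₀ i) ∈ p
  · right
    refine ⟨k₀, htop', fun f => ?_⟩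
    induction f using MvPolynomial.induction_on with
    | C a => exact ⟨a, by simp⟩
    | add f g hf hg =>
      obtain ⟨a, ha⟩ := hf
      obtain ⟨b, hb⟩ := hg
      refine ⟨a + b, ?_⟩
      rw [map_add, add_sub_add_comm]
      exact p.add_mem ha hb
    | mul_X f i hf =>
      obtain ⟨a, ha⟩ := hf
      obtain ⟨b, hb⟩ : ∃ b : ℂ, X i - C b ∈ p := by
        cases i with
        | none => exact ⟨1, by simpa using hc1⟩
        | some i => exact ⟨_, hall i⟩
      refine ⟨a * b, ?_⟩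
      rw [algebraMap_eq] at ha ⊢
      have : f * X i - C (a * b) = (f - C a) * X i + C a * (X i - C b) := by
        rw [map_mul]; ring
      rw [this]
      exact p.add_mem (p.mul_mem_right _ ha) (p.mul_mem_left _ hb)
  · left
    push Not at hall
    obtain ⟨i, hi⟩ := hall
    refine ⟨ω (some i), hω _, _, Submodule.sub_mem _ (X_mem_Alt κ _ (hκω i))
      (C_mem_Alt κ (hω _) _), hi, fun k => ?_⟩
    by_cases hk : k = k₀
    · subst hk; exact hxI k i
    · rw [htop' k hk]; trivial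

theorem zero_estimate (m : ℕ) (Γ slack : ℝ) (hΓ : 1 ≤ Γ) (hslack : 0 < slack) :
    ∃ sep : ℝ, 0 < sep ∧ ∀ (K : ℕ) (κ ω : Option (Fin m) → ℝ) (v : Fin m → ℂ)
      (ξ : Fin K → Fin m → ℂ) (h : Fin m → ℕ),
      (∀ i, 0 < κ i) → (∀ i, 0 < ω i) → (∀ j, v j ≠ 0) →
      (∀ j, Function.Injective fun k => ξ k j) →
      (∀ j, κ (some j) < ω (some j)) → (∀ j, ω (some j) ≤ Γ * κ (some j)) →
      (∀ j, ω none ≤ sep * κ (some j)) →
      (∀ i j, i < j → ω (some i) ≤ sep * κ (some j)) →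
      (∀ j, ω (some j) ≤ (h j + 1) * ω none) →
      (K * (1 + slack) * ∏ i, κ i ≤ ∏ i, ω i) →
      (K * (1 + slack) * ∏ j, κ (some j) ≤ ∏ j, ω (some j)) →
      ∀ (a : ℕ) (η : ℝ) (P : MvPolynomial (Option (Fin m)) ℂ), 0 < η → P ≠ 0 →
        P ∈ Alt κ (a * η) → (∀ k, Phi v (ξ k) h P ∈ Ige ω ((a + 1) * η)) →
        (a + 1) * K * ∏ i, κ i ≤ a * ∏ i, ω i := by
  obtain ⟨ε, hε0, hε1, hε⟩ : ∃ ε : ℝ, 0 < ε ∧ ε ≤ 1 ∧ (1 + ε) ^ (m + 1) < 1 + slack := by
    have hc : ContinuousAt (fun x : ℝ => (1 + x) ^ (m + 1)) 0 := by fun_prop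
    have h1 := hc.eventually_lt_const (u := 1 + slack) (by simpa using hslack)
    obtain ⟨x, hx1, hx2⟩ := ((h1.filter_mono nhdsWithin_le_nhds).and
      (Ioc_mem_nhdsGT (show (0 : ℝ) < 1 by norm_num))).exists
    exact ⟨x, hx2.1, hx2.2, hx1⟩
  have hsh := (shrink_iterate hΓ m hε0 hε1).1
  refine ⟨(shrink Γ)^[m] ε / 2, by positivity, ?_⟩
  intro K κ ω v ξ h hκ hω hv hξ hκω hωΓ hs0 hs hh hA hB a η P hη hP0 hPG hPI
  have hpκ : 0 < ∏ i, κ i := prod_pos fun i _ => hκ i
  have hpω : 0 < ∏ i, ω i := prod_pos fun i _ => hω i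
  have hlt : ∀ (x y t : ℝ), 0 < x → 0 < y → t < 1 + slack → K * (1 + slack) * x ≤ y →
      K * t * x < y := by
    intro x y t hx hy ht hxy
    rcases Nat.eq_zero_or_pos K with rfl | hK
    · simpa using hy
    · refine lt_of_lt_of_le ?_ hxy
      have : (0 : ℝ) < K := by exact_mod_cast hK
      gcongr
  have hPH := primeHyp κ ω hκ hω v ξ h Γ ε _ hΓ hε0 hε1 (by positivity) le_rfl hv hξ hκω hωΓ hs0 hs
    hh (hlt _ _ _ hpκ hpω hε hA)
    (hlt _ _ _ (prod_pos fun i _ => hκ _) (prod_pos fun i _ => hω _)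
      (lt_of_le_of_lt (pow_le_pow_right₀ (by linarith) (Nat.le_succ m)) hε) hB)
  obtain ⟨c, hc⟩ := (filt κ ω hκ hω v ξ h).final_ineq hPH a η hη P hP0 hPG hPI
  have hH : ∀ k l, (filt κ ω hκ hω v ξ h).H ⊥ k l = (mons ω univ l).ncard := by
    intro k l
    obtain ⟨e⟩ := finrank_quot_comap hω v (ξ k) h l
    rw [Filt.H, bot_sup_eq, ← finrank_fun (mons_finite ω hω univ l)]
    exact e.finrank_eq
  have hh' : ∀ n, (filt κ ω hκ hω v ξ h).h ⊥ n ≤ (mons κ univ n).ncard := by
    intro n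
    have := (filt κ ω hκ hω v ξ h).G_fin n
    refine (Submodule.finrank_map_le _ _).trans ?_
    rw [mons_univ, ← finrank_restrictSupport]
    rfl
  set n := (univ : Finset (Option (Fin m))).card with hn
  set S := ∑ i, κ i with hS
  have hf : (0 : ℝ) < n.factorial := by exact_mod_cast Nat.factorial_pos _
  have hev : ∀ᶠ J : ℕ in atTop, (a + 1) * K * (η - a * η / J) ^ n * ∏ i, κ i ≤
      a * (η + (c + S) / J) ^ n * ∏ i, ω i := by
    obtain ⟨J₀, hJ₀⟩ := exists_nat_ge (-c / η)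
    filter_upwards [eventually_gt_atTop a, eventually_ge_atTop J₀] with J hJa hJ
    have hJa' : (a : ℝ) < J := by exact_mod_cast hJa
    have hJ0 : (0 : ℝ) < J := lt_of_le_of_lt (Nat.cast_nonneg a) hJa'
    have hJc : 0 ≤ J * η + c := by
      have : (J₀ : ℝ) ≤ J := by exact_mod_cast hJ
      rw [div_le_iff₀ hη] at hJ₀
      nlinarith
    have h1 := hc J
    simp only [hH, sum_const, card_univ, Fintype.card_fin, smul_eq_mul] at h1
    have h2 : ((a : ℝ) + 1) * (K * (mons ω univ ((J - a) * η)).ncard) ≤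
        a * (mons κ univ (J * η + c)).ncard := by
      exact_mod_cast h1.trans (Nat.mul_le_mul_left a (hh' _))
    have h3 := le_ncard_mons ω hω univ ((J - a) * η) (mul_pos (sub_pos.mpr hJa') hη)
    have h4 := ncard_mons_le κ hκ univ (J * η + c) hJc
    have h5 : ((a : ℝ) + 1) * (K * (((J - a) * η) ^ n / (n.factorial * ∏ i, ω i))) ≤
        a * ((J * η + c + S) ^ n / (n.factorial * ∏ i, κ i)) := by
      refine le_trans ?_ (h2.trans (mul_le_mul_of_nonneg_left h4 (Nat.cast_nonneg a)))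
      gcongr
    have e1 : ((J : ℝ) - a) * η = (η - a * η / J) * J := by field_simp
    have e2 : (J : ℝ) * η + c + S = (η + (c + S) / J) * J := by field_simp; ring
    rw [e1, e2, mul_pow, mul_pow, ← mul_div_assoc, ← mul_div_assoc, ← mul_div_assoc,
      div_le_div_iff₀ (by positivity) (by positivity)] at h5
    refine le_of_mul_le_mul_right ?_ (show (0 : ℝ) < J ^ n * n.factorial by positivity)
    nlinarith
  have t1 : Tendsto (fun J : ℕ => (a + 1) * K * (η - a * η / J) ^ n * ∏ i, κ i) atTop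
      (𝓝 ((a + 1) * K * (η - 0) ^ n * ∏ i, κ i)) :=
    ((((tendsto_const_div_atTop_nhds_zero_nat _).const_sub _).pow _).const_mul _).mul_const _
  have t2 : Tendsto (fun J : ℕ => a * (η + (c + S) / J) ^ n * ∏ i, ω i) atTop
      (𝓝 (a * (η + 0) ^ n * ∏ i, ω i)) :=
    ((((tendsto_const_div_atTop_nhds_zero_nat _).const_add _).pow _).const_mul _).mul_const _
  have := le_of_tendsto_of_tendsto t1 t2 hev
  rw [sub_zero, add_zero] at this
  refine le_of_mul_le_mul_right ?_ (pow_pos hη n)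
  nlinarith

end Vale.Agent.P021
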